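import Vale.Agent.P218.Slow

/-! Families of measures whose variation is controlled by the drop of an energy. -/

set_option linter.unusedSectionVars false
set_option linter.unusedVariables false

open MeasureTheory Set Filter Topology
open scoped ENNReal NNReal CompactlySupported

namespace Vale.Agent.P218

variable {E : Type*} [NormedAddCommGroup E] [InnerProductSpace ℝ E] [FiniteDimensional ℝ E]
  [MeasurableSpace E] [BorelSpace E]

/-- the variation of `N` on `[τ, τ']` is controlled by the drop of `D` -/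
structure Energy (N : ℝ → Measure E) (D : ℝ → ℝ) (τ₀ : ℝ) : Prop where
  bdd : ∀ K : Set E, IsCompact K → ∃ C : ℝ≥0, ∀ τ, τ₀ ≤ τ → N τ K ≤ C
  anti : ∀ τ τ', τ₀ ≤ τ → τ ≤ τ' → D τ' ≤ D τ
  nonneg : ∀ τ, τ₀ ≤ τ → 0 ≤ D τ
  key : ∀ φ : E → ℝ, ContDiff ℝ 1 φ → HasCompactSupport φ → ∃ A B : ℝ, 0 ≤ A ∧ 0 ≤ B ∧
    ∀ τ τ', τ₀ ≤ τ → τ ≤ τ' → |∫ x, φ x ∂(N τ') - ∫ x, φ x ∂(N τ)| ≤
      A * (D τ - D τ') + B * √((τ' - τ) * (D τ - D τ'))

namespace Energy

variable {N : ℝ → Measure E} {D : ℝ → ℝ} {τ₀ : ℝ}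

/-- the energy drop tends to zero -/
theorem small (h : Energy N D τ₀) {δ : ℝ} (hδ : 0 < δ) :
    ∃ T ≥ τ₀, ∀ τ τ', T ≤ τ → τ ≤ τ' → D τ - D τ' ≤ δ := by
  set S : Set ℝ := D '' Ici τ₀ with hS
  have hne : S.Nonempty := ⟨_, τ₀, self_mem_Ici, rfl⟩
  have hbd : BddBelow S := ⟨0, by rintro _ ⟨τ, hτ, rfl⟩; exact h.nonneg τ hτ⟩
  obtain ⟨_, ⟨T, hT, rfl⟩, hTlt⟩ := exists_lt_of_csInf_lt hne
    (show sInf S < sInf S + δ by linarith)
  refine ⟨T, hT, fun τ τ' h1 h2 => ?_⟩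
  have h3 : sInf S ≤ D τ' := csInf_le hbd ⟨τ', (le_trans hT (h1.trans h2)), rfl⟩
  have h4 : D τ ≤ D T := h.anti T τ hT h1
  linarith

theorem slow (h : Energy N D τ₀) : Slow N τ₀ := by
  refine ⟨h.bdd, fun φ hφ hφs L hL ε hε => ?_⟩
  obtain ⟨A, B, hA, hB, hkey⟩ := h.key φ hφ hφs
  -- choose `δ` with `A δ + B √(L δ) ≤ ε`
  set δ : ℝ := min (ε / (2 * (A + 1))) ((ε / (2 * (B + 1))) ^ 2 / L) with hδ
  have hδpos : 0 < δ := by positivity
  obtain ⟨T, hT0, hT⟩ := h.small hδpos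
  refine ⟨T, hT0, fun τ τ' h1 h2 h3 => ?_⟩
  have h4 := hT τ τ' h1 h2
  have h5 : 0 ≤ D τ - D τ' := sub_nonneg.2 (h.anti τ τ' (hT0.trans h1) h2)
  refine (hkey τ τ' (hT0.trans h1) h2).trans ?_
  have e1 : A * (D τ - D τ') ≤ ε / 2 := by
    have : D τ - D τ' ≤ ε / (2 * (A + 1)) := h4.trans (min_le_left _ _)
    calc A * (D τ - D τ') ≤ A * (ε / (2 * (A + 1))) := by gcongr
      _ ≤ ε / 2 := by
        rw [mul_div_assoc', div_le_div_iff₀ (by positivity) (by positivity)]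
        nlinarith
  have e2 : B * √((τ' - τ) * (D τ - D τ')) ≤ ε / 2 := by
    have h6 : (τ' - τ) * (D τ - D τ') ≤ (ε / (2 * (B + 1))) ^ 2 := by
      have : D τ - D τ' ≤ (ε / (2 * (B + 1))) ^ 2 / L := h4.trans (min_le_right _ _)
      calc (τ' - τ) * (D τ - D τ') ≤ L * ((ε / (2 * (B + 1))) ^ 2 / L) := by
            refine mul_le_mul (by linarith) this h5 hL.le
        _ = (ε / (2 * (B + 1))) ^ 2 := by field_simp
    have h7 : √((τ' - τ) * (D τ - D τ')) ≤ ε / (2 * (B + 1)) :=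
      (Real.sqrt_le_sqrt h6).trans (by rw [Real.sqrt_sq (by positivity)])
    calc B * √((τ' - τ) * (D τ - D τ')) ≤ B * (ε / (2 * (B + 1))) := by gcongr
      _ ≤ ε / 2 := by
        rw [mul_div_assoc', div_le_div_iff₀ (by positivity) (by positivity)]
        nlinarith
  linarith

/-- convergence along a sequence with small gaps implies convergence -/
theorem tendsto_of_gaps (h : Energy N D τ₀) {τ : ℕ → ℝ} (hτ0 : ∀ k, τ₀ ≤ τ k)
    (hmono : Monotone τ) (hτ : Tendsto τ atTop atTop)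
    (hgap : Tendsto (fun k => (τ (k + 1) - τ k) * (D (τ k) - D (τ (k + 1)))) atTop (𝓝 0))
    {φ : E → ℝ} (hφ : ContDiff ℝ 1 φ) (hφs : HasCompactSupport φ) {l : ℝ}
    (hl : Tendsto (fun k => ∫ x, φ x ∂(N (τ k))) atTop (𝓝 l)) :
    Tendsto (fun t => ∫ x, φ x ∂(N t)) atTop (𝓝 l) := by
  obtain ⟨A, B, hA, hB, hkey⟩ := h.key φ hφ hφs
  have hDlim : Tendsto (fun k => D (τ k) - D (τ (k + 1))) atTop (𝓝 0) := by
    rw [Metric.tendsto_atTop]
    intro ε hε
    obtain ⟨T, hT0, hT⟩ := h.small (half_pos hε)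
    obtain ⟨k₀, hk₀⟩ := eventually_atTop.1 (hτ.eventually_ge_atTop T)
    refine ⟨k₀, fun k hk => ?_⟩
    have h1 := hT (τ k) (τ (k + 1)) (hk₀ k hk) (hmono (Nat.le_succ k))
    have h2 := h.anti (τ k) (τ (k + 1)) (hτ0 k) (hmono (Nat.le_succ k))
    rw [Real.dist_eq, sub_zero, abs_of_nonneg (by linarith)]
    linarith
  set b : ℕ → ℝ := fun k => A * (D (τ k) - D (τ (k + 1))) +
    B * √((τ (k + 1) - τ k) * (D (τ k) - D (τ (k + 1)))) with hb
  have hblim : Tendsto b atTop (𝓝 0) := by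
    have h1 := hDlim.const_mul A
    have h2 := (hgap.sqrt).const_mul B
    have h3 := h1.add h2
    simpa [hb] using h3
  rw [Metric.tendsto_atTop] at hl hblim ⊢
  intro ε hε
  obtain ⟨k₁, hk₁⟩ := hl (ε / 2) (half_pos hε)
  obtain ⟨k₂, hk₂⟩ := hblim (ε / 2) (half_pos hε)
  refine ⟨τ (max k₁ k₂), fun t ht => ?_⟩
  -- the last index before `t`
  obtain ⟨n, hn⟩ : ∃ n, t < τ n := (hτ.eventually_gt_atTop t).exists
  classical
  set j := Nat.find (⟨n, hn⟩ : ∃ n, t < τ n) with hj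
  have hj1 : t < τ j := Nat.find_spec (⟨n, hn⟩ : ∃ n, t < τ n)
  have hj2 : max k₁ k₂ < j := by
    by_contra hcon
    push Not at hcon
    exact absurd hj1 (not_lt.2 ((hmono hcon).trans ht))
  obtain ⟨k, hk⟩ : ∃ k, j = k + 1 := ⟨j - 1, by omega⟩
  have hk3 : max k₁ k₂ ≤ k := by omega
  have hk4 : τ k ≤ t := by
    have := Nat.find_min (⟨n, hn⟩ : ∃ n, t < τ n) (m := k) (by omega)
    exact not_lt.1 this
  rw [hk] at hj1
  have h1 := hk₁ k (le_trans (le_max_left _ _) hk3)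
  have h2 := hk₂ k (le_trans (le_max_right _ _) hk3)
  have hDt : D (τ (k + 1)) ≤ D t := h.anti t _ ((hτ0 k).trans hk4) hj1.le
  have hDk : D t ≤ D (τ k) := h.anti _ t (hτ0 k) hk4
  have h3 : |∫ x, φ x ∂(N t) - ∫ x, φ x ∂(N (τ k))| ≤ b k := by
    refine (hkey (τ k) t (hτ0 k) hk4).trans ?_
    have e1 : A * (D (τ k) - D t) ≤ A * (D (τ k) - D (τ (k + 1))) := by gcongr
    have e2 : √((t - τ k) * (D (τ k) - D t)) ≤
        √((τ (k + 1) - τ k) * (D (τ k) - D (τ (k + 1)))) := by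
      refine Real.sqrt_le_sqrt ?_
      refine mul_le_mul (by linarith) (by linarith) (by linarith) (by linarith)
    have e3 := mul_le_mul_of_nonneg_left e2 hB
    simp only [hb]
    linarith
  rw [Real.dist_eq] at h1 h2 ⊢
  rw [sub_zero] at h2
  have h4 : b k < ε / 2 := (le_abs_self _).trans_lt h2
  calc |∫ x, φ x ∂(N t) - l| ≤ |∫ x, φ x ∂(N t) - ∫ x, φ x ∂(N (τ k))| +
        |∫ x, φ x ∂(N (τ k)) - l| := abs_sub_le _ _ _
    _ < ε := by linarith

/-- **Dini criterion.** -/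
theorem subsingleton_of_summable (h : Energy N D τ₀) {τ : ℕ → ℝ} (hτ0 : ∀ k, τ₀ ≤ τ k)
    (hmono : Monotone τ) (hτ : Tendsto τ atTop atTop)
    (hsum : Summable fun k => √((τ (k + 1) - τ k) * (D (τ k) - D (τ (k + 1))))) :
    (limitSet N).Subsingleton := by
  refine h.slow.subsingleton_of_tendsto fun φ hφ hφs => ?_
  obtain ⟨A, B, hA, hB, hkey⟩ := h.key φ hφ hφs
  have hDs : Summable fun k => D (τ k) - D (τ (k + 1)) := by
    refine summable_of_sum_range_le (c := D (τ 0)) (fun k =>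
      sub_nonneg.2 (h.anti _ _ (hτ0 k) (hmono (Nat.le_succ k)))) fun n => ?_
    have := Finset.sum_range_sub' (fun k => D (τ k)) n
    rw [this]
    linarith [h.nonneg _ (hτ0 n)]
  have hgap : Tendsto (fun k => (τ (k + 1) - τ k) * (D (τ k) - D (τ (k + 1)))) atTop (𝓝 0) := by
    have h1 := (hsum.tendsto_atTop_zero).pow 2
    simp only [ne_eq, OfNat.ofNat_ne_zero, not_false_eq_true, zero_pow] at h1
    refine h1.congr fun k => ?_
    refine Real.sq_sqrt (mul_nonneg (sub_nonneg.2 (hmono (Nat.le_succ k)))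
      (sub_nonneg.2 (h.anti _ _ (hτ0 k) (hmono (Nat.le_succ k)))))
  have hcauchy : CauchySeq fun k => ∫ x, φ x ∂(N (τ k)) := by
    refine cauchySeq_of_dist_le_of_summable (fun k => A * (D (τ k) - D (τ (k + 1))) +
      B * √((τ (k + 1) - τ k) * (D (τ k) - D (τ (k + 1))))) (fun k => ?_)
      ((hDs.mul_left A).add (hsum.mul_left B))
    rw [dist_comm, Real.dist_eq]
    exact hkey _ _ (hτ0 k) (hmono (Nat.le_succ k))
  obtain ⟨l, hl⟩ := cauchySeq_tendsto_of_complete hcauchy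
  exact ⟨l, h.tendsto_of_gaps hτ0 hmono hτ hgap hφ hφs hl⟩

/-- convergence along a sequence of scales with small gaps implies uniqueness -/
theorem subsingleton_of_gaps (h : Energy N D τ₀) {τ : ℕ → ℝ} (hτ0 : ∀ k, τ₀ ≤ τ k)
    (hmono : Monotone τ) (hτ : Tendsto τ atTop atTop)
    (hgap : Tendsto (fun k => (τ (k + 1) - τ k) * (D (τ k) - D (τ (k + 1)))) atTop (𝓝 0))
    {κ : Measure E} (hκ : WeakTendsto (fun k => N (τ k)) κ) : (limitSet N).Subsingleton :=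
  h.slow.subsingleton_of_tendsto fun φ hφ hφs =>
    ⟨_, h.tendsto_of_gaps hτ0 hmono hτ hgap hφ hφs (hκ φ hφ.continuous hφs)⟩

end Energy

end Vale.Agent.P218
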