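import Vale.Agent.P218.Congruence

/-! Symmetric families: uniqueness up to linear isometries implies uniqueness. -/

set_option linter.unusedSectionVars false
set_option linter.unusedVariables false

open MeasureTheory Set Filter Topology
open scoped ENNReal NNReal CompactlySupported Uniformity

namespace Vale.Agent.P218

variable {E : Type*} [NormedAddCommGroup E] [InnerProductSpace ℝ E] [FiniteDimensional ℝ E]
  [MeasurableSpace E] [BorelSpace E]

/-- the operator of a linear isometry -/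
noncomputable def opr (R : E ≃ₗᵢ[ℝ] E) : E →L[ℝ] E := R.toContinuousLinearEquiv.toContinuousLinearMap

theorem opr_apply (R : E ≃ₗᵢ[ℝ] E) (x : E) : opr R x = R x := rfl

theorem opr_injective : Function.Injective (opr : (E ≃ₗᵢ[ℝ] E) → (E →L[ℝ] E)) := by
  intro R S h
  ext x
  rw [← opr_apply R, h, opr_apply]

theorem dist_opr_le_iff {R S : E ≃ₗᵢ[ℝ] E} {c : ℝ} (hc : 0 ≤ c) :
    dist (opr R) (opr S) ≤ c ↔ ∀ x, ‖R x - S x‖ ≤ c * ‖x‖ := by
  rw [dist_eq_norm, ContinuousLinearMap.opNorm_le_iff hc]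
  rfl

theorem norm_sub_le_dist (R S : E ≃ₗᵢ[ℝ] E) (x : E) : ‖R x - S x‖ ≤ dist (opr R) (opr S) * ‖x‖ :=
  (dist_opr_le_iff dist_nonneg).1 le_rfl x

theorem exists_sep {X : Type*} [MetricSpace X] {s : Set X} (hs : s.Finite) :
    ∃ δ : ℝ, 0 < δ ∧ ∀ x ∈ s, ∀ y ∈ s, dist x y < δ → x = y := by
  have := hs.to_subtype
  obtain ⟨C, hC, h⟩ := Set.relatively_discrete_of_finite (s := s)
  obtain ⟨r, hr0, hrC⟩ := ENNReal.lt_iff_exists_nnreal_btwn.1 hC
  refine ⟨r, by exact_mod_cast hr0, fun x hx y hy hxy => ?_⟩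
  by_contra hne
  have h1 := h x hx y hy hne
  have h2 : (r : ℝ≥0∞) < edist x y := hrC.trans_le h1
  rw [edist_nndist, ENNReal.coe_lt_coe, ← NNReal.coe_lt_coe, coe_nndist] at h2
  linarith

/-- In the orbit of a measure with finite stabiliser there are only countably many measures
invariant under a set `Γ` of linear isometries with finite centraliser. -/
theorem countable_invariant (κ₀ : Measure E) (hstab : {R : E ≃ₗᵢ[ℝ] E | κ₀.map R = κ₀}.Finite)
    (Γ : Set (E ≃ₗᵢ[ℝ] E)) (hcent : {T : E ≃ₗᵢ[ℝ] E | ∀ g ∈ Γ, T.trans g = g.trans T}.Finite) :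
    {R : E ≃ₗᵢ[ℝ] E | ∀ g ∈ Γ, (κ₀.map R).map g = κ₀.map R}.Countable := by
  obtain ⟨δ₁, hδ₁, h₁⟩ := exists_sep (hstab.image opr)
  obtain ⟨δ₂, hδ₂, h₂⟩ := exists_sep (hcent.image opr)
  set A : Set (E ≃ₗᵢ[ℝ] E) := {R | ∀ g ∈ Γ, (κ₀.map R).map g = κ₀.map R} with hA
  set δ := min (δ₁ / 2) δ₂ with hδ
  have hδpos : 0 < δ := lt_min (half_pos hδ₁) hδ₂
  have hsep : ∀ R ∈ A, ∀ S ∈ A, dist (opr R) (opr S) < δ → R = S := by
    intro R hR S hS hRS
    -- `R⁻¹ g R` and `S⁻¹ g S` are close elements of the stabiliser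
    have hconj : ∀ Q ∈ A, ∀ g ∈ Γ, κ₀.map (Q.trans (g.trans Q.symm)) = κ₀ := by
      intro Q hQ g hg
      rw [← map_map_iso, ← map_map_iso, hQ g hg, map_map_iso, LinearIsometryEquiv.self_trans_symm,
        map_refl_iso]
    have hcomm : ∀ g ∈ Γ, R.trans (g.trans R.symm) = S.trans (g.trans S.symm) := by
      intro g hg
      refine opr_injective (h₁ _ ⟨_, hconj R hR g hg, rfl⟩ _ ⟨_, hconj S hS g hg, rfl⟩ ?_)
      have hle : dist (opr (R.trans (g.trans R.symm))) (opr (S.trans (g.trans S.symm)))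
          ≤ 2 * dist (opr R) (opr S) := by
        rw [dist_opr_le_iff (by positivity)]
        intro x
        simp only [LinearIsometryEquiv.trans_apply]
        have e1 : ‖R.symm (g (R x)) - S.symm (g (R x))‖ ≤ dist (opr R) (opr S) * ‖x‖ := by
          set z := R.symm (g (R x)) with hz
          have hz1 : g (R x) = R z := by rw [hz, R.apply_symm_apply]
          have hz2 : ‖z‖ = ‖x‖ := by rw [hz]; simp
          rw [hz1, ← S.norm_map (z - S.symm (R z)), map_sub, S.apply_symm_apply, norm_sub_rev,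
            ← hz2]
          exact norm_sub_le_dist R S z
        have e2 : ‖S.symm (g (R x)) - S.symm (g (S x))‖ ≤ dist (opr R) (opr S) * ‖x‖ := by
          rw [← map_sub, S.symm.norm_map, ← map_sub, g.norm_map]
          exact norm_sub_le_dist R S x
        calc ‖R.symm (g (R x)) - S.symm (g (S x))‖
            = ‖(R.symm (g (R x)) - S.symm (g (R x))) + (S.symm (g (R x)) - S.symm (g (S x)))‖ := by
              congr 1; abel
          _ ≤ _ := norm_add_le _ _
          _ ≤ 2 * dist (opr R) (opr S) * ‖x‖ := by linarith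
      have : δ ≤ δ₁ / 2 := min_le_left _ _
      linarith
    -- hence `T = S R⁻¹` commutes with `Γ`
    have hT : ∀ g ∈ Γ, (R.symm.trans S).trans g = g.trans (R.symm.trans S) := by
      intro g hg
      ext x
      have h3 := congrArg (fun Q : E ≃ₗᵢ[ℝ] E => S (Q (R.symm x))) (hcomm g hg)
      simp only [LinearIsometryEquiv.trans_apply, LinearIsometryEquiv.apply_symm_apply] at h3
      simp only [LinearIsometryEquiv.trans_apply]
      exact h3.symm
    have hone : ∀ g ∈ Γ, (LinearIsometryEquiv.refl ℝ E).trans g = g.trans (LinearIsometryEquiv.refl ℝ E) := by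
      intro g hg
      ext x
      simp
    have h4 : R.symm.trans S = LinearIsometryEquiv.refl ℝ E := by
      refine opr_injective (h₂ _ ⟨_, hT, rfl⟩ _ ⟨_, hone, rfl⟩ ?_)
      have hle : dist (opr (R.symm.trans S)) (opr (LinearIsometryEquiv.refl ℝ E))
          ≤ dist (opr R) (opr S) := by
        rw [dist_opr_le_iff dist_nonneg]
        intro x
        simp only [LinearIsometryEquiv.trans_apply, LinearIsometryEquiv.coe_refl, id_eq]
        have h5 : x = R (R.symm x) := (R.apply_symm_apply x).symm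
        conv_lhs => rw [h5, R.symm_apply_apply, norm_sub_rev]
        refine (norm_sub_le_dist R S (R.symm x)).trans ?_
        rw [R.symm.norm_map]
      have : δ ≤ δ₂ := min_le_right _ _
      linarith
    ext x
    have h6 := congrArg (fun Q : E ≃ₗᵢ[ℝ] E => Q (R x)) h4
    simp only [LinearIsometryEquiv.trans_apply, LinearIsometryEquiv.symm_apply_apply,
      LinearIsometryEquiv.coe_refl, id_eq] at h6
    exact h6.symm
  -- a uniformly discrete set in a separable metric space is countable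
  have hdisj : A.PairwiseDisjoint fun R => Metric.ball (opr R) (δ / 2) := by
    intro R hR S hS hne
    rw [Function.onFun, Set.disjoint_left]
    intro y hy1 hy2
    refine hne (hsep R hR S hS ?_)
    rw [Metric.mem_ball] at hy1 hy2
    calc dist (opr R) (opr S) ≤ dist (opr R) y + dist y (opr S) := dist_triangle _ _ _
      _ < δ := by rw [dist_comm (opr R) y]; linarith
  exact hdisj.countable_of_isOpen (fun R _ => Metric.isOpen_ball)
    fun R _ => Metric.nonempty_ball.2 (half_pos hδpos)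

namespace Slow

variable {N : ℝ → Measure E} {τ₀ C : ℝ}

/-- **Symmetric families: countably many congruence classes implies uniqueness.** -/
theorem subsingleton_of_symm (hN : Slow N τ₀) (hG : ∀ τ, τ₀ ≤ τ → GB C (N τ))
    {𝒞 : Set (Measure E)} (hc : 𝒞.Countable)
    (hcov : ∀ κ ∈ limitSet N, ∃ c ∈ 𝒞, ∃ R : E ≃ₗᵢ[ℝ] E, κ = c.map R)
    (Γ : Set (E ≃ₗᵢ[ℝ] E)) (hinv : ∀ κ ∈ limitSet N, ∀ g ∈ Γ, κ.map g = κ)
    (hcent : {T : E ≃ₗᵢ[ℝ] E | ∀ g ∈ Γ, T.trans g = g.trans T}.Finite)
    {κ₀ : Measure E} (hκ₀ : κ₀ ∈ limitSet N)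
    (hstab : {R : E ≃ₗᵢ[ℝ] E | κ₀.map R = κ₀}.Finite) : (limitSet N).Subsingleton := by
  refine hN.subsingleton_of_countable ?_
  refine ((countable_invariant κ₀ hstab Γ hcent).image fun R => κ₀.map R).mono ?_
  intro κ hκ
  obtain ⟨R, _, rfl⟩ := hN.congruent_of_countable hG ⊤ (fun _ _ _ _ => Subgroup.mem_top _) hc
    (fun κ hκ => by
      obtain ⟨c, hc, R, h⟩ := hcov κ hκ
      exact ⟨c, hc, R, Subgroup.mem_top _, h⟩) hκ hκ₀
  exact ⟨R, fun g hg => hinv _ hκ g hg, rfl⟩

end Slow

end Vale.Agent.P218
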