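import Vale.Agent.P218.H552.Bridge2
import Vale.Agent.P218.H552.GB
import Vale.Agent.P218.Energy
import Vale.Agent.P218.Symm

/-! Tangent flows of integral Brakke flows: assembly of the estimates. -/

set_option linter.unusedSectionVars false
set_option linter.unusedVariables false

open MeasureTheory Set Filter Topology
open scoped ENNReal NNReal CompactlySupported

namespace Vale.Agent.P218

open H552 (BF NN th tau0 gF)

variable {E : Type*} [NormedAddCommGroup E] [InnerProductSpace ℝ E] [FiniteDimensional ℝ E]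
  [MeasurableSpace E] [BorelSpace E]

variable {m : ℕ} {μ : ℝ → Measure E} {T : ℝ → E → Submodule ℝ E} {H : ℝ → E → E}

section
variable (hB : BF m μ T H) (h0 : μ 0 univ < ⊤)
include hB h0

theorem energy_NN (x₀ : E) {t₀ : ℝ} (ht : 0 < t₀) :
    Energy (NN m μ x₀ t₀) (th m μ x₀ t₀) (tau0 t₀) where
  bdd := (H552.slow_NN hB h0 x₀ ht).bdd
  anti := fun τ τ' h h' => H552.th_anti hB h0 x₀ ht h h'
  nonneg := fun τ _ => H552.th_nonneg x₀ t₀ τ
  key := by
    intro φ hφ hφs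
    obtain ⟨g, hg, hgc, hgφ⟩ := H552.exists_unweight hφ hφs
    obtain ⟨A, hA⟩ := hgc.exists_bound_of_continuous hg.continuous
    obtain ⟨B, hBd⟩ := (hgc.fderiv (𝕜 := ℝ)).exists_bound_of_continuous
      (hg.continuous_fderiv one_ne_zero)
    have hA0 : 0 ≤ A := (norm_nonneg _).trans (hA 0)
    have hB0 : 0 ≤ B := (norm_nonneg _).trans (hBd 0)
    refine ⟨A, B * √(2 * th m μ x₀ t₀ (tau0 t₀)), hA0, by positivity, fun τ τ' h1 h2 => ?_⟩
    have h3 := H552.key_tau hB h0 x₀ ht h1 h2 hA0 hB0 hg hgc hA hBd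
    simp only [hgφ] at h3
    refine h3.trans ?_
    have h4 : th m μ x₀ t₀ τ ≤ th m μ x₀ t₀ (tau0 t₀) := H552.th_anti hB h0 x₀ ht le_rfl h1
    have h5 : th m μ x₀ t₀ τ' ≤ th m μ x₀ t₀ τ := H552.th_anti hB h0 x₀ ht h1 h2
    have h6 : 0 ≤ th m μ x₀ t₀ τ := H552.th_nonneg _ _ _
    have h7 : √(th m μ x₀ t₀ τ * (2 * (τ' - τ)) * (th m μ x₀ t₀ τ - th m μ x₀ t₀ τ')) ≤
        √(2 * th m μ x₀ t₀ (tau0 t₀)) *
          √((τ' - τ) * (th m μ x₀ t₀ τ - th m μ x₀ t₀ τ')) := by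
      rw [← Real.sqrt_mul (by linarith)]
      refine Real.sqrt_le_sqrt ?_
      have h8 : 0 ≤ (τ' - τ) * (th m μ x₀ t₀ τ - th m μ x₀ t₀ τ') :=
        mul_nonneg (by linarith) (by linarith)
      nlinarith
    have h9 := mul_le_mul_of_nonneg_left h7 hB0
    linarith

theorem gb_NN (x₀ : E) {t₀ : ℝ} (ht : 0 < t₀) : ∃ C : ℝ, ∀ τ, tau0 t₀ ≤ τ →
    GB C (NN m μ x₀ t₀ τ) := by
  refine ⟨√2 ^ m * ((√t₀)⁻¹ ^ m * (μ 0).real univ), fun τ hτ => ⟨?_, ?_⟩⟩
  · have := H552.NN_finite hB h0 x₀ ht hτ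
    refine (integrable_const (1 : ℝ)).mono' continuous_gw.aestronglyMeasurable
      (Eventually.of_forall fun x => ?_)
    unfold gw
    rw [Real.norm_eq_abs, abs_of_pos (Real.exp_pos _), Real.exp_le_one_iff]
    have := sq_nonneg ‖x‖
    linarith
  · have h1 := H552.gauss_bound hB h0 x₀ ht (k := 2) (by norm_num) hτ
    refine le_trans (le_of_eq ?_) h1
    refine integral_congr_ae (Eventually.of_forall fun x => ?_)
    simp only [gw]
    norm_num

theorem unique_iff (x₀ : E) {t₀ : ℝ} (ht : 0 < t₀) :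
    TangentFlowUnique m μ x₀ t₀ ↔ (tangentSlices m μ x₀ t₀).Subsingleton := by
  constructor
  · rintro h _ ⟨ν, hν, rfl⟩ _ ⟨ν', hν', rfl⟩
    exact h ν ν' hν hν' (-1) (by norm_num)
  · intro h ν ν' hν hν' s hs
    rw [H552.selfSimilar hB h0 x₀ ht hν hs, H552.selfSimilar hB h0 x₀ ht hν' hs,
      h ⟨ν, hν, rfl⟩ ⟨ν', hν', rfl⟩]

end

/-- the density ratio about `x₀ + r y` is the Gaussian integral of the rescaled slice about `y` -/
theorem densityRatio_eq (m : ℕ) (μ : ℝ → Measure E) (x₀ y : E) (t₀ : ℝ) {r : ℝ} (hr : 0 < r) :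
    densityRatio m μ (x₀ + r • y) t₀ r =
      (√(4 * Real.pi) ^ m)⁻¹ * gi (NN m μ x₀ t₀ (-Real.log r)) y := by
  have hexp : Real.exp (-Real.log r) = r⁻¹ := by rw [Real.exp_neg, Real.exp_log hr]
  unfold gi NN
  rw [hexp, H552.integral_rescaled m μ x₀ t₀ (-1) (inv_pos.2 hr)]
  unfold densityRatio
  have h1 : t₀ + -1 / r⁻¹ ^ 2 = t₀ - r ^ 2 := by
    field_simp
    ring
  rw [h1, mul_pow, inv_pow, div_eq_inv_mul, mul_inv, mul_assoc]
  congr 2
  refine integral_congr_ae (Eventually.of_forall fun x => ?_)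
  simp only
  congr 1
  unfold H552.yy
  have h2 : r⁻¹ • (x - x₀) - y = r⁻¹ • (x - (x₀ + r • y)) := by
    rw [smul_sub, smul_sub, smul_add, smul_smul, inv_mul_cancel₀ hr.ne', one_smul]
    abel
  rw [h2, norm_smul, norm_inv, Real.norm_eq_abs, abs_of_pos hr, mul_pow, inv_pow]
  field_simp

theorem densityRatio_center (m : ℕ) (μ : ℝ → Measure E) (x₀ : E) (t₀ : ℝ) {r : ℝ} (hr : 0 < r) :
    densityRatio m μ x₀ t₀ r = (√(4 * Real.pi) ^ m)⁻¹ * th m μ x₀ t₀ (-Real.log r) := by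
  have h1 := densityRatio_eq m μ x₀ 0 t₀ hr
  rw [smul_zero, add_zero] at h1
  rw [h1, H552.th_eq]
  unfold gi
  simp only [sub_zero]

namespace IsScaleSeq

variable {t₀ : ℝ} {r : ℕ → ℝ}

theorem mono (h : IsScaleSeq t₀ r) : Monotone fun k => -Real.log (r k) := fun i j hij =>
  neg_le_neg (Real.log_le_log (h.pos j) (h.anti hij))

theorem tendsto (h : IsScaleSeq t₀ r) : Tendsto (fun k => -Real.log (r k)) atTop atTop := by
  refine tendsto_neg_atBot_atTop.comp (Real.tendsto_log_nhdsGT_zero.comp ?_)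
  exact tendsto_nhdsWithin_iff.2 ⟨h.lim, Eventually.of_forall fun k => h.pos k⟩

theorem tau_le (h : IsScaleSeq t₀ r) (k : ℕ) : tau0 t₀ ≤ -Real.log (r k) := by
  unfold H552.tau0
  have h1 : r k ≤ r 0 := h.anti (Nat.zero_le k)
  have h2 : r k ^ 2 ≤ t₀ := (pow_le_pow_left₀ (h.pos k).le h1 2).trans h.start
  have h3 : Real.log (r k ^ 2) ≤ Real.log t₀ := Real.log_le_log (pow_pos (h.pos k) 2) h2
  rw [Real.log_pow] at h3
  push_cast at h3
  linarith

theorem log_div (h : IsScaleSeq t₀ r) (k : ℕ) :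
    Real.log (r k / r (k + 1)) = -Real.log (r (k + 1)) - -Real.log (r k) := by
  rw [Real.log_div (h.pos k).ne' (h.pos (k + 1)).ne']
  ring

end IsScaleSeq

theorem tendsto_iff_log (f : ℝ → ℝ) (g : ℝ → ℝ) (hfg : ∀ r, 0 < r → f r = g (-Real.log r)) (l : ℝ) :
    Tendsto f (𝓝[>] 0) (𝓝 l) ↔ Tendsto g atTop (𝓝 l) := by
  have h1 : Tendsto (fun r : ℝ => -Real.log r) (𝓝[>] 0) atTop :=
    tendsto_neg_atBot_atTop.comp Real.tendsto_log_nhdsGT_zero
  have h2 : Tendsto (fun τ : ℝ => Real.exp (-τ)) atTop (𝓝[>] 0) := by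
    refine tendsto_nhdsWithin_iff.2 ⟨Real.tendsto_exp_neg_atTop_nhds_zero, ?_⟩
    exact Eventually.of_forall fun τ => Real.exp_pos _
  constructor
  · intro h
    refine (h.comp h2).congr fun τ => ?_
    simp only [Function.comp]
    rw [hfg _ (Real.exp_pos _), Real.log_exp, neg_neg]
  · intro h
    refine (h.comp h1).congr' ?_
    filter_upwards [self_mem_nhdsWithin] with r hr
    exact (hfg r hr).symm

section
variable (hB : BF m μ T H) (h0 : μ 0 univ < ⊤)
include hB h0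

/-- the constant of the normalised density ratio -/
theorem cm_pos (m : ℕ) : 0 < (√(4 * Real.pi) ^ m)⁻¹ := by positivity

theorem drop_eq (x₀ : E) {t₀ : ℝ} {r : ℕ → ℝ} (hr : IsScaleSeq t₀ r) (k : ℕ) :
    Real.log (r k / r (k + 1)) *
      (densityRatio m μ x₀ t₀ (r k) - densityRatio m μ x₀ t₀ (r (k + 1))) =
    (√(4 * Real.pi) ^ m)⁻¹ * ((-Real.log (r (k + 1)) - -Real.log (r k)) *
      (th m μ x₀ t₀ (-Real.log (r k)) - th m μ x₀ t₀ (-Real.log (r (k + 1))))) := by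
  rw [hr.log_div, densityRatio_center m μ x₀ t₀ (hr.pos k),
    densityRatio_center m μ x₀ t₀ (hr.pos (k + 1))]
  ring

/-- **Dini criterion** -/
theorem unique_of_summable (x₀ : E) {t₀ : ℝ} (ht : 0 < t₀) {r : ℕ → ℝ} (hr : IsScaleSeq t₀ r)
    (hs : Summable fun k => √(Real.log (r k / r (k + 1)) *
      (densityRatio m μ x₀ t₀ (r k) - densityRatio m μ x₀ t₀ (r (k + 1))))) :
    TangentFlowUnique m μ x₀ t₀ := by
  rw [unique_iff hB h0 x₀ ht, H552.tangentSlices_eq hB h0 x₀ ht]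
  refine (energy_NN hB h0 x₀ ht).subsingleton_of_summable hr.tau_le hr.mono hr.tendsto ?_
  have h1 : ∀ k, √(Real.log (r k / r (k + 1)) *
      (densityRatio m μ x₀ t₀ (r k) - densityRatio m μ x₀ t₀ (r (k + 1)))) =
      √((√(4 * Real.pi) ^ m)⁻¹) * √((-Real.log (r (k + 1)) - -Real.log (r k)) *
      (th m μ x₀ t₀ (-Real.log (r k)) - th m μ x₀ t₀ (-Real.log (r (k + 1))))) := by
    intro k
    rw [drop_eq hB h0 x₀ hr, Real.sqrt_mul (cm_pos hB h0 m).le]
  simp only [h1] at hs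
  exact (summable_mul_left_iff (Real.sqrt_pos.2 (cm_pos hB h0 m)).ne').1 hs

/-- **gap criterion** -/
theorem unique_of_gaps (x₀ : E) {t₀ : ℝ} (ht : 0 < t₀) {r : ℕ → ℝ} (hr : IsScaleSeq t₀ r)
    (hs : Tendsto (fun k => Real.log (r k / r (k + 1)) *
      (densityRatio m μ x₀ t₀ (r k) - densityRatio m μ x₀ t₀ (r (k + 1)))) atTop (𝓝 0))
    {κ : Measure E} (hκ : WeakTendsto (fun k => rescaled m μ x₀ t₀ (1 / r k) (-1)) κ) :
    TangentFlowUnique m μ x₀ t₀ := by
  rw [unique_iff hB h0 x₀ ht, H552.tangentSlices_eq hB h0 x₀ ht]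
  refine (energy_NN hB h0 x₀ ht).subsingleton_of_gaps hr.tau_le hr.mono hr.tendsto ?_
    (κ := κ) ?_
  · simp only [drop_eq hB h0 x₀ hr] at hs
    have h1 := hs.const_mul (√(4 * Real.pi) ^ m)
    rw [mul_zero] at h1
    refine h1.congr fun k => ?_
    rw [← mul_assoc, mul_inv_cancel₀ (by positivity), one_mul]
  · have : ∀ k, NN m μ x₀ t₀ (-Real.log (r k)) = rescaled m μ x₀ t₀ (1 / r k) (-1) := by
      intro k
      unfold H552.NN
      rw [Real.exp_neg, Real.exp_log (hr.pos k), one_div]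
    simpa only [this] using hκ

theorem tendsto_center (x₀ : E) {t₀ : ℝ} (ht : 0 < t₀) :
    ∃ l, Tendsto (fun r => densityRatio m μ x₀ t₀ r) (𝓝[>] 0) (𝓝 l) ∧
      ∀ r, 0 < r → r ^ 2 ≤ t₀ → l ≤ densityRatio m μ x₀ t₀ r := by
  set D := th m μ x₀ t₀ with hD
  have hE := energy_NN hB h0 x₀ ht
  have hanti : AntitoneOn D (Ici (tau0 t₀)) := fun a ha b hb hab => hE.anti a b ha hab
  have hbdd : BddBelow (D '' Ici (tau0 t₀)) := ⟨0, by rintro _ ⟨a, ha, rfl⟩; exact hE.nonneg a ha⟩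
  obtain ⟨l, hl⟩ : ∃ l, Tendsto D atTop (𝓝 l) := by
    -- reduce to a globally antitone function
    set D' : ℝ → ℝ := fun τ => D (max τ (tau0 t₀)) with hD'
    have h1 : Antitone D' := fun a b hab =>
      hanti (mem_Ici.2 (le_max_right _ _)) (mem_Ici.2 (le_max_right _ _)) (max_le_max hab le_rfl)
    have h2 : BddBelow (range D') := ⟨0, by
      rintro _ ⟨a, rfl⟩; exact hE.nonneg _ (le_max_right _ _)⟩
    refine ⟨_, (tendsto_atTop_ciInf h1 h2).congr' ?_⟩
    filter_upwards [eventually_ge_atTop (tau0 t₀)] with τ hτ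
    simp only [hD', max_eq_left hτ]
  refine ⟨(√(4 * Real.pi) ^ m)⁻¹ * l, ?_, ?_⟩
  · exact (tendsto_iff_log _ (fun τ => (√(4 * Real.pi) ^ m)⁻¹ * D τ)
      (fun r hr => densityRatio_center m μ x₀ t₀ hr) _).2 (hl.const_mul _)
  · intro r hr hrt
    rw [densityRatio_center m μ x₀ t₀ hr]
    refine mul_le_mul_of_nonneg_left ?_ (cm_pos hB h0 m).le
    refine le_of_tendsto hl ?_
    filter_upwards [eventually_ge_atTop (-Real.log r)] with τ hτ
    refine hE.anti _ _ ?_ hτ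
    unfold H552.tau0
    have h3 : Real.log (r ^ 2) ≤ Real.log t₀ := Real.log_le_log (pow_pos hr 2) hrt
    rw [Real.log_pow] at h3
    push_cast at h3
    linarith

/-- **rate criterion** -/
theorem unique_of_rate (x₀ : E) {t₀ : ℝ} (ht : 0 < t₀) {l : ℝ}
    (hl : Tendsto (fun r => densityRatio m μ x₀ t₀ r) (𝓝[>] 0) (𝓝 l)) {δ C : ℝ} (hδ : 0 < δ)
    (hrate : ∀ᶠ r in 𝓝[>] (0 : ℝ), densityRatio m μ x₀ t₀ r - l ≤
      C / (Real.log (1 / r) * Real.log (Real.log (1 / r)) ^ (2 + δ))) :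
    TangentFlowUnique m μ x₀ t₀ := by
  obtain ⟨l', hl', hl'2⟩ := tendsto_center hB h0 x₀ ht
  have hll : l = l' := tendsto_nhds_unique hl hl'
  subst hll
  -- the scales `r_k = exp (-2^(k + N))`
  have hlim : Tendsto (fun n : ℕ => Real.exp (-(2 : ℝ) ^ n)) atTop (𝓝[>] 0) := by
    refine tendsto_nhdsWithin_iff.2 ⟨?_, Eventually.of_forall fun n => Real.exp_pos _⟩
    refine Real.tendsto_exp_neg_atTop_nhds_zero.comp ?_
    exact tendsto_pow_atTop_atTop_of_one_lt one_lt_two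
  have h1 := hlim.eventually hrate
  have h2 : ∀ᶠ n : ℕ in atTop, Real.exp (-(2 : ℝ) ^ n) ^ 2 ≤ t₀ := by
    have h3 : Tendsto (fun n : ℕ => Real.exp (-(2 : ℝ) ^ n) ^ 2) atTop (𝓝 0) := by
      have := ((tendsto_nhdsWithin_iff.1 hlim).1).pow 2
      simpa using this
    exact h3.eventually (eventually_le_nhds ht)
  obtain ⟨N, hN⟩ := eventually_atTop.1 (h1.and h2)
  set M := max N 1 with hM
  set r : ℕ → ℝ := fun k => Real.exp (-(2 : ℝ) ^ (k + M)) with hr
  have hrs : IsScaleSeq t₀ r := by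
    refine ⟨fun k => Real.exp_pos _, ?_, ?_, ?_⟩
    · intro i j hij
      refine Real.exp_le_exp.2 (neg_le_neg ?_)
      exact pow_le_pow_right₀ one_le_two (by omega)
    · exact (tendsto_nhdsWithin_iff.1 hlim).1.comp (tendsto_add_atTop_nat M)
    · exact (hN (0 + M) (by omega)).2
  refine unique_of_summable hB h0 x₀ ht hrs ?_
  -- bound the terms
  set C' : ℝ := |C| / Real.log 2 ^ (2 + δ) with hC'
  have hlog2 : 0 < Real.log 2 := Real.log_pos one_lt_two
  have hterm : ∀ k, √(Real.log (r k / r (k + 1)) *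
      (densityRatio m μ x₀ t₀ (r k) - densityRatio m μ x₀ t₀ (r (k + 1)))) ≤
      √C' * ((k + M : ℕ) : ℝ) ^ (-(1 + δ / 2)) := by
    intro k
    set n := k + M with hn
    have hn1 : 1 ≤ n := by omega
    have hnpos : (0 : ℝ) < n := by exact_mod_cast hn1
    have e1 : Real.log (r k / r (k + 1)) = 2 ^ n := by
      rw [hrs.log_div]
      simp only [hr, Real.log_exp]
      rw [show k + 1 + M = n + 1 by omega, ← hn, pow_succ]
      ring
    have e2 : Real.log (1 / r k) = 2 ^ n := by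
      simp only [hr, one_div, Real.log_inv, Real.log_exp, neg_neg]
      rfl
    have e3 : Real.log (Real.log (1 / r k)) = n * Real.log 2 := by
      rw [e2, Real.log_pow]
    have h3 := (hN n (by omega)).1
    have h4 : densityRatio m μ x₀ t₀ (r k) - l ≤ C / (2 ^ n * (n * Real.log 2) ^ (2 + δ)) := by
      have := h3
      rw [show Real.exp (-(2 : ℝ) ^ n) = r k from rfl, e3, e2] at this
      exact this
    have h5 : l ≤ densityRatio m μ x₀ t₀ (r (k + 1)) := by
      refine hl'2 _ (hrs.pos _) ?_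
      exact (pow_le_pow_left₀ (hrs.pos _).le (hrs.anti (Nat.zero_le _)) 2).trans hrs.start
    have hpos1 : 0 < (n * Real.log 2) ^ (2 + δ) := Real.rpow_pos_of_pos (by positivity) _
    have h6 : Real.log (r k / r (k + 1)) *
        (densityRatio m μ x₀ t₀ (r k) - densityRatio m μ x₀ t₀ (r (k + 1))) ≤
        C' * ((n : ℝ) ^ (-(1 + δ / 2))) ^ 2 := by
      rw [e1]
      calc (2 : ℝ) ^ n * (densityRatio m μ x₀ t₀ (r k) - densityRatio m μ x₀ t₀ (r (k + 1)))
          ≤ 2 ^ n * (|C| / (2 ^ n * (n * Real.log 2) ^ (2 + δ))) := by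
            gcongr
            have : C / (2 ^ n * (n * Real.log 2) ^ (2 + δ)) ≤
              |C| / (2 ^ n * (n * Real.log 2) ^ (2 + δ)) := by
              gcongr
              exact le_abs_self C
            linarith
        _ = |C| / (n * Real.log 2) ^ (2 + δ) := by
            field_simp
        _ = C' * ((n : ℝ) ^ (-(1 + δ / 2))) ^ 2 := by
            rw [hC', Real.mul_rpow hnpos.le hlog2.le, ← Real.rpow_natCast, ← Real.rpow_mul hnpos.le]
            rw [show (-(1 + δ / 2)) * ((2 : ℕ) : ℝ) = -(2 + δ) by push_cast; ring,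
              Real.rpow_neg hnpos.le]
            field_simp
    calc √(Real.log (r k / r (k + 1)) *
      (densityRatio m μ x₀ t₀ (r k) - densityRatio m μ x₀ t₀ (r (k + 1))))
        ≤ √(C' * ((n : ℝ) ^ (-(1 + δ / 2))) ^ 2) := Real.sqrt_le_sqrt h6
      _ = √C' * (n : ℝ) ^ (-(1 + δ / 2)) := by
          rw [Real.sqrt_mul (by positivity), Real.sqrt_sq (Real.rpow_nonneg hnpos.le _)]
  refine Summable.of_nonneg_of_le (fun k => Real.sqrt_nonneg _) hterm ?_
  refine Summable.mul_left _ ?_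
  have h7 : Summable fun n : ℕ => (n : ℝ) ^ (-(1 + δ / 2)) := by
    rw [Real.summable_nat_rpow]
    linarith
  exact (summable_nat_add_iff M).2 h7

end

end Vale.Agent.P218
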