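import Vale.Agent.P218.Defs

/-! Sequences of scales, and closed groups of linear isometries. -/

open Filter Topology

namespace Vale.Agent.P218

/-- a sequence of scales `√t₀ ≥ r_0 ≥ r_1 ≥ … > 0` tending to zero -/
structure IsScaleSeq (t₀ : ℝ) (r : ℕ → ℝ) : Prop where
  pos : ∀ k, 0 < r k
  anti : Antitone r
  lim : Tendsto r atTop (𝓝 0)
  start : r 0 ^ 2 ≤ t₀

/-- the group `K` of linear isometries of `E` is closed in `O(E)` -/
def IsClosedGroup {E : Type*} [NormedAddCommGroup E] [InnerProductSpace ℝ E]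
    (K : Subgroup (E ≃ₗᵢ[ℝ] E)) : Prop :=
  ∀ (R : ℕ → E ≃ₗᵢ[ℝ] E) (S : E ≃ₗᵢ[ℝ] E), (∀ n, R n ∈ K) →
    (∀ x, Tendsto (fun n => R n x) atTop (𝓝 (S x))) → S ∈ K

end Vale.Agent.P218
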