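import Vale.Agent.P218.ZeroOne
import Vale.Agent.P218.Defs2

/-! Limit sets of slowly varying families modulo linear isometries. -/

set_option linter.unusedSectionVars false
set_option linter.unusedVariables false

open MeasureTheory Set Filter Topology
open scoped ENNReal NNReal CompactlySupported Uniformity

namespace Vale.Agent.P218

variable {E : Type*} [NormedAddCommGroup E] [InnerProductSpace ℝ E] [FiniteDimensional ℝ E]
  [MeasurableSpace E] [BorelSpace E]

theorem gi_nonneg (κ : Measure E) (y : E) : 0 ≤ gi κ y :=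
  integral_nonneg fun x => (Real.exp_pos _).le

theorem gi_le {C : ℝ} {κ : Measure E} (h : GB C κ) (y : E) :
    gi κ y ≤ Real.exp (‖y‖ ^ 2 / 4) * C := by
  have h1 : ∀ x : E, Real.exp (-‖x - y‖ ^ 2 / 4) ≤ Real.exp (‖y‖ ^ 2 / 4) * gw x := by
    intro x
    unfold gw
    rw [← Real.exp_add, Real.exp_le_exp]
    have h2 : ‖x‖ ^ 2 ≤ 2 * ‖x - y‖ ^ 2 + 2 * ‖y‖ ^ 2 := by
      have h3 : ‖x‖ ≤ ‖x - y‖ + ‖y‖ := by
        calc ‖x‖ = ‖(x - y) + y‖ := by rw [sub_add_cancel]
          _ ≤ _ := norm_add_le _ _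
      nlinarith [norm_nonneg x, norm_nonneg y, norm_nonneg (x - y), sq_nonneg (‖x - y‖ - ‖y‖)]
    linarith
  calc gi κ y ≤ ∫ x, Real.exp (‖y‖ ^ 2 / 4) * gw x ∂κ := by
        unfold gi
        refine integral_mono_of_nonneg (Eventually.of_forall fun x => (Real.exp_pos _).le)
          (h.1.const_mul _) (Eventually.of_forall h1)
    _ = Real.exp (‖y‖ ^ 2 / 4) * ∫ x, gw x ∂κ := integral_const_mul _ _
    _ ≤ Real.exp (‖y‖ ^ 2 / 4) * C := by
        gcongr
        exact h.2

theorem measurable_gi (κ : Measure E) [SFinite κ] : Measurable (gi κ) := by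
  unfold gi
  refine (StronglyMeasurable.integral_prod_right
    (f := fun y x => Real.exp (-‖x - y‖ ^ 2 / 4)) ?_).measurable
  exact (by fun_prop : Continuous fun q : E × E => Real.exp (-‖q.2 - q.1‖ ^ 2 / 4)).stronglyMeasurable

/-- an isometry invariant distance between measures -/
noncomputable def gd (κ κ' : Measure E) : ℝ :=
  ∫ y, |gi κ y - gi κ' y| * Real.exp (-‖y‖ ^ 2)

theorem gd_nonneg (κ κ' : Measure E) : 0 ≤ gd κ κ' :=
  integral_nonneg fun y => mul_nonneg (abs_nonneg _) (Real.exp_pos _).le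

theorem gd_comm (κ κ' : Measure E) : gd κ κ' = gd κ' κ := by
  unfold gd
  simp_rw [abs_sub_comm]

theorem gd_self (κ : Measure E) : gd κ κ = 0 := by simp [gd]

theorem gd_bound {C : ℝ} {κ κ' : Measure E} (h : GB C κ) (h' : GB C κ') (y : E) :
    |gi κ y - gi κ' y| * Real.exp (-‖y‖ ^ 2) ≤ C * Real.exp (-(3 / 4 : ℝ) * ‖y‖ ^ 2) := by
  have hC : 0 ≤ C := (integral_nonneg fun x => (gw_pos x).le).trans h.2
  have h1 : |gi κ y - gi κ' y| ≤ Real.exp (‖y‖ ^ 2 / 4) * C := by
    rw [abs_le]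
    constructor
    · linarith [gi_nonneg κ y, gi_le h' y]
    · linarith [gi_nonneg κ' y, gi_le h y]
  calc |gi κ y - gi κ' y| * Real.exp (-‖y‖ ^ 2)
      ≤ (Real.exp (‖y‖ ^ 2 / 4) * C) * Real.exp (-‖y‖ ^ 2) := by gcongr
    _ = C * (Real.exp (‖y‖ ^ 2 / 4) * Real.exp (-‖y‖ ^ 2)) := by ring
    _ = C * Real.exp (-(3 / 4 : ℝ) * ‖y‖ ^ 2) := by
        rw [← Real.exp_add]; congr 2; ring

theorem integrable_gauss_vol {b : ℝ} (hb : 0 < b) :
    Integrable (fun y : E => Real.exp (-b * ‖y‖ ^ 2)) := by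
  have h := GaussianFourier.integrable_cexp_neg_mul_sq_norm_add (V := E) (b := (b : ℂ))
    (by simpa using hb) 0 0
  have h2 := h.re
  refine h2.congr (Eventually.of_forall fun y => ?_)
  simp only [inner_zero_left, Complex.ofReal_zero, mul_zero, add_zero]
  have : (-(b : ℂ) * (‖y‖ : ℂ) ^ 2) = ((-b * ‖y‖ ^ 2 : ℝ) : ℂ) := by push_cast; ring
  rw [this, ← Complex.ofReal_exp]
  exact Complex.ofReal_re _

theorem gd_integrable {C : ℝ} {κ κ' : Measure E} [IsLocallyFiniteMeasure κ]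
    [IsLocallyFiniteMeasure κ'] (h : GB C κ) (h' : GB C κ') :
    Integrable (fun y => |gi κ y - gi κ' y| * Real.exp (-‖y‖ ^ 2)) := by
  refine Integrable.mono' ((integrable_gauss_vol (E := E) (b := 3 / 4) (by norm_num)).const_mul C)
    ?_ (Eventually.of_forall fun y => ?_)
  · have h1 : Measurable fun y => |gi κ y - gi κ' y| * Real.exp (-‖y‖ ^ 2) := by
      have := ((measurable_gi κ).sub (measurable_gi κ')).abs
      have h2 : Measurable fun y : E => Real.exp (-‖y‖ ^ 2) := by fun_prop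
      exact this.mul h2
    exact h1.aestronglyMeasurable
  · rw [Real.norm_eq_abs, abs_of_nonneg (mul_nonneg (abs_nonneg _) (Real.exp_pos _).le)]
    exact gd_bound h h' y

theorem gd_triangle {C : ℝ} {κ κ' κ'' : Measure E} [IsLocallyFiniteMeasure κ]
    [IsLocallyFiniteMeasure κ'] [IsLocallyFiniteMeasure κ''] (h : GB C κ) (h' : GB C κ')
    (h'' : GB C κ'') : gd κ κ'' ≤ gd κ κ' + gd κ' κ'' := by
  unfold gd
  rw [← integral_add (gd_integrable h h') (gd_integrable h' h'')]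
  refine integral_mono (gd_integrable h h'') ((gd_integrable h h').add (gd_integrable h' h''))
    fun y => ?_
  simp only
  rw [← add_mul]
  gcongr
  exact abs_sub_le _ _ _

theorem eq_of_gd_eq_zero {C : ℝ} {κ κ' : Measure E} [IsLocallyFiniteMeasure κ]
    [IsLocallyFiniteMeasure κ'] (h : GB C κ) (h' : GB C κ') (h0 : gd κ κ' = 0) : κ = κ' := by
  by_contra hne
  have h1 := gauss_ae_ne h h' hne
  unfold gd at h0
  rw [integral_eq_zero_iff_of_nonneg
    (fun y => mul_nonneg (abs_nonneg _) (Real.exp_pos _).le) (gd_integrable h h')] at h0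
  have h2 : ∀ᵐ y : E, False := by
    filter_upwards [h1, h0] with y hy1 hy2
    have h3 : |gi κ y - gi κ' y| * Real.exp (-‖y‖ ^ 2) = 0 := hy2
    rcases mul_eq_zero.1 h3 with h4 | h4
    · exact hy1 (sub_eq_zero.1 (abs_eq_zero.1 h4))
    · exact (Real.exp_pos _).ne' h4
  rw [eventually_false_iff_eq_bot, ae_eq_bot] at h2
  exact (NeZero.ne (volume : Measure E)) h2

theorem weakCont_gd {C : ℝ} {κ' : Measure E} [IsLocallyFiniteMeasure κ'] (h' : GB C κ') :
    WeakCont C fun κ => gd κ κ' := by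
  intro u κ hκ hul hu h
  have hGκ : GB C κ := GB.of_weakTendsto hu h
  unfold gd
  refine tendsto_integral_filter_of_dominated_convergence
    (fun y => C * Real.exp (-(3 / 4 : ℝ) * ‖y‖ ^ 2)) ?_ ?_ ?_ ?_
  · filter_upwards [hul, hu] with i hi hi2
    have := hi
    exact (gd_integrable hi2 h').aestronglyMeasurable
  · filter_upwards [hu] with i hi
    refine Eventually.of_forall fun y => ?_
    rw [Real.norm_eq_abs, abs_of_nonneg (mul_nonneg (abs_nonneg _) (Real.exp_pos _).le)]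
    exact gd_bound hi h' y
  · exact (integrable_gauss_vol (E := E) (b := 3 / 4) (by norm_num)).const_mul C
  · refine Eventually.of_forall fun y => ?_
    have := weakCont_gi C y u κ hκ hul hu h
    exact ((this.sub_const _).abs).mul_const _

/-! Linear isometries -/

theorem isLocallyFinite_map (κ : Measure E) [IsLocallyFiniteMeasure κ] (R : E ≃ₗᵢ[ℝ] E) :
    IsLocallyFiniteMeasure (κ.map R) := by
  refine ⟨fun x => ?_⟩
  refine ⟨Metric.closedBall x 1, Metric.closedBall_mem_nhds x one_pos, ?_⟩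
  rw [Measure.map_apply R.continuous.measurable Metric.isClosed_closedBall.measurableSet]
  have : IsCompact (R ⁻¹' Metric.closedBall x 1) :=
    R.toHomeomorph.isCompact_preimage.2 (isCompact_closedBall x 1)
  exact this.measure_lt_top

theorem integral_map_iso (κ : Measure E) (R : E ≃ₗᵢ[ℝ] E) (g : E → ℝ) :
    ∫ x, g x ∂(κ.map R) = ∫ x, g (R x) ∂κ :=
  integral_map_equiv R.toHomeomorph.toMeasurableEquiv g

theorem GB.map {C : ℝ} {κ : Measure E} (h : GB C κ) (R : E ≃ₗᵢ[ℝ] E) : GB C (κ.map R) := by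
  constructor
  · have : Integrable (gw ∘ R) κ := by
      refine h.1.congr (Eventually.of_forall fun x => ?_)
      simp [gw]
    exact (integrable_map_equiv R.toHomeomorph.toMeasurableEquiv gw).2 this
  · rw [integral_map_iso]
    simpa [gw] using h.2

theorem gi_map (κ : Measure E) (R : E ≃ₗᵢ[ℝ] E) (y : E) : gi (κ.map R) y = gi κ (R.symm y) := by
  unfold gi
  rw [integral_map_iso]
  refine integral_congr_ae (Eventually.of_forall fun x => ?_)
  simp only
  rw [← R.symm.norm_map (R x - y), map_sub, R.symm_apply_apply]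

theorem gd_map (κ κ' : Measure E) (R : E ≃ₗᵢ[ℝ] E) : gd (κ.map R) (κ'.map R) = gd κ κ' := by
  unfold gd
  simp only [gi_map]
  have h := (R.symm.measurePreserving).integral_comp R.symm.toHomeomorph.measurableEmbedding
    (fun y : E => |gi κ y - gi κ' y| * Real.exp (-‖y‖ ^ 2))
  rw [← h]
  simp

theorem map_map_iso (κ : Measure E) (R S : E ≃ₗᵢ[ℝ] E) :
    (κ.map R).map S = κ.map (R.trans S) := by
  rw [Measure.map_map S.continuous.measurable R.continuous.measurable]
  rfl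

theorem map_refl_iso (κ : Measure E) : κ.map (LinearIsometryEquiv.refl ℝ E) = κ := by
  have : ((LinearIsometryEquiv.refl ℝ E : E ≃ₗᵢ[ℝ] E) : E → E) = id := rfl
  rw [this, Measure.map_id]

/-- distance to the orbit of `κ'` under the group `K` of linear isometries -/
noncomputable def od (K : Subgroup (E ≃ₗᵢ[ℝ] E)) (κ' κ : Measure E) : ℝ :=
  ⨅ R : K, gd κ (κ'.map (R : E ≃ₗᵢ[ℝ] E))

variable {K : Subgroup (E ≃ₗᵢ[ℝ] E)}

theorem od_bdd (κ' κ : Measure E) :
    BddBelow (range fun R : K => gd κ (κ'.map (R : E ≃ₗᵢ[ℝ] E))) :=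
  ⟨0, by rintro _ ⟨R, rfl⟩; exact gd_nonneg _ _⟩

theorem od_nonneg (κ' κ : Measure E) : 0 ≤ od K κ' κ := le_ciInf fun R => gd_nonneg _ _

theorem od_map (κ' κ : Measure E) {S : E ≃ₗᵢ[ℝ] E} (hS : S ∈ K) :
    od K κ' (κ.map S) = od K κ' κ := by
  unfold od
  rw [← (Equiv.mulLeft (⟨S, hS⟩ : K)).iInf_comp]
  refine iInf_congr fun R => ?_
  have : (((Equiv.mulLeft (⟨S, hS⟩ : K)) R : K) : E ≃ₗᵢ[ℝ] E) = (R : E ≃ₗᵢ[ℝ] E).trans S := by
    rfl
  rw [this, ← map_map_iso, gd_map]

theorem od_self (κ' : Measure E) : od K κ' κ' = 0 := by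
  refine le_antisymm ?_ (od_nonneg _ _)
  have := ciInf_le (od_bdd (K := K) κ' κ') 1
  have h1 : ((1 : K) : E ≃ₗᵢ[ℝ] E) = LinearIsometryEquiv.refl ℝ E := rfl
  rw [h1, map_refl_iso, gd_self] at this
  exact this

theorem od_lip {C : ℝ} {κ κ' κ'' : Measure E} [IsLocallyFiniteMeasure κ]
    [IsLocallyFiniteMeasure κ'] [IsLocallyFiniteMeasure κ''] (h : GB C κ) (h' : GB C κ')
    (h'' : GB C κ'') : od K κ'' κ ≤ gd κ κ' + od K κ'' κ' := by
  have h1 : ∀ R : K, od K κ'' κ - gd κ κ' ≤ gd κ' (κ''.map (R : E ≃ₗᵢ[ℝ] E)) := by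
    intro R
    have := isLocallyFinite_map κ'' (R : E ≃ₗᵢ[ℝ] E)
    have h2 := ciInf_le (od_bdd (K := K) κ'' κ) R
    have h3 := gd_triangle h h' (h''.map (R : E ≃ₗᵢ[ℝ] E))
    unfold od
    linarith
  have h4 : od K κ'' κ - gd κ κ' ≤ od K κ'' κ' := le_ciInf h1
  linarith

theorem weakCont_od {C : ℝ} {κ' : Measure E} [IsLocallyFiniteMeasure κ'] (h' : GB C κ') :
    WeakCont C fun κ => od K κ' κ := by
  intro u κ hκ hul hu h
  have hGκ : GB C κ := GB.of_weakTendsto hu h
  have h1 := weakCont_gd hGκ u κ hκ hul hu h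
  simp only [gd_self] at h1
  rw [tendsto_iff_dist_tendsto_zero]
  refine squeeze_zero' (Eventually.of_forall fun i => dist_nonneg) ?_ h1
  filter_upwards [hul, hu] with i hi hi2
  have := hi
  rw [Real.dist_eq, abs_le]
  constructor
  · have := od_lip (K := K) hGκ hi2 h'
    rw [gd_comm] at this
    linarith
  · have := od_lip (K := K) hi2 hGκ h'
    linarith

/-- compactness of the orthogonal group -/
theorem exists_subseq_iso (R : ℕ → E ≃ₗᵢ[ℝ] E) : ∃ (S : E ≃ₗᵢ[ℝ] E) (ψ : ℕ → ℕ), StrictMono ψ ∧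
    ∀ x, Tendsto (fun n => R (ψ n) x) atTop (𝓝 (S x)) := by
  set A : ℕ → (E →L[ℝ] E) := fun n => (R n).toContinuousLinearEquiv.toContinuousLinearMap with hA
  have hb : ∀ n, A n ∈ Metric.closedBall (0 : E →L[ℝ] E) 1 := by
    intro n
    rw [mem_closedBall_zero_iff]
    refine ContinuousLinearMap.opNorm_le_bound _ zero_le_one fun x => ?_
    simp [hA]
  have : ProperSpace (E →L[ℝ] E) := FiniteDimensional.proper ℝ _
  obtain ⟨B, _, ψ, hψ, hB⟩ := (isCompact_closedBall (0 : E →L[ℝ] E) 1).tendsto_subseq hb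
  have hx : ∀ x, Tendsto (fun n => R (ψ n) x) atTop (𝓝 (B x)) := by
    intro x
    exact ((ContinuousLinearMap.apply ℝ E x).continuous.tendsto B).comp hB
  have hn : ∀ x, ‖B x‖ = ‖x‖ := by
    intro x
    refine tendsto_nhds_unique (hx x).norm ?_
    simp
  let L : E →ₗᵢ[ℝ] E := ⟨B.toLinearMap, hn⟩
  refine ⟨L.toLinearIsometryEquiv rfl, ψ, hψ, fun x => ?_⟩
  simpa [L] using hx x

theorem weakTendsto_iso {κ : Measure E} [IsLocallyFiniteMeasure κ] {R : ℕ → E ≃ₗᵢ[ℝ] E}
    {S : E ≃ₗᵢ[ℝ] E} (h : ∀ x, Tendsto (fun n => R n x) atTop (𝓝 (S x))) :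
    WeakTendsto (fun n => κ.map (R n)) (κ.map S) := by
  intro φ hc hs
  simp only [integral_map_iso]
  obtain ⟨ρ, hρ⟩ : ∃ ρ : ℝ, ∀ x, ρ < ‖x‖ → φ x = 0 := by
    obtain ⟨ρ, hρ⟩ := hs.isCompact.isBounded.subset_closedBall 0
    refine ⟨ρ, fun x hx => image_eq_zero_of_notMem_tsupport fun h => ?_⟩
    have := hρ h
    rw [mem_closedBall_zero_iff] at this
    linarith
  obtain ⟨M, hM⟩ := hs.exists_bound_of_continuous hc
  refine tendsto_integral_of_dominated_convergence
    (fun x => (Metric.closedBall (0 : E) ρ).indicator (fun _ => M) x) ?_ ?_ ?_ ?_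
  · exact fun n => (hc.comp (R n).continuous).aestronglyMeasurable
  · rw [integrable_indicator_iff Metric.isClosed_closedBall.measurableSet]
    exact integrableOn_const (isCompact_closedBall (0 : E) ρ).measure_lt_top.ne
  · intro n
    refine Eventually.of_forall fun x => ?_
    by_cases hx : x ∈ Metric.closedBall (0 : E) ρ
    · rw [indicator_of_mem hx]; exact hM _
    · rw [indicator_of_notMem hx]
      have : φ (R n x) = 0 := hρ _ (by simpa using hx)
      simp [this]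
  · exact Eventually.of_forall fun x => (hc.tendsto _).comp (h x)

/-- a measure at distance zero from the orbit of `κ'` lies in the orbit -/
theorem exists_iso_of_od_eq_zero (hK : IsClosedGroup K) {C : ℝ} {κ κ' : Measure E}
    [IsLocallyFiniteMeasure κ]
    [IsLocallyFiniteMeasure κ'] (h : GB C κ) (h' : GB C κ') (h0 : od K κ' κ = 0) :
    ∃ R ∈ K, κ = κ'.map (R : E ≃ₗᵢ[ℝ] E) := by
  have hex : ∀ n : ℕ, ∃ R : E ≃ₗᵢ[ℝ] E, R ∈ K ∧ gd κ (κ'.map R) < 1 / (n + 1) := by
    intro n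
    have : od K κ' κ < 1 / ((n : ℝ) + 1) := by rw [h0]; positivity
    obtain ⟨R, hR⟩ := exists_lt_of_ciInf_lt this
    exact ⟨R, R.2, hR⟩
  choose R hRK hR using hex
  obtain ⟨S, ψ, hψ, hS⟩ := exists_subseq_iso R
  have hSl := isLocallyFinite_map κ' S
  refine ⟨S, hK _ S (fun n => hRK (ψ n)) hS, ?_⟩
  have hw : WeakTendsto (fun n => κ'.map (R (ψ n))) (κ'.map S) := weakTendsto_iso hS
  have h1 := weakCont_gd h _ (κ'.map S) hSl
    (Eventually.of_forall fun n => isLocallyFinite_map κ' (R (ψ n)))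
    (Eventually.of_forall fun n => h'.map _) hw
  have h2 : Tendsto (fun n => gd (κ'.map (R (ψ n))) κ) atTop (𝓝 0) := by
    refine squeeze_zero (fun n => gd_nonneg _ _) (fun n => ?_)
      (tendsto_one_div_add_atTop_nhds_zero_nat.comp hψ.tendsto_atTop)
    rw [gd_comm]
    exact (hR (ψ n)).le
  have h3 : gd (κ'.map S) κ = 0 := tendsto_nhds_unique h1 h2
  rw [gd_comm] at h3
  exact eq_of_gd_eq_zero h (h'.map S) h3

namespace Slow

variable {N : ℝ → Measure E} {τ₀ C : ℝ}

/-- **Countably many congruence classes of limits implies that all limits are congruent**, for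
congruence by the elements of any closed group `K` of linear isometries. -/
theorem congruent_of_countable (hN : Slow N τ₀) (hG : ∀ τ, τ₀ ≤ τ → GB C (N τ))
    (K : Subgroup (E ≃ₗᵢ[ℝ] E)) (hK : IsClosedGroup K)
    {𝒞 : Set (Measure E)} (hc : 𝒞.Countable)
    (hcov : ∀ κ ∈ limitSet N, ∃ c ∈ 𝒞, ∃ R ∈ K, κ = c.map (R : E ≃ₗᵢ[ℝ] E))
    {κ κ' : Measure E} (hκ : κ ∈ limitSet N) (hκ' : κ' ∈ limitSet N) :
    ∃ R ∈ K, κ = κ'.map (R : E ≃ₗᵢ[ℝ] E) := by
  have := hκ.1
  have := hκ'.1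
  have hw : WeakCont C fun κ => od K κ' κ := weakCont_od (hN.GB_limit hG hκ')
  have hcount : ((fun κ => od K κ' κ) '' limitSet N).Countable := by
    refine (hc.image fun c => od K κ' c).mono ?_
    rintro _ ⟨ν, hν, rfl⟩
    obtain ⟨c, hc, R, hR, rfl⟩ := hcov ν hν
    exact ⟨c, hc, (od_map _ _ hR).symm⟩
  have h1 := hN.const_of_countable hG hw hcount hκ hκ'
  simp only [od_self] at h1
  exact exists_iso_of_od_eq_zero hK (hN.GB_limit hG hκ) (hN.GB_limit hG hκ') h1

end Slow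

end Vale.Agent.P218
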