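import Mathlib
import Vale.Agent.P214.Defs

/-! Integral Brakke flows, parabolic rescalings, tangent flows, Gaussian density ratios.

`E` is a Euclidean space (a finite-dimensional real inner product space), `m` the dimension of the
moving surfaces. Integral varifolds are those of `Vale.Agent.P214.Defs` (rectifiable set, integer
multiplicity, approximate tangent planes); the weight is `θ H^m` with Mathlib's (unnormalised)
Hausdorff measure: a constant factor, which changes none of the notions below. -/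

open MeasureTheory Set Filter Topology
open scoped ENNReal NNReal CompactlySupported

namespace Vale.Agent.P218

open Vale.Agent.P214 (IntegralVarifold proj divAlong IsTestField)

variable {E : Type*} [NormedAddCommGroup E] [InnerProductSpace ℝ E] [FiniteDimensional ℝ E]
  [MeasurableSpace E] [BorelSpace E]

/-- `H` is the generalised mean curvature vector of the integral varifold `V`: it is locally
square integrable, orthogonal to the tangent planes, and
`∫ div_T X dμ = - ∫ ⟨X, H⟩ dμ` for all `C¹` vector fields `X` with compact support. -/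
structure IsMeanCurvature {m : ℕ} (V : IntegralVarifold m (univ : Set E)) (H : E → E) : Prop where
  meas : AEStronglyMeasurable H V.weight
  sq_int : ∀ K : Set E, IsCompact K → ∫⁻ x in K, ‖H x‖ₑ ^ 2 ∂V.weight < ⊤
  orth : ∀ᵐ x ∂V.weight, H x ∈ (V.tangent x)ᗮ
  first_var : ∀ X : E → E, IsTestField univ X →
    ∫ x, divAlong (V.tangent x) X x ∂V.weight = - ∫ x, inner ℝ (X x) (H x) ∂V.weight

/-- the integrand `-|H|² f + ⟨H, ∇f⟩ + ∂f/∂t` of Brakke's inequality -/
noncomputable def brakkeIntegrand (H : E → E) (f : ℝ × E → ℝ) (t : ℝ) (x : E) : ℝ :=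
  -‖H x‖ ^ 2 * f (t, x) + fderiv ℝ (fun y => f (t, y)) x (H x) + deriv (fun s => f (s, x)) t

/-- An `m`-dimensional integral Brakke flow `(μ_t)_{t ≥ 0}` of Radon measures on `E`: for almost
every `t`, `μ_t` is the weight of an integral varifold with mean curvature `H_t ⟂ T_x μ_t`,
`∫∫_K (1 + |H|²) dμ_t dt < ∞` for compact `K`, and Brakke's inequality
`∫ f dμ_b - ∫ f dμ_a ≤ ∫_a^b ∫ (-|H|² f + ⟨H, ∇f⟩ + ∂f/∂t) dμ_t dt` holds for all
`0 ≤ f ∈ C¹_c(ℝ × E)` and `0 ≤ a ≤ b`. -/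
structure IsIntegralBrakkeFlow (m : ℕ) (μ : ℝ → Measure E) : Prop where
  radon : ∀ t, 0 ≤ t → IsLocallyFiniteMeasure (μ t)
  ineq : ∃ (V : ℝ → IntegralVarifold m (univ : Set E)) (H : ℝ → E → E),
    (∀ᵐ t : ℝ, 0 ≤ t → (V t).weight = μ t ∧ IsMeanCurvature (V t) (H t)) ∧
    (∀ (T : ℝ) (K : Set E), IsCompact K →
      ∫⁻ t in Icc 0 T, ∫⁻ x in K, (1 + ‖H t x‖ₑ ^ 2) ∂(μ t) < ⊤) ∧
    ∀ f : ℝ × E → ℝ, ContDiff ℝ 1 f → HasCompactSupport f → (∀ p, 0 ≤ f p) →
      ∀ a b : ℝ, 0 ≤ a → a ≤ b →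
        IntervalIntegrable (fun t => ∫ x, brakkeIntegrand (H t) f t x ∂(μ t)) volume a b ∧
        ∫ x, f (b, x) ∂(μ b) - ∫ x, f (a, x) ∂(μ a) ≤
          ∫ t in a..b, ∫ x, brakkeIntegrand (H t) f t x ∂(μ t)

/-- the parabolic rescaling `μ^λ_s` about `(x₀, t₀)`: the push-forward of `λ^m μ_{t₀ + s/λ²}`
under `x ↦ λ (x - x₀)` -/
noncomputable def rescaled (m : ℕ) (μ : ℝ → Measure E) (x₀ : E) (t₀ lam s : ℝ) : Measure E :=
  ENNReal.ofReal (lam ^ m) • (μ (t₀ + s / lam ^ 2)).map (fun x => lam • (x - x₀))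

/-- weak convergence of Radon measures: convergence of the integrals of all `φ ∈ C_c(E)` -/
def WeakTendsto (u : ℕ → Measure E) (ν : Measure E) : Prop :=
  ∀ φ : E → ℝ, Continuous φ → HasCompactSupport φ →
    Tendsto (fun i => ∫ x, φ x ∂(u i)) atTop (𝓝 (∫ x, φ x ∂ν))

/-- `(ν_s)_{s < 0}` is a tangent flow of `μ` at `(x₀, t₀)`: a weak limit, for every `s < 0`, of
`μ^{λ_i}_s` along some sequence `λ_i → ∞` -/
def IsTangentFlow (m : ℕ) (μ : ℝ → Measure E) (x₀ : E) (t₀ : ℝ) (ν : ℝ → Measure E) : Prop :=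
  (∀ s < 0, IsLocallyFiniteMeasure (ν s)) ∧ ∃ lam : ℕ → ℝ, Tendsto lam atTop atTop ∧
    ∀ s < 0, WeakTendsto (fun i => rescaled m μ x₀ t₀ (lam i) s) (ν s)

/-- the tangent flow at `(x₀, t₀)` is unique: all sequences `λ_i → ∞` give the same limit, in the
fixed coordinates of `E` -/
def TangentFlowUnique (m : ℕ) (μ : ℝ → Measure E) (x₀ : E) (t₀ : ℝ) : Prop :=
  ∀ ν ν' : ℝ → Measure E, IsTangentFlow m μ x₀ t₀ ν → IsTangentFlow m μ x₀ t₀ ν' →
    ∀ s < 0, ν s = ν' s

/-- the set of all tangent flows at `(x₀, t₀)`, recorded by their time slices `ν_{-1}` -/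
def tangentSlices (m : ℕ) (μ : ℝ → Measure E) (x₀ : E) (t₀ : ℝ) : Set (Measure E) :=
  {κ | ∃ ν, IsTangentFlow m μ x₀ t₀ ν ∧ ν (-1) = κ}

/-- the weak topology on measures: the coarsest one for which `μ ↦ ∫ φ dμ` is continuous for
every `φ ∈ C_c(E)` -/
@[instance_reducible] noncomputable def weakTopology (E : Type*) [NormedAddCommGroup E] [MeasurableSpace E] :
    TopologicalSpace (Measure E) :=
  TopologicalSpace.induced (fun (μ : Measure E) (φ : C_c(E, ℝ)) => ∫ x, φ x ∂μ) inferInstance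

/-- Huisken's Gaussian density ratio of `μ` at `(x, t)` and scale `r > 0`:
`(4πr²)^{-m/2} ∫ exp(-|y - x|²/(4r²)) dμ_{t - r²}(y)` -/
noncomputable def densityRatio (m : ℕ) (μ : ℝ → Measure E) (x : E) (t r : ℝ) : ℝ :=
  (∫ y, Real.exp (-‖y - x‖ ^ 2 / (4 * r ^ 2)) ∂(μ (t - r ^ 2))) / (√(4 * Real.pi) * r) ^ m

end Vale.Agent.P218
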