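import Vale.Agent.P218.Rigidity

/-! Limit sets of slowly varying families whose elements are invariant under a group `Γ` of linear
isometries: all elements are congruent under any closed group `K` which together with `Γ` exhausts
the centraliser of `Γ` up to countably many cosets, or there are continuum many pairwise
non-congruent ones. -/

set_option linter.unusedSectionVars false
set_option linter.unusedVariables false

open MeasureTheory Set Filter Topology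
open scoped ENNReal NNReal

namespace Vale.Agent.P218

variable {E : Type*} [NormedAddCommGroup E] [InnerProductSpace ℝ E] [FiniteDimensional ℝ E]
  [MeasurableSpace E] [BorelSpace E]

theorem map_mul_iso (κ : Measure E) (R S : E ≃ₗᵢ[ℝ] E) : κ.map (R * S) = (κ.map S).map R := by
  rw [map_map_iso]; rfl

theorem map_one_iso (κ : Measure E) : κ.map (1 : E ≃ₗᵢ[ℝ] E) = κ := map_refl_iso κ

theorem map_inv_map_iso (κ : Measure E) (R : E ≃ₗᵢ[ℝ] E) : (κ.map R).map (R⁻¹ : E ≃ₗᵢ[ℝ] E) = κ := by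
  rw [← map_mul_iso, inv_mul_cancel, map_one_iso]

/-- the stabiliser of a measure -/
def stab (κ : Measure E) : Subgroup (E ≃ₗᵢ[ℝ] E) where
  carrier := {R | κ.map R = κ}
  mul_mem' := by
    intro a b ha hb
    simp only [Set.mem_ofPred_eq] at ha hb ⊢
    rw [map_mul_iso, hb, ha]
  one_mem' := map_one_iso κ
  inv_mem' := by
    intro a ha
    simp only [Set.mem_ofPred_eq] at ha ⊢
    conv_lhs => rw [← ha]
    exact map_inv_map_iso κ a

theorem mem_stab {κ : Measure E} {R : E ≃ₗᵢ[ℝ] E} : R ∈ stab κ ↔ κ.map R = κ := Iff.rfl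

theorem isClosedGroup_stab (κ : Measure E) [IsLocallyFiniteMeasure κ] : IsClosedGroup (stab κ) := by
  intro R S hR hS
  have := isLocallyFinite_map κ S
  rw [mem_stab]
  have h1 : WeakTendsto (fun n => κ.map (R n)) (κ.map S) := weakTendsto_iso hS
  have h2 : WeakTendsto (fun n => κ.map (R n)) κ := by
    intro φ hc hs
    have h3 : (fun n => ∫ x, φ x ∂(κ.map (R n))) = fun _ => ∫ x, φ x ∂κ := by
      funext n
      rw [mem_stab.1 (hR n)]
    rw [h3]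
    exact tendsto_const_nhds
  exact weakTendsto_unique h1 h2

/-- In the orbit of a measure there are only countably many `Γ`-invariant measures modulo the
centraliser of `Γ`. -/
theorem exists_countable_classes (κ₀ : Measure E) [IsLocallyFiniteMeasure κ₀]
    (Γ : Subgroup (E ≃ₗᵢ[ℝ] E)) : ∃ T : Set (E ≃ₗᵢ[ℝ] E), T.Countable ∧
      (∀ R ∈ T, ∀ g ∈ Γ, (κ₀.map R).map g = κ₀.map R) ∧
      ∀ R : E ≃ₗᵢ[ℝ] E, (∀ g ∈ Γ, (κ₀.map R).map g = κ₀.map R) →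
        ∃ R₁ ∈ T, ∃ z ∈ Subgroup.centralizer (Γ : Set (E ≃ₗᵢ[ℝ] E)),
          κ₀.map R = (κ₀.map R₁).map z := by
  set A : Set (E ≃ₗᵢ[ℝ] E) := {R | ∀ g ∈ Γ, (κ₀.map R).map g = κ₀.map R} with hA
  have hex : ∀ R₁ : E ≃ₗᵢ[ℝ] E, R₁ ∈ A → ∃ ε : ℝ, 0 < ε ∧ ∀ R ∈ A, dist (opr R) (opr R₁) < ε →
      ∃ z ∈ Subgroup.centralizer (Γ : Set (E ≃ₗᵢ[ℝ] E)), κ₀.map R = (κ₀.map R₁).map z := by
    intro R₁ hR₁
    have := isLocallyFinite_map κ₀ R₁
    obtain ⟨ε, hε, h⟩ := rigidity (isClosedGroup_stab (κ₀.map R₁)) (Γ := Γ)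
      (fun g hg => mem_stab.2 (hR₁ g hg))
    refine ⟨ε, hε, fun R hR hdist => ?_⟩
    have h1 : κ₀.map R = (κ₀.map R₁).map (R * R₁⁻¹) := by
      rw [map_mul_iso, map_inv_map_iso]
    obtain ⟨z, hz, s, hs, hzs⟩ := h (R * R₁⁻¹) (fun g hg => by
      rw [mem_stab, map_mul_iso, map_mul_iso, ← h1, hR g hg]
      conv_rhs => rw [← map_inv_map_iso (κ₀.map R₁) (R * R₁⁻¹)]
      rw [← h1]) (by
      have h2 : opr (R * R₁⁻¹) - 1 = (opr R - opr R₁) * opr R₁⁻¹ := by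
        rw [sub_mul, opr_mul_inv, opr_mul]
      rw [h2]
      calc ‖(opr R - opr R₁) * opr R₁⁻¹‖ ≤ ‖opr R - opr R₁‖ * ‖opr R₁⁻¹‖ := norm_mul_le _ _
        _ ≤ ‖opr R - opr R₁‖ * 1 := by gcongr; exact norm_opr_le _
        _ < ε := by rw [mul_one, ← dist_eq_norm]; exact hdist)
    refine ⟨z, hz, ?_⟩
    rw [h1, hzs, map_mul_iso, mem_stab.1 hs]
  choose! ε hε h using hex
  obtain ⟨T, hTA, hT, hcov⟩ := TopologicalSpace.isOpen_biUnion_countable A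
    (fun R => Metric.ball (opr R) (ε R)) (fun R _ => Metric.isOpen_ball)
  refine ⟨T, hT, fun R hR => hTA hR, fun R hR => ?_⟩
  have h1 : opr R ∈ ⋃ i ∈ A, Metric.ball (opr i) (ε i) :=
    mem_biUnion (show R ∈ A from hR) (Metric.mem_ball_self (hε R hR))
  rw [← hcov] at h1
  simp only [mem_iUnion, Metric.mem_ball] at h1
  obtain ⟨R₁, hR₁, hd⟩ := h1
  exact ⟨R₁, hR₁, h R₁ (hTA hR₁) R hR hd⟩

/-- Gaussian bounds imply local bounds -/
theorem locBdd_of_GB {C : ℝ} {u : ℕ → Measure E} (hu : ∀ n, GB C (u n))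
    (hl : ∀ n, IsLocallyFiniteMeasure (u n)) : LocBdd u := by
  intro K hK
  obtain ⟨r, hr⟩ := hK.isBounded.subset_closedBall 0
  refine ⟨(Real.exp (r ^ 2 / 8) * C).toNNReal, fun n => ?_⟩
  have := hl n
  have hfin : u n (Metric.closedBall 0 r) ≠ ⊤ := (isCompact_closedBall (0 : E) r).measure_lt_top.ne
  have h1 : Real.exp (-(r ^ 2 / 8)) * (u n).real (Metric.closedBall 0 r) ≤ C := by
    calc Real.exp (-(r ^ 2 / 8)) * (u n).real (Metric.closedBall 0 r)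
        = ∫ x in Metric.closedBall (0 : E) r, Real.exp (-(r ^ 2 / 8)) ∂(u n) := by
          rw [setIntegral_const, smul_eq_mul, mul_comm]
      _ ≤ ∫ x in Metric.closedBall (0 : E) r, gw x ∂(u n) := by
          refine setIntegral_mono_on (integrableOn_const hfin) (hu n).1.integrableOn
            Metric.isClosed_closedBall.measurableSet fun x hx => ?_
          rw [mem_closedBall_zero_iff] at hx
          unfold gw
          rw [Real.exp_le_exp]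
          have : ‖x‖ ^ 2 ≤ r ^ 2 := by gcongr
          linarith
      _ ≤ ∫ x, gw x ∂(u n) := setIntegral_le_integral (hu n).1
          (Eventually.of_forall fun x => (gw_pos x).le)
      _ ≤ C := (hu n).2
  have h2 : (u n).real (Metric.closedBall 0 r) ≤ Real.exp (r ^ 2 / 8) * C := by
    have h3 := mul_le_mul_of_nonneg_left h1 (Real.exp_pos (r ^ 2 / 8)).le
    rwa [← mul_assoc, ← Real.exp_add, add_neg_cancel, Real.exp_zero, one_mul] at h3
  calc u n K ≤ u n (Metric.closedBall 0 r) := measure_mono hr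
    _ = ENNReal.ofReal ((u n).real (Metric.closedBall 0 r)) := by
        rw [measureReal_def, ENNReal.ofReal_toReal hfin]
    _ ≤ ENNReal.ofReal (Real.exp (r ^ 2 / 8) * C) := ENNReal.ofReal_le_ofReal h2
    _ = _ := rfl

theorem LocBdd.exists_subseq {u : ℕ → Measure E} (hb : LocBdd u) :
    ∃ (κ : Measure E) (ψ : ℕ → ℕ), IsLocallyFiniteMeasure κ ∧ StrictMono ψ ∧
      WeakTendsto (fun n => u (ψ n)) κ := by
  choose B hB using hb.fnl_bdd
  obtain ⟨ℓ, hℓ⟩ := cluster_nonempty (isCompact_univ_pi fun φ => isCompact_Icc (a := -B φ) (b := B φ))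
    (fun n : ℕ => fnl (u n)) (fun n φ _ => abs_le.1 (hB φ n))
  obtain ⟨ν, hν, rfl⟩ := exists_measure_of_cluster hb hℓ
  obtain ⟨ψ, hψ, hψt⟩ := hb.exists_subseq_of_cluster hℓ
  exact ⟨ν, ψ, hν, hψ, hψt⟩

/-- convergence in the distance `gd` to a measure implies weak convergence of a subsequence -/
theorem exists_weakTendsto_of_gd {C : ℝ} {u : ℕ → Measure E} (hu : ∀ n, GB C (u n))
    (hl : ∀ n, IsLocallyFiniteMeasure (u n)) {κ : Measure E} [IsLocallyFiniteMeasure κ]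
    (hκ : GB C κ) (h : Tendsto (fun n => gd (u n) κ) atTop (𝓝 0)) :
    ∃ ψ : ℕ → ℕ, StrictMono ψ ∧ WeakTendsto (fun n => u (ψ n)) κ := by
  obtain ⟨κ', ψ, hκ', hψ, hw⟩ := (locBdd_of_GB hu hl).exists_subseq
  refine ⟨ψ, hψ, ?_⟩
  have h1 := weakCont_gd hκ _ κ' hκ' (Eventually.of_forall fun n => hl (ψ n))
    (Eventually.of_forall fun n => hu (ψ n)) hw
  have h2 : gd κ' κ = 0 := tendsto_nhds_unique h1 (h.comp hψ.tendsto_atTop)
  have h3 : GB C κ' := GB.of_weakTendsto (Eventually.of_forall fun n => hu (ψ n)) hw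
  rwa [eq_of_gd_eq_zero h3 hκ h2] at hw

namespace Slow

variable {N : ℝ → Measure E} {τ₀ C : ℝ}

theorem od_pos_of_not_congruent (hN : Slow N τ₀) (hG : ∀ τ, τ₀ ≤ τ → GB C (N τ))
    {κ κ' : Measure E} (hκ : κ ∈ limitSet N) (hκ' : κ' ∈ limitSet N)
    (hne : ∀ R : E ≃ₗᵢ[ℝ] E, κ ≠ κ'.map R) : 0 < od ⊤ κ' κ := by
  have := hκ.1
  have := hκ'.1
  refine lt_of_le_of_ne (od_nonneg _ _) fun h => ?_
  obtain ⟨R, _, hR⟩ := exists_iso_of_od_eq_zero (K := ⊤) (fun _ _ _ _ => Subgroup.mem_top _)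
    (hN.GB_limit hG hκ) (hN.GB_limit hG hκ') h.symm
  exact hne R hR

/-- the distances to the orbit of one limit fill an interval -/
theorem exists_od_eq (hN : Slow N τ₀) (hG : ∀ τ, τ₀ ≤ τ → GB C (N τ))
    {κ κ' : Measure E} (hκ : κ ∈ limitSet N) (hκ' : κ' ∈ limitSet N) {v : ℝ}
    (hv0 : 0 ≤ v) (hv : v ≤ od ⊤ κ' κ) : ∃ κ'' ∈ limitSet N, od ⊤ κ' κ'' = v := by
  have := hκ'.1
  have hw : WeakCont C fun κ => od ⊤ κ' κ := weakCont_od (hN.GB_limit hG hκ')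
  have h1 := hN.isPreconnected_values hG hw
  have h2 := h1.Icc_subset (a := 0) (b := od ⊤ κ' κ) ⟨κ', hκ', od_self κ'⟩ ⟨κ, hκ, rfl⟩
  exact h2 ⟨hv0, hv⟩

/-- **Non-congruent limits come in continuous families.** -/
theorem exists_family (hN : Slow N τ₀) (hG : ∀ τ, τ₀ ≤ τ → GB C (N τ))
    {κ κ' : Measure E} (hκ : κ ∈ limitSet N) (hκ' : κ' ∈ limitSet N)
    (hne : ∀ R : E ≃ₗᵢ[ℝ] E, κ ≠ κ'.map R) : ∃ Φ : ℝ → Measure E, (∀ c, Φ c ∈ limitSet N) ∧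
      ∀ c c', c ≠ c' → ∀ R : E ≃ₗᵢ[ℝ] E, Φ c' ≠ (Φ c).map R := by
  have hpos := hN.od_pos_of_not_congruent hG hκ hκ' hne
  set b := od ⊤ κ' κ with hb
  have hex : ∀ c : ℝ, ∃ κ'' ∈ limitSet N, od ⊤ κ' κ'' = b / (1 + Real.exp c) := by
    intro c
    refine hN.exists_od_eq hG hκ hκ' (by positivity) ?_
    rw [← hb]
    exact div_le_self hpos.le (by linarith [Real.exp_pos c])
  choose Φ hΦ1 hΦ2 using hex
  refine ⟨Φ, hΦ1, fun c c' hcc' R hR => hcc' ?_⟩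
  have h1 := congrArg (od ⊤ κ') hR
  rw [od_map _ _ (Subgroup.mem_top R), hΦ2, hΦ2,
    div_eq_div_iff (by positivity) (by positivity)] at h1
  have h2 := mul_left_cancel₀ hpos.ne' h1
  have h3 : Real.exp c = Real.exp c' := by linarith
  exact Real.exp_injective h3

/-- **If not all limits are congruent then no limit is isolated modulo linear isometries.** -/
theorem not_isolated (hN : Slow N τ₀) (hG : ∀ τ, τ₀ ≤ τ → GB C (N τ))
    {κ₁ κ₂ : Measure E} (hκ₁ : κ₁ ∈ limitSet N) (hκ₂ : κ₂ ∈ limitSet N)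
    (hne : ∀ R : E ≃ₗᵢ[ℝ] E, κ₁ ≠ κ₂.map R) {κ₀ : Measure E} (hκ₀ : κ₀ ∈ limitSet N) :
    ∃ (κ : ℕ → Measure E) (R : ℕ → E ≃ₗᵢ[ℝ] E), (∀ n, κ n ∈ limitSet N) ∧
      (∀ n, ∀ S : E ≃ₗᵢ[ℝ] E, κ n ≠ κ₀.map S) ∧ WeakTendsto (fun n => (κ n).map (R n)) κ₀ := by
  have := hκ₀.1
  -- some limit is not congruent to `κ₀`
  obtain ⟨κ', hκ', hne'⟩ : ∃ κ' ∈ limitSet N, ∀ R : E ≃ₗᵢ[ℝ] E, κ' ≠ κ₀.map R := by
    by_contra hcon
    push Not at hcon
    obtain ⟨R₁, h1⟩ := hcon κ₁ hκ₁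
    obtain ⟨R₂, h2⟩ := hcon κ₂ hκ₂
    refine hne (R₁ * R₂⁻¹) ?_
    rw [map_mul_iso, h2, map_inv_map_iso, h1]
  have hpos := hN.od_pos_of_not_congruent hG hκ' hκ₀ hne'
  set b := od ⊤ κ₀ κ' with hb
  have hex : ∀ n : ℕ, ∃ κ'' ∈ limitSet N, od ⊤ κ₀ κ'' = b / ((n : ℝ) + 1) := by
    intro n
    refine hN.exists_od_eq hG hκ' hκ₀ (by positivity) ?_
    rw [← hb]
    exact div_le_self hpos.le (by linarith [(Nat.cast_nonneg n : (0 : ℝ) ≤ n)])
  choose κ hκ1 hκ2 using hex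
  have hnc : ∀ n, ∀ S : E ≃ₗᵢ[ℝ] E, κ n ≠ κ₀.map S := by
    intro n S hS
    have h1 := hκ2 n
    rw [hS, od_map _ _ (Subgroup.mem_top S), od_self] at h1
    have : 0 < b / ((n : ℝ) + 1) := by positivity
    linarith
  have hR : ∀ n : ℕ, ∃ R : E ≃ₗᵢ[ℝ] E, gd ((κ n).map R) κ₀ < 2 * b / ((n : ℝ) + 1) := by
    intro n
    have h1 : od ⊤ κ₀ (κ n) < 2 * b / ((n : ℝ) + 1) := by
      rw [hκ2]
      gcongr
      linarith
    obtain ⟨R, hR⟩ := exists_lt_of_ciInf_lt h1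
    refine ⟨(R : E ≃ₗᵢ[ℝ] E)⁻¹, ?_⟩
    rw [← gd_map _ _ (R : E ≃ₗᵢ[ℝ] E)]
    rw [← map_mul_iso, mul_inv_cancel, map_one_iso]
    exact hR
  choose R hR using hR
  have hl : ∀ n, IsLocallyFiniteMeasure ((κ n).map (R n)) := fun n => by
    have := (hκ1 n).1
    exact isLocallyFinite_map _ _
  obtain ⟨ψ, hψ, hw⟩ := exists_weakTendsto_of_gd (C := C) (fun n => (hN.GB_limit hG (hκ1 n)).map (R n))
    hl (hN.GB_limit hG hκ₀) (by
      refine squeeze_zero (fun n => gd_nonneg _ _) (fun n => (hR n).le) ?_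
      have h2 := tendsto_one_div_add_atTop_nhds_zero_nat.const_mul (2 * b)
      rw [mul_zero] at h2
      refine h2.congr fun n => ?_
      ring)
  exact ⟨fun n => κ (ψ n), fun n => R (ψ n), fun n => hκ1 _, fun n => hnc _, hw⟩

/-- **If all limits are congruent and invariant under `Γ` then they are congruent under `K`.** -/
theorem congruent_of_symm (hN : Slow N τ₀) (hG : ∀ τ, τ₀ ≤ τ → GB C (N τ))
    (Γ K : Subgroup (E ≃ₗᵢ[ℝ] E)) (hK : IsClosedGroup K) {D : Set (E ≃ₗᵢ[ℝ] E)}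
    (hD : D.Countable) (hcent : ∀ z ∈ Subgroup.centralizer (Γ : Set (E ≃ₗᵢ[ℝ] E)),
      ∃ k ∈ K, ∃ d ∈ D, ∃ g ∈ Γ, z = k * d * g)
    (hinv : ∀ κ ∈ limitSet N, ∀ g ∈ Γ, κ.map (g : E ≃ₗᵢ[ℝ] E) = κ)
    (hall : ∀ κ ∈ limitSet N, ∀ κ' ∈ limitSet N, ∃ R : E ≃ₗᵢ[ℝ] E, κ = κ'.map R)
    {κ κ' : Measure E} (hκ : κ ∈ limitSet N) (hκ' : κ' ∈ limitSet N) :
    ∃ R ∈ K, κ = κ'.map (R : E ≃ₗᵢ[ℝ] E) := by
  have := hκ'.1
  obtain ⟨T, hT, hTinv, hTcov⟩ := exists_countable_classes κ' Γ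
  refine hN.congruent_of_countable hG K hK
    (𝒞 := (fun p : (E ≃ₗᵢ[ℝ] E) × (E ≃ₗᵢ[ℝ] E) => (κ'.map p.1).map p.2) '' (T ×ˢ D))
    ((hT.prod hD).image _) (fun ν hν => ?_) hκ hκ'
  obtain ⟨R, rfl⟩ := hall ν hν κ' hκ'
  obtain ⟨R₁, hR₁, z, hz, h1⟩ := hTcov R (fun g hg => hinv _ hν g hg)
  obtain ⟨k, hk, d, hd, g, hg, rfl⟩ := hcent z hz
  refine ⟨_, ⟨(R₁, d), ⟨hR₁, hd⟩, rfl⟩, k, hk, ?_⟩
  have h3 : (κ'.map R₁).map g = κ'.map R₁ := hTinv R₁ hR₁ g hg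
  rw [h1, map_mul_iso, map_mul_iso, h3]

end Slow

end Vale.Agent.P218
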