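import Vale.Agent.P218.Defs

/-! The Laplace transform of a measure determines it, and two different measures have different
Laplace transforms at almost every point. -/

set_option linter.unusedSectionVars false
set_option linter.unusedVariables false

open MeasureTheory Set Filter Topology ProbabilityTheory
open scoped ENNReal NNReal

namespace Vale.Agent.P218

variable {E : Type*} [NormedAddCommGroup E] [InnerProductSpace ℝ E] [FiniteDimensional ℝ E]
  [MeasurableSpace E] [BorelSpace E]

/-- all exponential moments are finite -/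
def ExpFin (p : Measure E) : Prop := ∀ y : E, Integrable (fun x => Real.exp (inner ℝ x y)) p

/-- Laplace transform -/
noncomputable def lap (p : Measure E) (y : E) : ℝ := ∫ x, Real.exp (inner ℝ x y) ∂p

theorem ExpFin.isFinite {p : Measure E} (h : ExpFin p) : IsFiniteMeasure p := by
  have := h 0
  simp only [inner_zero_right, Real.exp_zero] at this
  rwa [integrable_const_iff_isFiniteMeasure one_ne_zero] at this

theorem mgf_eq_lap (p : Measure E) (y : E) (t : ℝ) :
    mgf (fun x => inner ℝ x y) p t = lap p (t • y) := by
  simp [mgf, lap, inner_smul_right]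

theorem ExpFin.expSet_eq {p : Measure E} (h : ExpFin p) (y : E) :
    integrableExpSet (fun x => inner ℝ x y) p = univ := by
  refine eq_univ_of_forall fun t => ?_
  have := h (t • y)
  simp only [inner_smul_right] at this
  exact this

/-- the Laplace transform is injective -/
theorem lap_injective {p p' : Measure E} (h : ExpFin p) (h' : ExpFin p') (he : lap p = lap p') :
    p = p' := by
  have := h.isFinite
  have := h'.isFinite
  refine Measure.ext_of_charFun ?_
  funext y
  have hz : p = 0 ↔ p' = 0 := by
    have h0 := congrFun he 0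
    simp only [lap, inner_zero_right, Real.exp_zero, integral_const, smul_eq_mul, mul_one] at h0
    rw [← Measure.measure_univ_eq_zero, ← Measure.measure_univ_eq_zero]
    rw [measureReal_def, measureReal_def,
      ENNReal.toReal_eq_toReal_iff' (measure_ne_top _ _) (measure_ne_top _ _)] at h0
    rw [h0]
  have hmgf : mgf (fun x => inner ℝ x y) p = mgf (fun x => inner ℝ x y) p' := by
    funext t
    rw [mgf_eq_lap, mgf_eq_lap, he]
  have hc := eqOn_complexMGF_of_mgf' hmgf hz
  have hI : (Complex.I : ℂ) ∈ {z : ℂ | z.re ∈ interior (integrableExpSet (fun x => inner ℝ x y) p)} := by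
    rw [h.expSet_eq]
    simp
  have := hc hI
  simp only [complexMGF] at this
  rw [charFun_apply, charFun_apply]
  simpa [mul_comm] using this

theorem measurable_lap (p : Measure E) [SFinite p] : Measurable (lap p) := by
  unfold lap
  refine (StronglyMeasurable.integral_prod_right (f := fun y x => Real.exp (inner ℝ x y)) ?_).measurable
  exact (by fun_prop : Continuous fun q : E × E => Real.exp (inner ℝ q.2 q.1)).stronglyMeasurable

/-- a set meeting every line through the origin in a null set is null -/
theorem null_of_rays {Z : Set E} (hZ : MeasurableSet Z)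
    (h : ∀ w : E, ∀ᵐ t : ℝ, t • w ∉ Z) : (volume : Measure E) Z = 0 := by
  set S : Set (E × ℝ) := {q | q.2 • q.1 ∈ Z} with hS
  have hSm : MeasurableSet S := by
    have : Measurable fun q : E × ℝ => q.2 • q.1 := by fun_prop
    exact this hZ
  have h1 : (volume : Measure E).prod (volume : Measure ℝ) S = 0 := by
    rw [Measure.measure_prod_null hSm]
    refine Eventually.of_forall fun w => ?_
    have := h w
    rw [ae_iff] at this
    simpa [hS] using this
  have h2 : (volume : Measure ℝ).prod (volume : Measure E) (Prod.swap ⁻¹' S) = 0 := by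
    have hpres := (Measure.measurePreserving_swap (μ := (volume : Measure ℝ))
      (ν := (volume : Measure E)))
    rw [hpres.measure_preimage hSm.nullMeasurableSet]
    exact h1
  have h3 := Measure.measure_ae_null_of_prod_null h2
  -- pick `t ∈ (1, 2)`
  have h4 : ∃ t ∈ Ioo (1 : ℝ) 2, volume (Prod.mk t ⁻¹' (Prod.swap ⁻¹' S)) = 0 := by
    by_contra hcon
    push Not at hcon
    have h5 : volume (Ioo (1 : ℝ) 2) = 0 := by
      refine measure_mono_null ?_ (ae_iff.1 h3)
      intro t ht
      exact hcon t ht
    rw [Real.volume_Ioo] at h5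
    norm_num at h5
  obtain ⟨t, ht, h5⟩ := h4
  have h6 : Prod.mk t ⁻¹' (Prod.swap ⁻¹' S) = (fun w : E => t • w) ⁻¹' Z := rfl
  rw [h6, Measure.addHaar_preimage_smul _ (by linarith [ht.1] : t ≠ 0)] at h5
  have h7 := mul_eq_zero.1 h5
  rcases h7 with h7 | h7
  · exfalso
    rw [ENNReal.ofReal_eq_zero] at h7
    have : 0 < |(t ^ Module.finrank ℝ E)⁻¹| := by
      have : 0 < t := by linarith [ht.1]
      positivity
    linarith
  · exact h7

/-- tilting by an exponential -/
noncomputable def tilt (p : Measure E) (y₀ : E) : Measure E :=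
  p.withDensity fun x => ENNReal.ofReal (Real.exp (inner ℝ x y₀))

theorem integrable_tilt {p : Measure E} (y₀ : E) {g : E → ℝ}  :
    Integrable g (tilt p y₀) ↔ Integrable (fun x => Real.exp (inner ℝ x y₀) * g x) p := by
  unfold tilt
  rw [integrable_withDensity_iff_integrable_smul₀' (by fun_prop) (by simp)]
  simp only [smul_eq_mul]
  refine integrable_congr (Eventually.of_forall fun x => ?_)
  simp [ENNReal.toReal_ofReal (Real.exp_pos _).le]

theorem integral_tilt {p : Measure E} (y₀ : E) (g : E → ℝ) :
    ∫ x, g x ∂(tilt p y₀) = ∫ x, Real.exp (inner ℝ x y₀) * g x ∂p := by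
  unfold tilt
  rw [integral_withDensity_eq_integral_toReal_smul₀ (by fun_prop) (by simp)]
  refine integral_congr_ae (Eventually.of_forall fun x => ?_)
  simp [ENNReal.toReal_ofReal (Real.exp_pos _).le]

theorem ExpFin.tilt {p : Measure E} (h : ExpFin p) (y₀ : E) : ExpFin (tilt p y₀) := by
  intro y
  rw [integrable_tilt]
  have := h (y₀ + y)
  simpa [inner_add_right, Real.exp_add] using this

theorem lap_tilt {p : Measure E} (y₀ y : E) : lap (tilt p y₀) y = lap p (y₀ + y) := by
  unfold lap
  rw [integral_tilt]
  simp [inner_add_right, Real.exp_add]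

/-- **Zero-one law for Laplace transforms.** -/
theorem lap_ae_ne {p p' : Measure E} (h : ExpFin p) (h' : ExpFin p') (hne : p ≠ p') :
    ∀ᵐ y : E, lap p y ≠ lap p' y := by
  have := h.isFinite
  have := h'.isFinite
  obtain ⟨y₀, hy₀⟩ : ∃ y₀, lap p y₀ ≠ lap p' y₀ := by
    by_contra hcon
    push Not at hcon
    exact hne (lap_injective h h' (funext hcon))
  set Z : Set E := {w | lap p (y₀ + w) = lap p' (y₀ + w)} with hZ
  have hZm : MeasurableSet Z := by
    have h1 : Measurable fun w => lap p (y₀ + w) := (measurable_lap p).comp (by fun_prop)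
    have h2 : Measurable fun w => lap p' (y₀ + w) := (measurable_lap p').comp (by fun_prop)
    exact measurableSet_eq_fun h1 h2
  have hnull : (volume : Measure E) Z = 0 := by
    refine null_of_rays hZm fun w => ?_
    set F : ℝ → ℝ := fun t => mgf (fun x => inner ℝ x w) (tilt p y₀) t -
      mgf (fun x => inner ℝ x w) (tilt p' y₀) t with hF
    have hA : AnalyticOnNhd ℝ F univ := by
      have a1 := analyticOnNhd_mgf (X := fun x : E => inner ℝ x w) (μ := tilt p y₀)
      have a2 := analyticOnNhd_mgf (X := fun x : E => inner ℝ x w) (μ := tilt p' y₀)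
      rw [(h.tilt y₀).expSet_eq, interior_univ] at a1
      rw [(h'.tilt y₀).expSet_eq, interior_univ] at a2
      exact a1.sub a2
    have hF0 : F 0 ≠ 0 := by
      simp only [hF, mgf_eq_lap, lap_tilt, zero_smul, add_zero]
      exact sub_ne_zero.2 hy₀
    have h3 := hA.preimage_zero_mem_codiscrete hF0
    have h4 : F ⁻¹' {0}ᶜ ∈ ae ((volume : Measure ℝ).restrict univ) :=
      ae_restrict_le_codiscreteWithin MeasurableSet.univ h3
    rw [Measure.restrict_univ] at h4
    filter_upwards [h4] with t ht
    intro hmem
    refine ht ?_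
    simp only [hF, mem_singleton_iff, mgf_eq_lap, lap_tilt]
    exact sub_eq_zero.2 hmem
  rw [ae_iff]
  have h5 : {y | ¬ lap p y ≠ lap p' y} = (fun y => -y₀ + y) ⁻¹' Z := by
    ext y
    simp [hZ]
  rw [h5, measure_preimage_add]
  exact hnull

end Vale.Agent.P218
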