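import Vale.Agent.P218.Slow
import Vale.Agent.P218.Gauss

/-! Gaussian integrals along weakly convergent sequences with a uniform Gaussian bound. -/

set_option linter.unusedSectionVars false
set_option linter.unusedVariables false

open MeasureTheory Set Filter Topology
open scoped ENNReal NNReal CompactlySupported

namespace Vale.Agent.P218

variable {E : Type*} [NormedAddCommGroup E] [InnerProductSpace ℝ E] [FiniteDimensional ℝ E]
  [MeasurableSpace E] [BorelSpace E]

/-- the reference weight `exp(-|x|²/8)` -/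
noncomputable def gw (x : E) : ℝ := Real.exp (-‖x‖ ^ 2 / 8)

theorem continuous_gw : Continuous (gw : E → ℝ) := by
  unfold gw; fun_prop

theorem gw_pos (x : E) : 0 < gw x := Real.exp_pos _

/-- a Gaussian bound -/
def GB (C : ℝ) (κ : Measure E) : Prop := Integrable gw κ ∧ ∫ x, gw x ∂κ ≤ C

/-- the Gaussian bound passes to weak limits -/
theorem GB.of_weakTendsto {C : ℝ} {u : ℕ → Measure E} {κ : Measure E} [IsLocallyFiniteMeasure κ]
    (hu : ∀ᶠ i in atTop, GB C (u i)) (h : WeakTendsto u κ) : GB C κ := by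
  have hC : 0 ≤ C := by
    obtain ⟨i, hi⟩ := hu.exists
    exact (integral_nonneg fun x => (gw_pos x).le).trans hi.2
  choose χ hχ1 hχ2 using fun k : ℕ => exists_cutoff (E := E) (k : ℝ)
  have hk : ∀ k : ℕ, ∫⁻ x, ENNReal.ofReal (gw x * χ k x) ∂κ ≤ ENNReal.ofReal C := by
    intro k
    have hc : Continuous fun x => gw x * χ k x := continuous_gw.mul (χ k).continuous
    have hs : HasCompactSupport fun x => gw x * χ k x := (χ k).hasCompactSupport.mul_left
    have h1 := h _ hc hs
    have h2 : ∫ x, gw x * χ k x ∂κ ≤ C := by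
      refine le_of_tendsto h1 ?_
      filter_upwards [hu] with i hi
      refine le_trans ?_ hi.2
      refine integral_mono_of_nonneg (Eventually.of_forall fun x =>
        mul_nonneg (gw_pos x).le (hχ1 k x).1) hi.1 (Eventually.of_forall fun x => ?_)
      exact mul_le_of_le_one_right (gw_pos x).le (hχ1 k x).2
    rw [← ofReal_integral_eq_lintegral_ofReal (hc.integrable_of_hasCompactSupport hs)
      (Eventually.of_forall fun x => mul_nonneg (gw_pos x).le (hχ1 k x).1)]
    exact ENNReal.ofReal_le_ofReal h2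
  have hlim : ∫⁻ x, ENNReal.ofReal (gw x) ∂κ ≤ ENNReal.ofReal C := by
    have h1 : ∀ x : E, Tendsto (fun k : ℕ => ENNReal.ofReal (gw x * χ k x)) atTop
        (𝓝 (ENNReal.ofReal (gw x))) := by
      intro x
      refine tendsto_nhds_of_eventually_eq ?_
      obtain ⟨k₀, hk₀⟩ := exists_nat_ge ‖x‖
      filter_upwards [eventually_ge_atTop k₀] with k hk
      rw [hχ2 k x (hk₀.trans (by exact_mod_cast hk)), mul_one]
    calc ∫⁻ x, ENNReal.ofReal (gw x) ∂κ
        = ∫⁻ x, liminf (fun k : ℕ => ENNReal.ofReal (gw x * χ k x)) atTop ∂κ := by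
          refine lintegral_congr fun x => ?_
          rw [(h1 x).liminf_eq]
      _ ≤ liminf (fun k : ℕ => ∫⁻ x, ENNReal.ofReal (gw x * χ k x) ∂κ) atTop := by
          refine lintegral_liminf_le fun k => ?_
          exact (continuous_gw.mul (χ k).continuous).measurable.ennreal_ofReal
      _ ≤ ENNReal.ofReal C := by
          refine liminf_le_of_frequently_le' (Frequently.of_forall hk)
  have hint : Integrable gw κ := by
    refine ⟨continuous_gw.aestronglyMeasurable, ?_⟩
    rw [hasFiniteIntegral_iff_ofReal (Eventually.of_forall fun x => (gw_pos x).le)]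
    exact hlim.trans_lt ENNReal.ofReal_lt_top
  refine ⟨hint, ?_⟩
  rw [← ofReal_integral_eq_lintegral_ofReal hint
    (Eventually.of_forall fun x => (gw_pos x).le)] at hlim
  exact (ENNReal.ofReal_le_ofReal_iff hC).1 hlim

/-- `g` is negligible with respect to the reference weight at infinity -/
def Negl (g : E → ℝ) : Prop := ∀ ε > 0, ∃ R : ℝ, ∀ x, R < ‖x‖ → |g x| ≤ ε * gw x

theorem Negl.integrable {g : E → ℝ} (hg : Negl g) (hc : Continuous g) {κ : Measure E}
    [IsLocallyFiniteMeasure κ] {C : ℝ} (h : GB C κ) : Integrable g κ := by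
  obtain ⟨R, hR⟩ := hg 1 one_pos
  obtain ⟨χ, hχ1, hχ2⟩ := exists_cutoff (E := E) R
  have h1 : Integrable (fun x => g x * χ x) κ :=
    (hc.mul χ.continuous).integrable_of_hasCompactSupport χ.hasCompactSupport.mul_left
  have h2 : Integrable (fun x => g x * (1 - χ x)) κ := by
    refine Integrable.mono' h.1 (hc.mul (continuous_const.sub χ.continuous)).aestronglyMeasurable
      (Eventually.of_forall fun x => ?_)
    rw [Real.norm_eq_abs, abs_mul]
    by_cases hx : ‖x‖ ≤ R
    · rw [hχ2 x hx]; simp [(gw_pos x).le]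
    · push Not at hx
      have := hR x hx
      rw [one_mul] at this
      calc |g x| * |1 - χ x| ≤ gw x * 1 := by
            refine mul_le_mul this ?_ (abs_nonneg _) (gw_pos x).le
            rw [abs_le]; constructor <;> linarith [(hχ1 x).1, (hχ1 x).2]
        _ = gw x := mul_one _
  refine (h1.add h2).congr (Eventually.of_forall fun x => ?_)
  simp only [Pi.add_apply]; ring

theorem Negl.tendsto {g : E → ℝ} (hg : Negl g) (hc : Continuous g) {C : ℝ} {u : ℕ → Measure E}
    {κ : Measure E} [IsLocallyFiniteMeasure κ] (hul : ∀ᶠ i in atTop, IsLocallyFiniteMeasure (u i))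
    (hu : ∀ᶠ i in atTop, GB C (u i)) (h : WeakTendsto u κ) :
    Tendsto (fun i => ∫ x, g x ∂(u i)) atTop (𝓝 (∫ x, g x ∂κ)) := by
  have hκ : GB C κ := GB.of_weakTendsto hu h
  have hC : 0 ≤ C := (integral_nonneg fun x => (gw_pos x).le).trans hκ.2
  refine tendsto_of_approx fun ε hε => ?_
  set δ := ε / (C + 1) with hδ
  have hδpos : 0 < δ := by positivity
  obtain ⟨R, hR⟩ := hg δ hδpos
  obtain ⟨χ, hχ1, hχ2⟩ := exists_cutoff (E := E) R
  have key : ∀ ρ : Measure E, IsLocallyFiniteMeasure ρ → GB C ρ →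
      |∫ x, g x ∂ρ - ∫ x, g x * χ x ∂ρ| ≤ ε := by
    intro ρ hρl hρ
    have i1 := hg.integrable hc hρ
    have i2 : Integrable (fun x => g x * χ x) ρ :=
      (hc.mul χ.continuous).integrable_of_hasCompactSupport χ.hasCompactSupport.mul_left
    rw [← integral_sub i1 i2]
    have h3 : |∫ x, (g x - g x * χ x) ∂ρ| ≤ ∫ x, δ * gw x ∂ρ := by
      rw [← Real.norm_eq_abs]
      refine norm_integral_le_of_norm_le (hρ.1.const_mul δ) (Eventually.of_forall fun x => ?_)
      rw [Real.norm_eq_abs, show g x - g x * χ x = g x * (1 - χ x) by ring, abs_mul]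
      by_cases hx : ‖x‖ ≤ R
      · rw [hχ2 x hx]; simp only [sub_self, abs_zero, mul_zero]
        exact mul_nonneg hδpos.le (gw_pos x).le
      · push Not at hx
        calc |g x| * |1 - χ x| ≤ (δ * gw x) * 1 := by
              refine mul_le_mul (hR x hx) ?_ (abs_nonneg _) (mul_nonneg hδpos.le (gw_pos x).le)
              rw [abs_le]; constructor <;> linarith [(hχ1 x).1, (hχ1 x).2]
          _ = δ * gw x := mul_one _
    refine h3.trans ?_
    rw [integral_const_mul]
    calc δ * ∫ x, gw x ∂ρ ≤ δ * C := by gcongr; exact hρ.2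
      _ ≤ ε := by
        rw [hδ, div_mul_eq_mul_div, div_le_iff₀ (by positivity)]
        nlinarith
  refine ⟨fun i => ∫ x, g x * χ x ∂(u i), ∫ x, g x * χ x ∂κ,
    h _ (hc.mul χ.continuous) χ.hasCompactSupport.mul_left, ?_, key κ inferInstance hκ⟩
  filter_upwards [hu, hul] with i hi hli
  exact key _ hli hi

/-- off-centre Gaussians are negligible with respect to the reference weight -/
theorem negl_gauss (y : E) : Negl fun x => Real.exp (-‖x - y‖ ^ 2 / 4) := by
  intro ε hε
  refine ⟨4 * ‖y‖ + 8 * (|Real.log ε| + 1), fun x hx => ?_⟩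
  have hy := norm_nonneg y
  have hl := abs_nonneg (Real.log ε)
  have hx1 : 1 ≤ ‖x‖ := by linarith
  have hlog : -Real.log ε ≤ |Real.log ε| := neg_le_abs _
  rw [abs_of_pos (Real.exp_pos _)]
  unfold gw
  have hsq : (‖x‖ - ‖y‖) ^ 2 ≤ ‖x - y‖ ^ 2 := by
    have := abs_norm_sub_norm_le x y
    have h2 : |‖x‖ - ‖y‖| ^ 2 ≤ ‖x - y‖ ^ 2 := by gcongr
    rwa [sq_abs] at h2
  have hmain : -‖x - y‖ ^ 2 / 4 ≤ Real.log ε + -‖x‖ ^ 2 / 8 := by
    have h3 : |Real.log ε| + 1 ≤ ‖x‖ * (‖x‖ / 8 - ‖y‖ / 2) := by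
      have h4 : |Real.log ε| + 1 ≤ ‖x‖ / 8 - ‖y‖ / 2 := by linarith
      nlinarith
    nlinarith
  calc Real.exp (-‖x - y‖ ^ 2 / 4) ≤ Real.exp (Real.log ε + -‖x‖ ^ 2 / 8) :=
        Real.exp_le_exp.2 hmain
    _ = ε * Real.exp (-‖x‖ ^ 2 / 8) := by rw [Real.exp_add, Real.exp_log hε]

/-- the finite measure `exp(-|x|²/4) κ` -/
noncomputable def gm (κ : Measure E) : Measure E :=
  κ.withDensity fun x => ENNReal.ofReal (Real.exp (-‖x‖ ^ 2 / 4))

theorem integral_gm {κ : Measure E} (g : E → ℝ) :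
    ∫ x, g x ∂(gm κ) = ∫ x, Real.exp (-‖x‖ ^ 2 / 4) * g x ∂κ := by
  unfold gm
  rw [integral_withDensity_eq_integral_toReal_smul₀ (by fun_prop) (by simp)]
  refine integral_congr_ae (Eventually.of_forall fun x => ?_)
  simp [ENNReal.toReal_ofReal (Real.exp_pos _).le]

theorem expFin_gm {C : ℝ} {κ : Measure E} [IsLocallyFiniteMeasure κ] (h : GB C κ) :
    ExpFin (gm κ) := by
  intro y
  unfold gm
  rw [integrable_withDensity_iff_integrable_smul₀' (by fun_prop) (by simp)]
  have h1 := (negl_gauss ((2 : ℝ) • y)).integrable (by fun_prop) h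
  refine (h1.const_mul (Real.exp (‖y‖ ^ 2))).congr (Eventually.of_forall fun x => ?_)
  simp only [smul_eq_mul]
  rw [ENNReal.toReal_ofReal (Real.exp_pos _).le, ← Real.exp_add, ← Real.exp_add]
  congr 1
  rw [norm_sub_sq_real, norm_smul, inner_smul_right, Real.norm_eq_abs, abs_two]
  ring

theorem gauss_eq_lap {κ : Measure E} (y : E) :
    ∫ x, Real.exp (-‖x - y‖ ^ 2 / 4) ∂κ =
      Real.exp (-‖y‖ ^ 2 / 4) * lap (gm κ) ((1 / 2 : ℝ) • y) := by
  unfold lap
  rw [integral_gm, ← integral_const_mul]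
  refine integral_congr_ae (Eventually.of_forall fun x => ?_)
  simp only
  rw [← Real.exp_add, ← Real.exp_add]
  congr 1
  rw [norm_sub_sq_real, inner_smul_right]
  ring

/-- **Zero-one law**: two different Radon measures with a Gaussian bound have different Gaussian
integrals about almost every centre. -/
theorem gauss_ae_ne {C C' : ℝ} {κ κ' : Measure E} [IsLocallyFiniteMeasure κ]
    [IsLocallyFiniteMeasure κ'] (h : GB C κ) (h' : GB C' κ') (hne : κ ≠ κ') :
    ∀ᵐ y : E, ∫ x, Real.exp (-‖x - y‖ ^ 2 / 4) ∂κ ≠ ∫ x, Real.exp (-‖x - y‖ ^ 2 / 4) ∂κ' := by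
  have hne' : gm κ ≠ gm κ' := by
    intro he
    refine hne (fnl_injective ?_)
    funext φ
    have h1 : ∫ x, Real.exp (‖x‖ ^ 2 / 4) * φ x ∂(gm κ) =
        ∫ x, Real.exp (‖x‖ ^ 2 / 4) * φ x ∂(gm κ') := by rw [he]
    rw [integral_gm, integral_gm] at h1
    have h2 : ∀ x : E, Real.exp (-‖x‖ ^ 2 / 4) * (Real.exp (‖x‖ ^ 2 / 4) * φ x) = φ x := by
      intro x
      rw [← mul_assoc, ← Real.exp_add]
      ring_nf
      simp
    simp only [h2] at h1
    exact h1
  have h1 := lap_ae_ne (expFin_gm h) (expFin_gm h') hne'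
  have h2 : ∀ᵐ y : E, lap (gm κ) ((1 / 2 : ℝ) • y) ≠ lap (gm κ') ((1 / 2 : ℝ) • y) := by
    rw [ae_iff] at h1 ⊢
    have : {y | ¬ lap (gm κ) ((1 / 2 : ℝ) • y) ≠ lap (gm κ') ((1 / 2 : ℝ) • y)} =
        (fun y => (1 / 2 : ℝ) • y) ⁻¹' {y | ¬ lap (gm κ) y ≠ lap (gm κ') y} := rfl
    rw [this, Measure.addHaar_preimage_smul _ (by norm_num : (1 / 2 : ℝ) ≠ 0), h1, mul_zero]
  filter_upwards [h2] with y hy
  rw [gauss_eq_lap, gauss_eq_lap]
  intro h3
  exact hy (mul_left_cancel₀ (Real.exp_pos _).ne' h3)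

end Vale.Agent.P218
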