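import Vale.Agent.P218.Weak

/-! Slowly varying families of Radon measures and the structure of their limit sets. -/

set_option linter.unusedSectionVars false
set_option linter.unusedVariables false

open MeasureTheory Set Filter Topology
open scoped ENNReal NNReal CompactlySupported Uniformity

namespace Vale.Agent.P218

variable {E : Type*} [NormedAddCommGroup E] [InnerProductSpace ℝ E] [FiniteDimensional ℝ E]
  [MeasurableSpace E] [BorelSpace E]

/-- a slowly varying family of Radon measures on `[τ₀, ∞)` -/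
structure Slow (N : ℝ → Measure E) (τ₀ : ℝ) : Prop where
  bdd : ∀ K : Set E, IsCompact K → ∃ C : ℝ≥0, ∀ τ, τ₀ ≤ τ → N τ K ≤ C
  slow : ∀ φ : E → ℝ, ContDiff ℝ 1 φ → HasCompactSupport φ → ∀ h > 0, ∀ ε > 0, ∃ T ≥ τ₀,
    ∀ τ τ', T ≤ τ → τ ≤ τ' → τ' ≤ τ + h → |∫ x, φ x ∂(N τ') - ∫ x, φ x ∂(N τ)| ≤ ε

/-- the set of limits along sequences `τ_i → ∞` -/
def limitSet (N : ℝ → Measure E) : Set (Measure E) :=
  {κ | IsLocallyFiniteMeasure κ ∧ ∃ τ : ℕ → ℝ, Tendsto τ atTop atTop ∧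
    WeakTendsto (fun i => N (τ i)) κ}

namespace Slow

variable {N : ℝ → Measure E} {τ₀ : ℝ}

theorem locFin (hN : Slow N τ₀) {τ : ℝ} (hτ : τ₀ ≤ τ) : IsLocallyFiniteMeasure (N τ) := by
  refine ⟨fun x => ?_⟩
  obtain ⟨K, hK, hxK⟩ := exists_compact_mem_nhds x
  obtain ⟨C, hC⟩ := hN.bdd K hK
  exact ⟨K, hxK, (hC τ hτ).trans_lt ENNReal.coe_lt_top⟩

/-- slow variation for merely continuous test functions -/
theorem slow' (hN : Slow N τ₀) (φ : E → ℝ) (hφc : Continuous φ) (hφs : HasCompactSupport φ)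
    {h : ℝ} (hh : 0 < h) {ε : ℝ} (hε : 0 < ε) : ∃ T ≥ τ₀,
    ∀ τ τ', T ≤ τ → τ ≤ τ' → τ' ≤ τ + h → |∫ x, φ x ∂(N τ') - ∫ x, φ x ∂(N τ)| ≤ ε := by
  obtain ⟨R, hR⟩ : ∃ R : ℝ, ∀ x, R < ‖x‖ → φ x = 0 := by
    obtain ⟨R, hR⟩ := hφs.isCompact.isBounded.subset_closedBall 0
    refine ⟨R, fun x hx => image_eq_zero_of_notMem_tsupport fun h => ?_⟩
    have := hR h
    rw [mem_closedBall_zero_iff] at this
    linarith
  obtain ⟨C, hC⟩ := hN.bdd _ (isCompact_closedBall (0 : E) R)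
  set M : ℝ := ε / (3 * (C + 1)) with hM
  have hMpos : 0 < M := by positivity
  obtain ⟨g, hg1, hg2, hg3⟩ := hφc.exists_contDiff_approx 1 (ε := fun _ => M)
    continuous_const (fun _ => hMpos)
  have hgR : ∀ x, R < ‖x‖ → g x = 0 := by
    intro x hx
    by_contra hne
    exact hg3 (show x ∈ Function.support g from hne) (hR x hx)
  have hgs : HasCompactSupport g :=
    HasCompactSupport.intro (isCompact_closedBall (0 : E) R) fun x hx => hgR x (by simpa using hx)
  obtain ⟨T, hT0, hT⟩ := hN.slow g hg1 hgs h hh (ε / 3) (by positivity)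
  refine ⟨T, hT0, fun τ τ' h1 h2 h3 => ?_⟩
  have happ : ∀ τ, τ₀ ≤ τ → |∫ x, φ x ∂(N τ) - ∫ x, g x ∂(N τ)| ≤ ε / 3 := by
    intro τ hτ
    have := hN.locFin hτ
    refine (abs_integral_sub_le hφc hg1.continuous hR hgR (fun x _ => ?_) hMpos.le
      (hC τ hτ)).trans ?_
    · rw [abs_sub_comm]
      have := hg2 x
      rw [Real.dist_eq] at this
      exact this.le
    · rw [hM, div_mul_eq_mul_div, div_le_div_iff₀ (by positivity) (by positivity)]
      nlinarith [C.coe_nonneg]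
  have a1 := happ τ (hT0.trans h1)
  have a2 := happ τ' (hT0.trans (h1.trans h2))
  have a3 := hT τ τ' h1 h2 h3
  have : ∫ x, φ x ∂(N τ') - ∫ x, φ x ∂(N τ) =
      (∫ x, φ x ∂(N τ') - ∫ x, g x ∂(N τ')) + (∫ x, g x ∂(N τ') - ∫ x, g x ∂(N τ))
        - (∫ x, φ x ∂(N τ) - ∫ x, g x ∂(N τ)) := by ring
  rw [this]
  refine (abs_sub _ _).trans ?_
  have := abs_add_le (∫ x, φ x ∂(N τ') - ∫ x, g x ∂(N τ')) (∫ x, g x ∂(N τ') - ∫ x, g x ∂(N τ))
  linarith

/-- moving the parameters by a bounded amount does not change the limit -/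
theorem weakTendsto_shift (hN : Slow N τ₀) {τ σ : ℕ → ℝ} (hτ : Tendsto τ atTop atTop) {h : ℝ}
    (hh : 0 < h) (hσ : ∀ᶠ i in atTop, |σ i - τ i| ≤ h) {κ : Measure E}
    (hκ : WeakTendsto (fun i => N (τ i)) κ) : WeakTendsto (fun i => N (σ i)) κ := by
  intro φ hφc hφs
  refine tendsto_of_approx fun ε hε => ?_
  obtain ⟨T, hT0, hT⟩ := hN.slow' φ hφc hφs hh hε
  refine ⟨fun i => ∫ x, φ x ∂(N (τ i)), ∫ x, φ x ∂κ, hκ φ hφc hφs, ?_, by simpa using hε.le⟩
  filter_upwards [hσ, hτ.eventually_ge_atTop (T + h)] with i h1 h2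
  rw [abs_le] at h1
  rcases le_total (τ i) (σ i) with h3 | h3
  · exact hT _ _ (by linarith) h3 (by linarith)
  · rw [abs_sub_comm]
    exact hT _ _ (by linarith) h3 (by linarith)

theorem locBdd (hN : Slow N τ₀) {τ : ℕ → ℝ} (h : ∀ i, τ₀ ≤ τ i) : LocBdd fun i => N (τ i) := by
  intro K hK
  obtain ⟨C, hC⟩ := hN.bdd K hK
  exact ⟨C, fun i => hC _ (h i)⟩

/-- the functionals of the limit set are the cluster points of a sequence -/
theorem image_limitSet (hN : Slow N τ₀) :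
    fnl '' limitSet N = {ℓ | MapClusterPt ℓ atTop (fun n : ℕ => fnl (N (τ₀ + n)))} := by
  have hb : LocBdd fun n : ℕ => N (τ₀ + n) := hN.locBdd fun n => by
    have : (0 : ℝ) ≤ n := n.cast_nonneg
    linarith
  ext ℓ
  constructor
  · rintro ⟨κ, ⟨hκ, τ, hτ, hτκ⟩, rfl⟩
    have hn : Tendsto (fun i => ⌊τ i - τ₀⌋₊) atTop atTop :=
      tendsto_nat_floor_atTop.comp (tendsto_atTop_add_const_right _ _ hτ)
    have h1 : WeakTendsto (fun i => N (τ₀ + (⌊τ i - τ₀⌋₊ : ℕ))) κ := by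
      refine hN.weakTendsto_shift hτ one_pos ?_ hτκ
      filter_upwards [hτ.eventually_ge_atTop τ₀] with i hi
      have h2 := Nat.floor_le (sub_nonneg.2 hi)
      have h3 := Nat.lt_floor_add_one (τ i - τ₀)
      rw [abs_le]
      constructor <;> linarith
    rw [weakTendsto_iff] at h1
    exact MapClusterPt.of_comp (φ := fun i => ⌊τ i - τ₀⌋₊) hn h1.mapClusterPt
  · intro hℓ
    obtain ⟨ν, hν, rfl⟩ := exists_measure_of_cluster hb hℓ
    obtain ⟨ψ, hψ, hψt⟩ := hb.exists_subseq_of_cluster hℓ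
    refine ⟨ν, ⟨hν, fun n => τ₀ + (ψ n : ℝ), ?_, hψt⟩, rfl⟩
    exact tendsto_atTop_add_const_left _ _
      (tendsto_natCast_atTop_atTop.comp hψ.tendsto_atTop)

/-- existence of subsequential limits -/
theorem exists_subseq (hN : Slow N τ₀) {τ : ℕ → ℝ} (hτ : Tendsto τ atTop atTop) :
    ∃ (κ : Measure E) (ψ : ℕ → ℕ), IsLocallyFiniteMeasure κ ∧ StrictMono ψ ∧
      WeakTendsto (fun n => N (τ (ψ n))) κ := by
  obtain ⟨n₀, hn₀⟩ := eventually_atTop.1 (hτ.eventually_ge_atTop τ₀)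
  have hb : LocBdd fun n : ℕ => N (τ (n₀ + n)) := hN.locBdd fun n => hn₀ _ (by omega)
  choose B hB using hb.fnl_bdd
  obtain ⟨ℓ, hℓ⟩ := cluster_nonempty (isCompact_univ_pi fun φ => isCompact_Icc (a := -B φ) (b := B φ))
    (fun n : ℕ => fnl (N (τ (n₀ + n)))) (fun n φ _ => abs_le.1 (hB φ n))
  obtain ⟨ν, hν, rfl⟩ := exists_measure_of_cluster hb hℓ
  obtain ⟨ψ, hψ, hψt⟩ := hb.exists_subseq_of_cluster hℓ
  exact ⟨ν, fun n => n₀ + ψ n, hν, fun a b hab => Nat.add_lt_add_left (hψ hab) _, hψt⟩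

theorem nonempty_limitSet (hN : Slow N τ₀) : (limitSet N).Nonempty := by
  obtain ⟨κ, ψ, hκ, hψ, h⟩ := hN.exists_subseq (τ := fun n : ℕ => (n : ℝ))
    tendsto_natCast_atTop_atTop
  exact ⟨κ, hκ, _, tendsto_natCast_atTop_atTop.comp hψ.tendsto_atTop, h⟩

theorem isCompact_image (hN : Slow N τ₀) : IsCompact (fnl '' limitSet N) := by
  have hb : LocBdd fun n : ℕ => N (τ₀ + n) := hN.locBdd fun n => by
    have : (0 : ℝ) ≤ n := n.cast_nonneg
    linarith
  choose B hB using hb.fnl_bdd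
  rw [hN.image_limitSet]
  exact isCompact_cluster (isCompact_univ_pi fun φ => isCompact_Icc (a := -B φ) (b := B φ)) _
    (fun n φ _ => abs_le.1 (hB φ n))

theorem isPreconnected_image (hN : Slow N τ₀) : IsPreconnected (fnl '' limitSet N) := by
  have hb : LocBdd fun n : ℕ => N (τ₀ + n) := hN.locBdd fun n => by
    have : (0 : ℝ) ≤ n := n.cast_nonneg
    linarith
  choose B hB using hb.fnl_bdd
  rw [hN.image_limitSet]
  refine isPreconnected_cluster (isCompact_univ_pi fun φ => isCompact_Icc (a := -B φ) (b := B φ)) _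
    (fun n φ _ => abs_le.1 (hB φ n)) ?_
  rw [Pi.uniformity, tendsto_iInf]
  intro φ
  rw [tendsto_comap_iff, tendsto_uniformity_iff_dist_tendsto_zero, Metric.tendsto_nhds]
  intro ε hε
  obtain ⟨T, hT0, hT⟩ := hN.slow' φ φ.continuous φ.hasCompactSupport one_pos (half_pos hε)
  obtain ⟨n₀, hn₀⟩ := exists_nat_ge (T - τ₀)
  filter_upwards [eventually_ge_atTop n₀] with n hn
  have h1 : (n₀ : ℝ) ≤ n := by exact_mod_cast hn
  have := hT (τ₀ + n) (τ₀ + (n + 1 : ℕ)) (by linarith) (by push_cast; linarith)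
    (by push_cast; linarith)
  simp only [Function.comp, dist_zero_right, Real.norm_eq_abs, abs_dist]
  rw [dist_comm, Real.dist_eq]
  exact lt_of_le_of_lt this (by linarith)

theorem isCompact_limitSet (hN : Slow N τ₀) : @IsCompact _ (weakTopology E) (limitSet N) := by
  let _ := weakTopology E
  have hind : Topology.IsInducing (fnl : Measure E → C_c(E, ℝ) → ℝ) := ⟨rfl⟩
  exact hind.isCompact_iff.2 hN.isCompact_image

theorem isConnected_limitSet (hN : Slow N τ₀) : @IsConnected _ (weakTopology E) (limitSet N) := by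
  let _ := weakTopology E
  have hind : Topology.IsInducing (fnl : Measure E → C_c(E, ℝ) → ℝ) := ⟨rfl⟩
  exact ⟨hN.nonempty_limitSet, hind.isPreconnected_image.1 hN.isPreconnected_image⟩

/-- a countable limit set consists of one measure -/
theorem subsingleton_of_countable (hN : Slow N τ₀) (hc : (limitSet N).Countable) :
    (limitSet N).Subsingleton := by
  intro κ hκ κ' hκ'
  have := hκ.1
  have := hκ'.1
  refine fnl_injective ?_
  funext φ
  have h1 : IsPreconnected ((fun ℓ : C_c(E, ℝ) → ℝ => ℓ φ) '' (fnl '' limitSet N)) :=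
    hN.isPreconnected_image.image _ (continuous_apply φ).continuousOn
  have h2 : ((fun ℓ : C_c(E, ℝ) → ℝ => ℓ φ) '' (fnl '' limitSet N)).Countable :=
    (hc.image _).image _
  have ha : fnl κ φ ∈ (fun ℓ : C_c(E, ℝ) → ℝ => ℓ φ) '' (fnl '' limitSet N) :=
    ⟨_, ⟨κ, hκ, rfl⟩, rfl⟩
  have hb : fnl κ' φ ∈ (fun ℓ : C_c(E, ℝ) → ℝ => ℓ φ) '' (fnl '' limitSet N) :=
    ⟨_, ⟨κ', hκ', rfl⟩, rfl⟩
  have key : ∀ a b : ℝ, a ∈ (fun ℓ : C_c(E, ℝ) → ℝ => ℓ φ) '' (fnl '' limitSet N) →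
      b ∈ (fun ℓ : C_c(E, ℝ) → ℝ => ℓ φ) '' (fnl '' limitSet N) → ¬ a < b := by
    intro a b ha hb hab
    have h3 : (Icc a b).Countable := h2.mono (h1.Icc_subset ha hb)
    have h4 := h3.measure_zero volume
    rw [Real.volume_Icc, ENNReal.ofReal_eq_zero] at h4
    linarith
  exact le_antisymm (not_lt.1 (key _ _ hb ha)) (not_lt.1 (key _ _ ha hb))

/-- a limit set with at least two elements has at least the cardinality of the continuum -/
theorem continuum_le (hN : Slow N τ₀) (hs : ¬ (limitSet N).Subsingleton) :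
    Cardinal.continuum ≤ Cardinal.mk (limitSet N) := by
  rw [Set.not_subsingleton_iff] at hs
  obtain ⟨κ, hκ, κ', hκ', hne⟩ := hs
  have := hκ.1
  have := hκ'.1
  obtain ⟨φ, hφ⟩ : ∃ φ, fnl κ φ ≠ fnl κ' φ := by
    by_contra hcon
    push Not at hcon
    exact hne (fnl_injective (funext hcon))
  set S : Set ℝ := (fun κ : Measure E => fnl κ φ) '' limitSet N with hS
  have h1 : IsPreconnected S := by
    have := hN.isPreconnected_image.image (fun ℓ : C_c(E, ℝ) → ℝ => ℓ φ)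
      (continuous_apply φ).continuousOn
    rwa [image_image] at this
  have key : ∀ a b : ℝ, a ∈ S → b ∈ S → a < b → Cardinal.continuum ≤ Cardinal.mk S := by
    intro a b ha hb hab
    have h3 : Icc a b ⊆ S := h1.Icc_subset ha hb
    rw [← Cardinal.mk_Icc_real hab]
    exact Cardinal.mk_le_mk_of_subset h3
  have h4 : Cardinal.continuum ≤ Cardinal.mk S := by
    rcases lt_or_gt_of_ne hφ with h | h
    · exact key _ _ ⟨_, hκ, rfl⟩ ⟨_, hκ', rfl⟩ h
    · exact key _ _ ⟨_, hκ', rfl⟩ ⟨_, hκ, rfl⟩ h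
  have h5 := Cardinal.mk_image_le_lift (f := fun κ : Measure E => fnl κ φ) (s := limitSet N)
  have h6 := (Cardinal.lift_le.2 h4).trans h5
  rw [Cardinal.lift_continuum, Cardinal.lift_id'] at h6
  exact h6

/-- if all integrals converge then the limit set is a single measure -/
theorem subsingleton_of_tendsto (hN : Slow N τ₀)
    (h : ∀ φ : E → ℝ, ContDiff ℝ 1 φ → HasCompactSupport φ →
      ∃ l, Tendsto (fun τ => ∫ x, φ x ∂(N τ)) atTop (𝓝 l)) :
    (limitSet N).Subsingleton := by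
  intro κ ⟨hκ, τ, hτ, hτκ⟩ κ' ⟨hκ', τ', hτ', hτκ'⟩
  refine fnl_injective ?_
  have h1 : ∀ g : E → ℝ, ContDiff ℝ 1 g → HasCompactSupport g → ∫ x, g x ∂κ = ∫ x, g x ∂κ' := by
    intro g hg hgs
    obtain ⟨l, hl⟩ := h g hg hgs
    have h2 := tendsto_nhds_unique (hτκ g hg.continuous hgs) (hl.comp hτ)
    have h3 := tendsto_nhds_unique (hτκ' g hg.continuous hgs) (hl.comp hτ')
    rw [h2, h3]
  funext φ
  obtain ⟨R, hR⟩ : ∃ R : ℝ, ∀ x, R < ‖x‖ → φ x = 0 := by
    obtain ⟨R, hR⟩ := φ.hasCompactSupport.isCompact.isBounded.subset_closedBall 0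
    refine ⟨R, fun x hx => image_eq_zero_of_notMem_tsupport fun h => ?_⟩
    have := hR h
    rw [mem_closedBall_zero_iff] at this
    linarith
  obtain ⟨C, hC⟩ : ∃ C : ℝ≥0, κ (Metric.closedBall 0 R) ≤ C :=
    ⟨(κ (Metric.closedBall 0 R)).toNNReal,
      (ENNReal.coe_toNNReal (isCompact_closedBall (0 : E) R).measure_lt_top.ne).ge⟩
  obtain ⟨C', hC'⟩ : ∃ C : ℝ≥0, κ' (Metric.closedBall 0 R) ≤ C :=
    ⟨(κ' (Metric.closedBall 0 R)).toNNReal,
      (ENNReal.coe_toNNReal (isCompact_closedBall (0 : E) R).measure_lt_top.ne).ge⟩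
  refine eq_of_forall_dist_le fun ε hε => ?_
  set M : ℝ := ε / (C + C' + 1) with hM
  have hMpos : 0 < M := by positivity
  obtain ⟨g, hg1, hg2, hg3⟩ := φ.continuous.exists_contDiff_approx 1 (ε := fun _ => M)
    continuous_const (fun _ => hMpos)
  have hgR : ∀ x, R < ‖x‖ → g x = 0 := by
    intro x hx
    by_contra hne
    exact hg3 (show x ∈ Function.support g from hne) (hR x hx)
  have hgs : HasCompactSupport g :=
    HasCompactSupport.intro (isCompact_closedBall (0 : E) R) fun x hx => hgR x (by simpa using hx)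
  have happ : ∀ x, ‖x‖ ≤ R → |φ x - g x| ≤ M := fun x _ => by
    rw [abs_sub_comm]
    have := hg2 x
    rw [Real.dist_eq] at this
    exact this.le
  have hφc : Continuous (fun x => φ x) := φ.continuous
  have e1 := abs_integral_sub_le hφc hg1.continuous hR hgR happ hMpos.le hC
  have e2 := abs_integral_sub_le hφc hg1.continuous hR hgR happ hMpos.le hC'
  have e3 := h1 g hg1 hgs
  have e4 : M * C + M * C' ≤ ε := by
    rw [← mul_add, hM, div_mul_eq_mul_div, div_le_iff₀ (by positivity)]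
    nlinarith [C.coe_nonneg, C'.coe_nonneg]
  rw [Real.dist_eq]
  show |∫ x, φ x ∂κ - ∫ x, φ x ∂κ'| ≤ ε
  rw [abs_le] at e1 e2 ⊢
  constructor <;> linarith

end Slow

end Vale.Agent.P218
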