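import Vale.Agent.P218.GaussLim

/-! Zero-one law for the off-centre Gaussian integrals of a slowly varying family, and
preconnectedness of the set of values of a weakly continuous function on the limit set. -/

set_option linter.unusedSectionVars false
set_option linter.unusedVariables false

open MeasureTheory Set Filter Topology
open scoped ENNReal NNReal CompactlySupported Uniformity

namespace Vale.Agent.P218

variable {E : Type*} [NormedAddCommGroup E] [InnerProductSpace ℝ E] [FiniteDimensional ℝ E]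
  [MeasurableSpace E] [BorelSpace E]

/-- the Gaussian integral about `y` -/
noncomputable def gi (κ : Measure E) (y : E) : ℝ := ∫ x, Real.exp (-‖x - y‖ ^ 2 / 4) ∂κ

/-- `h` is sequentially continuous for weak convergence with a Gaussian bound -/
def WeakCont (C : ℝ) (h : Measure E → ℝ) : Prop :=
  ∀ (u : ℕ → Measure E) (κ : Measure E), IsLocallyFiniteMeasure κ →
    (∀ᶠ i in atTop, IsLocallyFiniteMeasure (u i)) → (∀ᶠ i in atTop, GB C (u i)) →
    WeakTendsto u κ → Tendsto (fun i => h (u i)) atTop (𝓝 (h κ))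

theorem weakCont_gi (C : ℝ) (y : E) : WeakCont C fun κ => gi κ y := by
  intro u κ hκ hul hu h
  exact (negl_gauss y).tendsto (by fun_prop) hul hu h

namespace Slow

variable {N : ℝ → Measure E} {τ₀ C : ℝ}

theorem GB_limit (hN : Slow N τ₀) (hG : ∀ τ, τ₀ ≤ τ → GB C (N τ)) {κ : Measure E}
    (hκ : κ ∈ limitSet N) : GB C κ := by
  obtain ⟨h1, τ, hτ, h2⟩ := hκ
  refine GB.of_weakTendsto ?_ h2
  filter_upwards [hτ.eventually_ge_atTop τ₀] with i hi
  exact hG _ hi

theorem tendsto_value (hN : Slow N τ₀) (hG : ∀ τ, τ₀ ≤ τ → GB C (N τ)) {h : Measure E → ℝ}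
    (hh : WeakCont C h) {τ : ℕ → ℝ} (hτ : Tendsto τ atTop atTop) {κ : Measure E}
    (hκ : IsLocallyFiniteMeasure κ) (hw : WeakTendsto (fun i => N (τ i)) κ) :
    Tendsto (fun i => h (N (τ i))) atTop (𝓝 (h κ)) := by
  refine hh _ κ hκ ?_ ?_ hw
  · filter_upwards [hτ.eventually_ge_atTop τ₀] with i hi
    exact hN.locFin hi
  · filter_upwards [hτ.eventually_ge_atTop τ₀] with i hi
    exact hG _ hi

/-- if the limit set is a single measure then every weakly continuous function converges -/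
theorem tendsto_of_subsingleton (hN : Slow N τ₀) (hG : ∀ τ, τ₀ ≤ τ → GB C (N τ))
    (hs : (limitSet N).Subsingleton) {h : Measure E → ℝ} (hh : WeakCont C h) :
    ∃ l, Tendsto (fun τ => h (N τ)) atTop (𝓝 l) := by
  obtain ⟨κ, hκ⟩ := hN.nonempty_limitSet
  refine ⟨h κ, tendsto_of_subseq_tendsto fun τ hτ => ?_⟩
  obtain ⟨κ', ψ, hκ', hψ, hw⟩ := hN.exists_subseq hτ
  have hτψ : Tendsto (fun n => τ (ψ n)) atTop atTop := hτ.comp hψ.tendsto_atTop
  have h1 : κ' ∈ limitSet N := ⟨hκ', _, hτψ, hw⟩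
  rw [hs hκ h1]
  exact ⟨ψ, hN.tendsto_value hG hh hτψ hκ' hw⟩

/-- **Zero-one law.** If the limit set is not a single measure then, for almost every centre, the
Gaussian integral has no limit. -/
theorem ae_not_tendsto (hN : Slow N τ₀) (hG : ∀ τ, τ₀ ≤ τ → GB C (N τ))
    (hs : ¬ (limitSet N).Subsingleton) :
    ∀ᵐ y : E, ¬ ∃ l, Tendsto (fun τ => gi (N τ) y) atTop (𝓝 l) := by
  rw [Set.not_subsingleton_iff] at hs
  obtain ⟨κ, hκ, κ', hκ', hne⟩ := hs
  have := hκ.1
  have := hκ'.1
  filter_upwards [gauss_ae_ne (hN.GB_limit hG hκ) (hN.GB_limit hG hκ') hne] with y hy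
  rintro ⟨l, hl⟩
  obtain ⟨h1, τ, hτ, h2⟩ := hκ
  obtain ⟨h1', τ', hτ', h2'⟩ := hκ'
  have e1 := tendsto_nhds_unique (hN.tendsto_value hG (weakCont_gi C y) hτ h1 h2) (hl.comp hτ)
  have e2 := tendsto_nhds_unique (hN.tendsto_value hG (weakCont_gi C y) hτ' h1' h2')
    (hl.comp hτ')
  exact hy (e1.trans e2.symm)

/-- weakly continuous functions are bounded along the family -/
theorem bdd_value (hN : Slow N τ₀) (hG : ∀ τ, τ₀ ≤ τ → GB C (N τ)) {h : Measure E → ℝ}
    (hh : WeakCont C h) : ∃ (n₀ : ℕ) (B : ℝ), ∀ n : ℕ, n₀ ≤ n → |h (N (τ₀ + n))| ≤ B := by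
  by_contra hcon
  push Not at hcon
  choose f hf1 hf2 using fun k : ℕ => hcon k k
  have hf : Tendsto f atTop atTop := tendsto_atTop_mono hf1 tendsto_id
  have hτ : Tendsto (fun k => τ₀ + (f k : ℝ)) atTop atTop :=
    tendsto_atTop_add_const_left _ _ (tendsto_natCast_atTop_atTop.comp hf)
  obtain ⟨κ, ψ, hκ, hψ, hw⟩ := hN.exists_subseq hτ
  have h1 := (hN.tendsto_value hG hh (hτ.comp hψ.tendsto_atTop) hκ hw).abs
  have h2 : Tendsto (fun n => |h (N (τ₀ + f (ψ n)))|) atTop atTop := by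
    refine tendsto_atTop_mono (fun n => ?_)
      (tendsto_natCast_atTop_atTop.comp hψ.tendsto_atTop : Tendsto (fun n => ((ψ n : ℕ) : ℝ)) atTop atTop)
    exact (hf2 (ψ n)).le
  exact not_tendsto_nhds_of_tendsto_atTop h2 _ h1

/-- the set of values of a weakly continuous function on the limit set is an interval -/
theorem isPreconnected_values (hN : Slow N τ₀) (hG : ∀ τ, τ₀ ≤ τ → GB C (N τ))
    {h : Measure E → ℝ} (hh : WeakCont C h) : IsPreconnected (h '' limitSet N) := by
  obtain ⟨n₀, B, hB⟩ := hN.bdd_value hG hh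
  set u : ℕ → ℝ := fun n => h (N (τ₀ + (n₀ + n : ℕ))) with hu
  have hτn : Tendsto (fun n : ℕ => τ₀ + ((n₀ + n : ℕ) : ℝ)) atTop atTop :=
    tendsto_atTop_add_const_left _ _ (tendsto_natCast_atTop_atTop.comp (tendsto_add_atTop_nat n₀ |>.congr
      fun n => by rw [add_comm]))
  have huK : ∀ n, u n ∈ Icc (-B) B := fun n => abs_le.1 (hB _ (Nat.le_add_right _ _))
  have hcl : h '' limitSet N = {v | MapClusterPt v atTop u} := by
    ext v
    constructor
    · rintro ⟨κ, ⟨hκ, τ, hτ, hw⟩, rfl⟩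
      set f : ℕ → ℕ := fun i => ⌊τ i - τ₀ - n₀⌋₊ with hf
      have hft : Tendsto f atTop atTop := by
        refine tendsto_nat_floor_atTop.comp ?_
        have := tendsto_atTop_add_const_right atTop (-τ₀ - n₀) hτ
        refine this.congr fun i => by ring
      have hw' : WeakTendsto (fun i => N (τ₀ + ((n₀ + f i : ℕ) : ℝ))) κ := by
        refine hN.weakTendsto_shift hτ one_pos ?_ hw
        filter_upwards [hτ.eventually_ge_atTop (τ₀ + n₀)] with i hi
        have h2 := Nat.floor_le (show 0 ≤ τ i - τ₀ - n₀ by linarith)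
        have h3 := Nat.lt_floor_add_one (τ i - τ₀ - n₀)
        rw [abs_le]
        push_cast
        constructor <;> linarith
      have hτf : Tendsto (fun i => τ₀ + ((n₀ + f i : ℕ) : ℝ)) atTop atTop := hτn.comp hft
      have h4 := hN.tendsto_value hG hh hτf hκ hw'
      exact MapClusterPt.of_comp (φ := f) hft h4.mapClusterPt
    · intro hv
      obtain ⟨ψ, hψ, hψt⟩ := MapClusterPt.tendsto_subseq hv
      have hτψ := hτn.comp hψ.tendsto_atTop
      obtain ⟨κ, ψ', hκ, hψ', hw⟩ := hN.exists_subseq hτψ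
      refine ⟨κ, ⟨hκ, _, hτψ.comp hψ'.tendsto_atTop, hw⟩, ?_⟩
      exact tendsto_nhds_unique (hN.tendsto_value hG hh (hτψ.comp hψ'.tendsto_atTop) hκ hw)
        (hψt.comp hψ'.tendsto_atTop)
  rw [hcl]
  refine isPreconnected_cluster isCompact_Icc u huK ?_
  rw [tendsto_uniformity_iff_dist_tendsto_zero]
  refine tendsto_of_subseq_tendsto fun ns hns => ?_
  obtain ⟨κ, ψ, hκ, hψ, hw⟩ := hN.exists_subseq (hτn.comp hns)
  refine ⟨ψ, ?_⟩
  have t1 := hN.tendsto_value hG hh ((hτn.comp hns).comp hψ.tendsto_atTop) hκ hw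
  have hτ2 : Tendsto (fun n => τ₀ + ((n₀ + (ns (ψ n) + 1) : ℕ) : ℝ)) atTop atTop := by
    refine tendsto_atTop_mono (fun n => ?_) ((hτn.comp hns).comp hψ.tendsto_atTop)
    simp only [Function.comp]
    push_cast
    linarith
  have hw2 : WeakTendsto (fun n => N (τ₀ + ((n₀ + (ns (ψ n) + 1) : ℕ) : ℝ))) κ := by
    refine hN.weakTendsto_shift ((hτn.comp hns).comp hψ.tendsto_atTop) one_pos ?_ hw
    refine Eventually.of_forall fun n => ?_
    simp only [Function.comp]
    push_cast
    rw [abs_le]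
    constructor <;> linarith
  have t2 := hN.tendsto_value hG hh hτ2 hκ hw2
  have t3 := t1.dist t2
  rw [dist_self] at t3
  exact t3

/-- a weakly continuous function taking only countably many values on the limit set is constant
there -/
theorem const_of_countable (hN : Slow N τ₀) (hG : ∀ τ, τ₀ ≤ τ → GB C (N τ))
    {h : Measure E → ℝ} (hh : WeakCont C h) (hc : (h '' limitSet N).Countable)
    {κ κ' : Measure E} (hκ : κ ∈ limitSet N) (hκ' : κ' ∈ limitSet N) : h κ = h κ' := by
  have h1 := hN.isPreconnected_values hG hh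
  have key : ∀ a b : ℝ, a ∈ h '' limitSet N → b ∈ h '' limitSet N → ¬ a < b := by
    intro a b ha hb hab
    have h3 : (Icc a b).Countable := hc.mono (h1.Icc_subset ha hb)
    have h4 := h3.measure_zero volume
    rw [Real.volume_Icc, ENNReal.ofReal_eq_zero] at h4
    linarith
  exact le_antisymm (not_lt.1 (key _ _ ⟨_, hκ', rfl⟩ ⟨_, hκ, rfl⟩))
    (not_lt.1 (key _ _ ⟨_, hκ, rfl⟩ ⟨_, hκ', rfl⟩))

end Slow

end Vale.Agent.P218
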