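import Vale.Agent.P218.Symm

/-! Closed groups of linear isometries: one-parameter subgroups as limits of powers, and rigidity
of subgroups of a closed group. -/

set_option linter.unusedSectionVars false
set_option linter.unusedVariables false

open Set Filter Topology

namespace Vale.Agent.P218

variable {E : Type*} [NormedAddCommGroup E] [InnerProductSpace ℝ E] [FiniteDimensional ℝ E]
  [MeasurableSpace E] [BorelSpace E]

theorem opr_mul (R S : E ≃ₗᵢ[ℝ] E) : opr (R * S) = opr R * opr S := rfl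

theorem opr_one : opr (1 : E ≃ₗᵢ[ℝ] E) = 1 := rfl

theorem opr_pow (R : E ≃ₗᵢ[ℝ] E) (n : ℕ) : opr (R ^ n) = opr R ^ n := by
  induction n with
  | zero => rw [pow_zero, pow_zero, opr_one]
  | succ n ih => rw [pow_succ, pow_succ, opr_mul, ih]

theorem norm_opr_le (R : E ≃ₗᵢ[ℝ] E) : ‖opr R‖ ≤ 1 :=
  ContinuousLinearMap.opNorm_le_bound _ zero_le_one fun x => by
    rw [opr_apply, R.norm_map, one_mul]

theorem opr_inv_mul (R : E ≃ₗᵢ[ℝ] E) : opr R⁻¹ * opr R = 1 := by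
  rw [← opr_mul, inv_mul_cancel, opr_one]

theorem opr_mul_inv (R : E ≃ₗᵢ[ℝ] E) : opr R * opr R⁻¹ = 1 := by
  rw [← opr_mul, mul_inv_cancel, opr_one]

theorem norm_opr_inv_sub_one_le (R : E ≃ₗᵢ[ℝ] E) : ‖opr R⁻¹ - 1‖ ≤ ‖opr R - 1‖ := by
  have h : opr R⁻¹ - 1 = opr R⁻¹ * (1 - opr R) := by
    rw [mul_sub, mul_one, opr_inv_mul]
  rw [h]
  calc ‖opr R⁻¹ * (1 - opr R)‖ ≤ ‖opr R⁻¹‖ * ‖1 - opr R‖ := norm_mul_le _ _
    _ ≤ 1 * ‖1 - opr R‖ := by gcongr; exact norm_opr_le _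
    _ = ‖opr R - 1‖ := by rw [one_mul, norm_sub_rev]

/-- the isometries of a closed group form a compact set of operators -/
theorem isCompact_opr {K : Subgroup (E ≃ₗᵢ[ℝ] E)} (hK : IsClosedGroup K) :
    IsCompact (opr '' (K : Set (E ≃ₗᵢ[ℝ] E))) := by
  have : ProperSpace (E →L[ℝ] E) := FiniteDimensional.proper ℝ _
  refine Metric.isCompact_of_isClosed_isBounded ?_ ?_
  · refine IsSeqClosed.isClosed ?_
    intro u A hu hA
    choose R hRK hR using hu
    obtain ⟨S, ψ, hψ, hS⟩ := exists_subseq_iso R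
    refine ⟨S, hK _ S (fun n => hRK (ψ n)) hS, ?_⟩
    ext x
    have h1 : Tendsto (fun n => u n x) atTop (𝓝 (A x)) :=
      ((ContinuousLinearMap.apply ℝ E x).continuous.tendsto A).comp hA
    refine tendsto_nhds_unique (hS x) ?_
    refine (h1.comp hψ.tendsto_atTop).congr fun n => ?_
    simp only [Function.comp, ← hR, opr_apply]
  · refine (Metric.isBounded_closedBall (x := (0 : E →L[ℝ] E)) (r := 1)).subset ?_
    rintro _ ⟨R, _, rfl⟩
    rw [mem_closedBall_zero_iff]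
    exact norm_opr_le R

theorem norm_pow_sub_pow_le {A B : E →L[ℝ] E} (hA : ‖A‖ ≤ 1) (hB : ‖B‖ ≤ 1) (n : ℕ) :
    ‖A ^ n - B ^ n‖ ≤ n * ‖A - B‖ := by
  have hpow : ∀ n : ℕ, ∀ X : E →L[ℝ] E, ‖A ^ n * X‖ ≤ ‖X‖ := by
    intro n X
    induction n with
    | zero => simp
    | succ n ih =>
      rw [pow_succ', mul_assoc]
      calc ‖A * (A ^ n * X)‖ ≤ ‖A‖ * ‖A ^ n * X‖ := norm_mul_le _ _
        _ ≤ 1 * ‖A ^ n * X‖ := by gcongr
        _ ≤ ‖X‖ := by rw [one_mul]; exact ih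
  induction n with
  | zero => simp
  | succ n ih =>
    have h : A ^ (n + 1) - B ^ (n + 1) = A ^ n * (A - B) + (A ^ n - B ^ n) * B := by
      rw [pow_succ, pow_succ]; noncomm_ring
    rw [h]
    calc ‖A ^ n * (A - B) + (A ^ n - B ^ n) * B‖
        ≤ ‖A ^ n * (A - B)‖ + ‖(A ^ n - B ^ n) * B‖ := norm_add_le _ _
      _ ≤ ‖A - B‖ + ‖A ^ n - B ^ n‖ * ‖B‖ := add_le_add (hpow n _) (norm_mul_le _ _)
      _ ≤ ‖A - B‖ + ‖A ^ n - B ^ n‖ * 1 := by gcongr
      _ ≤ ‖A - B‖ + (n * ‖A - B‖) * 1 := by gcongr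
      _ = ((n + 1 : ℕ) : ℝ) * ‖A - B‖ := by push_cast; ring

section star

variable [CompleteSpace E]

theorem star_opr_mul (R : E ≃ₗᵢ[ℝ] E) : star (opr R) * opr R = 1 :=
  (opr R).norm_map_iff_adjoint_comp_self.mp fun x => R.norm_map x

/-- limits of difference quotients at the identity are skew -/
theorem skew_of_limit {s : ℕ → E ≃ₗᵢ[ℝ] E} {ε : ℕ → ℝ} (hε : ∀ j, 0 < ε j)
    (hε0 : Tendsto ε atTop (𝓝 0)) {c : E →L[ℝ] E}
    (hc : Tendsto (fun j => (ε j)⁻¹ • (opr (s j) - 1)) atTop (𝓝 c)) :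
    c ∈ skewAdjoint (E →L[ℝ] E) := by
  rw [skewAdjoint.mem_iff]
  have key : ∀ j, star ((ε j)⁻¹ • (opr (s j) - 1)) + (ε j)⁻¹ • (opr (s j) - 1)
      = -(ε j • (star ((ε j)⁻¹ • (opr (s j) - 1)) * ((ε j)⁻¹ • (opr (s j) - 1)))) := by
    intro j
    have h1 := star_opr_mul (s j)
    have h2 : star (opr (s j) - 1) + (opr (s j) - 1)
        = -(star (opr (s j) - 1) * (opr (s j) - 1)) := by
      rw [star_sub, star_one, sub_mul, mul_sub, mul_sub, h1]
      simp only [one_mul, mul_one]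
      abel
    have h3 : (ε j) ≠ 0 := (hε j).ne'
    rw [star_smul, star_trivial, ← smul_add, h2, smul_mul_smul_comm, smul_smul, smul_neg]
    congr 2
    field_simp
  have hs : Tendsto (fun j => star ((ε j)⁻¹ • (opr (s j) - 1))) atTop (𝓝 (star c)) :=
    hc.star
  have h1 := hs.add hc
  have h2 := (hε0.smul (hs.mul hc)).neg
  have h3 := tendsto_nhds_unique h1 (h2.congr fun j => (key j).symm)
  rw [zero_smul, neg_zero] at h3
  exact eq_neg_of_add_eq_zero_left h3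

theorem exp_skew {c : E →L[ℝ] E} (hc : c ∈ skewAdjoint (E →L[ℝ] E)) :
    ∃ R : E ≃ₗᵢ[ℝ] E, opr R = NormedSpace.exp c := by
  let _ : NormedAlgebra ℚ (E →L[ℝ] E) := NormedAlgebra.restrictScalars ℚ ℝ (E →L[ℝ] E)
  have h := NormedSpace.exp_mem_unitary_of_mem_skewAdjoint hc
  exact ⟨Unitary.linearIsometryEquiv ⟨_, h⟩, rfl⟩

theorem tendsto_slope_exp (c : E →L[ℝ] E) {ε : ℕ → ℝ} (hε : ∀ j, 0 < ε j)
    (hε0 : Tendsto ε atTop (𝓝 0)) :
    Tendsto (fun j => (ε j)⁻¹ • (NormedSpace.exp (ε j • c) - 1)) atTop (𝓝 c) := by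
  have h1 : HasDerivAt (fun u : ℝ => NormedSpace.exp (u • c)) c 0 := by
    simpa using hasDerivAt_exp_smul_const c (0 : ℝ)
  have h2 := h1.tendsto_slope_zero
  simp only [zero_add, zero_smul, NormedSpace.exp_zero] at h2
  refine h2.comp ?_
  rw [tendsto_nhdsWithin_iff]
  exact ⟨hε0, Eventually.of_forall fun j => (hε j).ne'⟩

theorem continuous_exp_op : Continuous (NormedSpace.exp : (E →L[ℝ] E) → (E →L[ℝ] E)) := by
  let _ : NormedAlgebra ℚ (E →L[ℝ] E) := NormedAlgebra.restrictScalars ℚ ℝ (E →L[ℝ] E)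
  exact NormedSpace.exp_continuous

theorem exp_nsmul_op (n : ℕ) (c : E →L[ℝ] E) :
    NormedSpace.exp (n • c) = NormedSpace.exp c ^ n := by
  let _ : NormedAlgebra ℚ (E →L[ℝ] E) := NormedAlgebra.restrictScalars ℚ ℝ (E →L[ℝ] E)
  exact NormedSpace.exp_nsmul n c

theorem exp_neg_mul_exp (c : E →L[ℝ] E) : NormedSpace.exp (-c) * NormedSpace.exp c = 1 := by
  let _ : NormedAlgebra ℚ (E →L[ℝ] E) := NormedAlgebra.restrictScalars ℚ ℝ (E →L[ℝ] E)
  rw [← NormedSpace.exp_add_of_commute (Commute.refl c).neg_left, neg_add_cancel,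
    NormedSpace.exp_zero]

/-- the one-parameter subgroup in a limiting direction lies in the closed group: nonnegative
times -/
theorem exp_mem_of_limit_nonneg {K : Subgroup (E ≃ₗᵢ[ℝ] E)} (hK : IsClosedGroup K)
    {s : ℕ → E ≃ₗᵢ[ℝ] E} (hs : ∀ j, s j ∈ K) {ε : ℕ → ℝ} (hε : ∀ j, 0 < ε j)
    (hε0 : Tendsto ε atTop (𝓝 0)) {c : E →L[ℝ] E}
    (hc : Tendsto (fun j => (ε j)⁻¹ • (opr (s j) - 1)) atTop (𝓝 c)) {t : ℝ} (ht : 0 ≤ t) :
    NormedSpace.exp (t • c) ∈ opr '' (K : Set (E ≃ₗᵢ[ℝ] E)) := by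
  have hskew := skew_of_limit hε hε0 hc
  set n : ℕ → ℕ := fun j => ⌊t / ε j⌋₊ with hn
  have hn1 : ∀ j, (n j : ℝ) * ε j ≤ t := fun j => by
    have := Nat.floor_le (div_nonneg ht (hε j).le)
    rwa [le_div_iff₀ (hε j)] at this
  have hn2 : ∀ j, t - ε j ≤ (n j : ℝ) * ε j := fun j => by
    have := (Nat.lt_floor_add_one (t / ε j)).le
    rw [div_le_iff₀ (hε j)] at this
    have h2 : ((⌊t / ε j⌋₊ : ℝ) + 1) * ε j = (n j : ℝ) * ε j + ε j := by rw [hn]; ring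
    linarith
  have hlim : Tendsto (fun j => (n j : ℝ) * ε j) atTop (𝓝 t) := by
    refine tendsto_of_tendsto_of_tendsto_of_le_of_le ?_ tendsto_const_nhds hn2 hn1
    simpa using (tendsto_const_nhds (x := t)).sub hε0
  have hB : Tendsto (fun j => NormedSpace.exp (ε j • c) ^ n j) atTop (𝓝 (NormedSpace.exp (t • c))) := by
    have h1 : Tendsto (fun j => NormedSpace.exp (((n j : ℝ) * ε j) • c)) atTop
        (𝓝 (NormedSpace.exp (t • c))) :=
      (continuous_exp_op.tendsto _).comp (hlim.smul_const c)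
    refine h1.congr fun j => ?_
    rw [← exp_nsmul_op, mul_smul, Nat.cast_smul_eq_nsmul]
  have hdiff : Tendsto (fun j => opr (s j) ^ n j - NormedSpace.exp (ε j • c) ^ n j) atTop
      (𝓝 0) := by
    have h1 := hc.sub (tendsto_slope_exp c hε hε0)
    rw [sub_self] at h1
    have h2 := hlim.mul h1.norm
    rw [norm_zero, mul_zero] at h2
    refine squeeze_zero_norm (fun j => ?_) h2
    have hBn : ‖NormedSpace.exp (ε j • c)‖ ≤ 1 := by
      obtain ⟨R, hR⟩ := exp_skew (skewAdjoint.smul_mem (ε j) hskew)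
      rw [← hR]
      exact norm_opr_le R
    refine (norm_pow_sub_pow_le (norm_opr_le _) hBn _).trans (le_of_eq ?_)
    rw [← smul_sub, sub_sub_sub_cancel_right, norm_smul, Real.norm_eq_abs,
      abs_of_pos (inv_pos.2 (hε j)), mul_assoc, mul_inv_cancel_left₀ (hε j).ne']
  have hA : Tendsto (fun j => opr (s j ^ n j)) atTop (𝓝 (NormedSpace.exp (t • c))) := by
    have := hdiff.add hB
    rw [zero_add] at this
    refine this.congr fun j => ?_
    rw [sub_add_cancel, opr_pow]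
  refine (isCompact_opr hK).isClosed.mem_of_tendsto hA (Eventually.of_forall fun j => ?_)
  exact ⟨_, pow_mem (hs j) _, rfl⟩

theorem exp_neg_mem {K : Subgroup (E ≃ₗᵢ[ℝ] E)} {c : E →L[ℝ] E}
    (h : NormedSpace.exp c ∈ opr '' (K : Set (E ≃ₗᵢ[ℝ] E))) :
    NormedSpace.exp (-c) ∈ opr '' (K : Set (E ≃ₗᵢ[ℝ] E)) := by
  obtain ⟨R, hR, hRc⟩ := h
  refine ⟨R⁻¹, inv_mem hR, ?_⟩
  have h1 := exp_neg_mul_exp c
  rw [← hRc] at h1
  have h2 := congrArg (fun X => X * opr R⁻¹) h1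
  simp only [mul_assoc, opr_mul_inv, mul_one, one_mul] at h2
  exact h2.symm

/-- the one-parameter subgroup in a limiting direction lies in the closed group -/
theorem exp_mem_of_limit {K : Subgroup (E ≃ₗᵢ[ℝ] E)} (hK : IsClosedGroup K)
    {s : ℕ → E ≃ₗᵢ[ℝ] E} (hs : ∀ j, s j ∈ K) {ε : ℕ → ℝ} (hε : ∀ j, 0 < ε j)
    (hε0 : Tendsto ε atTop (𝓝 0)) {c : E →L[ℝ] E}
    (hc : Tendsto (fun j => (ε j)⁻¹ • (opr (s j) - 1)) atTop (𝓝 c)) (t : ℝ) :
    NormedSpace.exp (t • c) ∈ opr '' (K : Set (E ≃ₗᵢ[ℝ] E)) := by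
  rcases le_total 0 t with ht | ht
  · exact exp_mem_of_limit_nonneg hK hs hε hε0 hc ht
  · have h := exp_mem_of_limit_nonneg hK hs hε hε0 hc (t := -t) (by linarith)
    have h1 := exp_neg_mem h
    rwa [← neg_smul, neg_neg] at h1

end star

end Vale.Agent.P218
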