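import Vale.Agent.P218.Lie

/-! Rigidity: if `Γ ⊆ S` with `S` a closed group of linear isometries, then every `R` near `1` with
`R⁻¹ Γ R ⊆ S` is a product `z s` with `z` in the centraliser of `Γ` and `s ∈ S`. -/

set_option linter.unusedSectionVars false
set_option linter.unusedVariables false

open Set Filter Topology

namespace Vale.Agent.P218

variable {E : Type*} [NormedAddCommGroup E] [InnerProductSpace ℝ E] [FiniteDimensional ℝ E]
  [MeasurableSpace E] [BorelSpace E]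

/-- the trace of an operator -/
noncomputable def tr : (E →L[ℝ] E) →L[ℝ] ℝ :=
  LinearMap.toContinuousLinearMap ((LinearMap.trace ℝ E) ∘ₗ (ContinuousLinearMap.coeLM ℝ))

theorem tr_apply (A : E →L[ℝ] E) : tr A = LinearMap.trace ℝ E (A : E →ₗ[ℝ] E) := rfl

theorem tr_mul_comm (A B : E →L[ℝ] E) : tr (A * B) = tr (B * A) := by
  rw [tr_apply, tr_apply]
  exact LinearMap.trace_mul_comm ℝ (A : E →ₗ[ℝ] E) (B : E →ₗ[ℝ] E)

theorem tr_eq_sum (A : E →L[ℝ] E) :
    tr A = ∑ i, inner ℝ (stdOrthonormalBasis ℝ E i) (A (stdOrthonormalBasis ℝ E i)) := by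
  rw [tr_apply]
  exact LinearMap.trace_eq_sum_inner _ _

theorem norm_le_sum (A : E →L[ℝ] E) : ‖A‖ ≤ ∑ i, ‖A (stdOrthonormalBasis ℝ E i)‖ := by
  refine ContinuousLinearMap.opNorm_le_bound _ (Finset.sum_nonneg fun i _ => norm_nonneg _)
    fun x => ?_
  set b := stdOrthonormalBasis ℝ E
  calc ‖A x‖ = ‖A (∑ i, b.repr x i • b i)‖ := by rw [b.sum_repr]
    _ = ‖∑ i, b.repr x i • A (b i)‖ := by rw [map_sum]; simp only [map_smul]
    _ ≤ ∑ i, ‖b.repr x i • A (b i)‖ := norm_sum_le _ _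
    _ ≤ ∑ i, ‖A (b i)‖ * ‖x‖ := by
        refine Finset.sum_le_sum fun i _ => ?_
        rw [norm_smul, mul_comm]
        gcongr
        rw [b.repr_apply_apply]
        calc ‖inner ℝ (b i) x‖ ≤ ‖b i‖ * ‖x‖ := norm_inner_le_norm _ _
          _ = ‖x‖ := by rw [b.orthonormal.1 i, one_mul]
    _ = (∑ i, ‖A (b i)‖) * ‖x‖ := by rw [Finset.sum_mul]

/-- the Hilbert-Schmidt distance of an isometry to the identity in terms of the trace -/
theorem sum_sq_sub (R : E ≃ₗᵢ[ℝ] E) :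
    ∑ i, ‖(opr R - 1) (stdOrthonormalBasis ℝ E i)‖ ^ 2
      = 2 * (Module.finrank ℝ E : ℝ) - 2 * tr (opr R) := by
  set b := stdOrthonormalBasis ℝ E
  rw [tr_eq_sum, Finset.mul_sum]
  have h1 : (Module.finrank ℝ E : ℝ) = ∑ i : Fin (Module.finrank ℝ E), (1 : ℝ) := by simp
  rw [h1, Finset.mul_sum, ← Finset.sum_sub_distrib]
  refine Finset.sum_congr rfl fun i _ => ?_
  have h2 : (opr R - 1) (b i) = R (b i) - b i := rfl
  rw [h2, norm_sub_sq_real, R.norm_map, b.orthonormal.1 i, real_inner_comm, opr_apply]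
  ring

theorem norm_opr_sub_one_le (R : E ≃ₗᵢ[ℝ] E) :
    ‖opr R - 1‖ ≤ (Module.finrank ℝ E : ℝ) *
      √(2 * (Module.finrank ℝ E : ℝ) - 2 * tr (opr R)) := by
  refine (norm_le_sum _).trans ?_
  have h : ∀ i, ‖(opr R - 1) (stdOrthonormalBasis ℝ E i)‖
      ≤ √(2 * (Module.finrank ℝ E : ℝ) - 2 * tr (opr R)) := by
    intro i
    rw [← sum_sq_sub]
    refine Real.le_sqrt_of_sq_le ?_
    exact Finset.single_le_sum (f := fun i => ‖(opr R - 1) (stdOrthonormalBasis ℝ E i)‖ ^ 2)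
      (fun j _ => sq_nonneg _) (Finset.mem_univ i)
  refine (Finset.sum_le_sum fun i _ => h i).trans ?_
  simp

section star

variable [CompleteSpace E]

theorem inner_skew {c : E →L[ℝ] E} (hc : c ∈ skewAdjoint (E →L[ℝ] E)) (x y : E) :
    inner ℝ x (c y) = - inner ℝ (c x) y := by
  rw [skewAdjoint.mem_iff] at hc
  rw [← ContinuousLinearMap.adjoint_inner_left, ← ContinuousLinearMap.star_eq_adjoint, hc,
    neg_apply, inner_neg_left]

theorem tr_skew {c : E →L[ℝ] E} (hc : c ∈ skewAdjoint (E →L[ℝ] E)) : tr c = 0 := by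
  rw [tr_eq_sum]
  refine Finset.sum_eq_zero fun i _ => ?_
  have := inner_skew hc (stdOrthonormalBasis ℝ E i) (stdOrthonormalBasis ℝ E i)
  rw [real_inner_comm] at this
  have h2 := real_inner_comm (c (stdOrthonormalBasis ℝ E i)) (stdOrthonormalBasis ℝ E i)
  linarith

theorem eq_zero_of_tr_sq {c : E →L[ℝ] E} (hc : c ∈ skewAdjoint (E →L[ℝ] E))
    (h : tr (c * c) = 0) : c = 0 := by
  set b := stdOrthonormalBasis ℝ E with hb
  have h1 : ∑ i, ‖c (b i)‖ ^ 2 = 0 := by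
    rw [tr_eq_sum] at h
    rw [← neg_eq_zero, ← Finset.sum_neg_distrib, ← h]
    refine Finset.sum_congr rfl fun i _ => ?_
    have h2 : (c * c) (b i) = c (c (b i)) := rfl
    rw [← hb, h2, inner_skew hc, real_inner_self_eq_norm_sq]
  rw [Finset.sum_eq_zero_iff_of_nonneg fun i _ => sq_nonneg _] at h1
  have h3 := norm_le_sum c
  rw [← hb, Finset.sum_eq_zero fun i hi => by simpa using h1 i hi] at h3
  exact norm_le_zero_iff.1 h3

/-- elements of the Lie algebra are skew -/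
theorem skew_of_exp {c : E →L[ℝ] E} (h : ∀ t : ℝ, ∃ R : E ≃ₗᵢ[ℝ] E, opr R = NormedSpace.exp (t • c)) :
    c ∈ skewAdjoint (E →L[ℝ] E) := by
  choose R hR using h
  have hε0 : Tendsto (fun j : ℕ => 1 / ((j : ℝ) + 1)) atTop (𝓝 0) :=
    tendsto_one_div_add_atTop_nhds_zero_nat
  have hε : ∀ j : ℕ, 0 < 1 / ((j : ℝ) + 1) := fun j => by positivity
  refine skew_of_limit (s := fun j : ℕ => R (1 / ((j : ℝ) + 1))) hε hε0 ?_
  simp only [hR]
  exact tendsto_slope_exp c hε hε0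

theorem hasDerivAt_tr_left (A a : E →L[ℝ] E) :
    HasDerivAt (fun t : ℝ => tr (A * NormedSpace.exp (t • a))) (tr (A * a)) 0 := by
  have h1 : HasDerivAt (fun u : ℝ => NormedSpace.exp (u • a)) a 0 := by
    simpa using hasDerivAt_exp_smul_const a (0 : ℝ)
  exact tr.hasFDerivAt.comp_hasDerivAt 0 (h1.const_mul A)

/-- first order condition at a maximum of the trace -/
theorem tr_eq_zero_of_max {K : Subgroup (E ≃ₗᵢ[ℝ] E)} {A a : E →L[ℝ] E}
    (ha : ∀ t : ℝ, NormedSpace.exp (t • a) ∈ opr '' (K : Set (E ≃ₗᵢ[ℝ] E)))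
    (hA : ∀ s ∈ K, tr (A * opr s) ≤ tr A) : tr ((A - 1) * a) = 0 := by
  have hmax : IsLocalMax (fun t : ℝ => tr (A * NormedSpace.exp (t • a))) 0 := by
    refine Eventually.of_forall fun t => ?_
    obtain ⟨s, hs, hst⟩ := ha t
    simp only [zero_smul, NormedSpace.exp_zero, mul_one]
    rw [← hst]
    exact hA s hs
  have h1 := hmax.hasDerivAt_eq_zero (hasDerivAt_tr_left A a)
  have h2 : tr a = 0 := tr_skew (skew_of_exp fun t => by
    obtain ⟨s, _, hst⟩ := ha t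
    exact ⟨s, hst⟩)
  rw [sub_mul, one_mul, map_sub, h1, h2, sub_zero]

end star

/-- the centraliser is closed -/
theorem isClosedGroup_centralizer (Γ : Subgroup (E ≃ₗᵢ[ℝ] E)) :
    IsClosedGroup (Subgroup.centralizer (Γ : Set (E ≃ₗᵢ[ℝ] E))) := by
  intro R S hR hS
  rw [Subgroup.mem_centralizer_iff]
  intro g hg
  ext x
  have h1 : Tendsto (fun n => g (R n x)) atTop (𝓝 (g (S x))) :=
    (g.continuous.tendsto _).comp (hS x)
  refine tendsto_nhds_unique h1 ((hS (g x)).congr fun n => ?_)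
  have h2 := Subgroup.mem_centralizer_iff.1 (hR n) g hg
  exact (congrArg (fun Q : E ≃ₗᵢ[ℝ] E => Q x) h2).symm

/-- **Rigidity.** -/
theorem rigidity_aux [CompleteSpace E] {S Γ : Subgroup (E ≃ₗᵢ[ℝ] E)} (hS : IsClosedGroup S)
    (hΓ : Γ ≤ S) : ∃ ε : ℝ, 0 < ε ∧ ∀ R : E ≃ₗᵢ[ℝ] E, (∀ g ∈ Γ, R⁻¹ * g * R ∈ S) →
      ‖opr R - 1‖ < ε → ∃ z ∈ Subgroup.centralizer (Γ : Set (E ≃ₗᵢ[ℝ] E)), ∃ s ∈ S, R = z * s := by
  by_contra hcon
  push Not at hcon
  set Z := Subgroup.centralizer (Γ : Set (E ≃ₗᵢ[ℝ] E)) with hZdef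
  have hZ : IsClosedGroup Z := isClosedGroup_centralizer Γ
  have hex : ∀ j : ℕ, ∃ R : E ≃ₗᵢ[ℝ] E, (∀ g ∈ Γ, R⁻¹ * g * R ∈ S) ∧
      ‖opr R - 1‖ < 1 / ((j : ℝ) + 1) ∧ ∀ z ∈ Z, ∀ s ∈ S, R ≠ z * s := fun j =>
    hcon _ (by positivity)
  choose R₀ hR₀S hR₀1 hR₀ using hex
  -- maximise the trace over `Z R₀ S`
  have hmax : ∀ j, ∃ z ∈ Z, ∃ s ∈ S, ∀ z' ∈ Z, ∀ s' ∈ S,
      tr (opr (z' * R₀ j * s')) ≤ tr (opr (z * R₀ j * s)) := by
    intro j
    have hcpt := (isCompact_opr hZ).prod (isCompact_opr hS)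
    have hne : ((opr '' (Z : Set (E ≃ₗᵢ[ℝ] E))) ×ˢ (opr '' (S : Set (E ≃ₗᵢ[ℝ] E)))).Nonempty :=
      ⟨(opr 1, opr 1), ⟨1, one_mem Z, rfl⟩, ⟨1, one_mem S, rfl⟩⟩
    have hcont : Continuous fun q : (E →L[ℝ] E) × (E →L[ℝ] E) => tr (q.1 * opr (R₀ j) * q.2) := by
      fun_prop
    obtain ⟨q, ⟨⟨z, hz, hzq⟩, ⟨s, hs, hsq⟩⟩, hq⟩ := hcpt.exists_isMaxOn hne hcont.continuousOn
    refine ⟨z, hz, s, hs, fun z' hz' s' hs' => ?_⟩
    have := hq (show ((opr z', opr s') : (E →L[ℝ] E) × (E →L[ℝ] E)) ∈ _ from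
      ⟨⟨z', hz', rfl⟩, ⟨s', hs', rfl⟩⟩)
    simp only [Set.mem_ofPred_eq, ← hzq, ← hsq] at this
    exact this
  choose z hz s hs hzs using hmax
  set R : ℕ → E ≃ₗᵢ[ℝ] E := fun j => z j * R₀ j * s j with hRdef
  have hRS : ∀ j, ∀ g ∈ Γ, (R j)⁻¹ * g * R j ∈ S := by
    intro j g hg
    have h1 : (z j)⁻¹ * g * z j = g := by
      have := Subgroup.mem_centralizer_iff.1 (hz j) g hg
      rw [mul_assoc, this, inv_mul_cancel_left]
    have h2 : (R j)⁻¹ * g * R j = (s j)⁻¹ * ((R₀ j)⁻¹ * ((z j)⁻¹ * g * z j) * R₀ j) * s j := by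
      simp only [hRdef]; group
    rw [h2, h1]
    exact mul_mem (mul_mem (inv_mem (hs j)) (hR₀S j g hg)) (hs j)
  have hR1 : ∀ j, R j ≠ 1 := by
    intro j h
    refine hR₀ j (z j)⁻¹ (inv_mem (hz j)) (s j)⁻¹ (inv_mem (hs j)) ?_
    have h2 : R₀ j = (z j)⁻¹ * R j * (s j)⁻¹ := by simp only [hRdef]; group
    rw [h2, h, mul_one]
  have hle : ∀ j, tr (opr (R₀ j)) ≤ tr (opr (R j)) := by
    intro j
    have := hzs j 1 (one_mem Z) 1 (one_mem S)
    rwa [one_mul, mul_one] at this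
  have hmaxS : ∀ j, ∀ s' ∈ S, tr (opr (R j) * opr s') ≤ tr (opr (R j)) := by
    intro j s' hs'
    have := hzs j (z j) (hz j) (s j * s') (mul_mem (hs j) hs')
    rw [← opr_mul]
    rwa [← mul_assoc] at this
  have hmaxZ : ∀ j, ∀ z' ∈ Z, tr (opr (R j) * opr z') ≤ tr (opr (R j)) := by
    intro j z' hz'
    have := hzs j (z' * z j) (mul_mem hz' (hz j)) (s j) (hs j)
    rw [tr_mul_comm, ← opr_mul]
    have h2 : z' * R j = z' * z j * R₀ j * s j := by simp only [hRdef]; group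
    rw [h2]
    exact this
  -- the maximisers converge to the identity
  have hlim0 : Tendsto (fun j => ‖opr (R j) - 1‖) atTop (𝓝 0) := by
    have h1 : Tendsto (fun j => opr (R₀ j)) atTop (𝓝 1) := by
      rw [tendsto_iff_norm_sub_tendsto_zero]
      exact squeeze_zero (fun j => norm_nonneg _) (fun j => (hR₀1 j).le)
        tendsto_one_div_add_atTop_nhds_zero_nat
    have h2 : Tendsto (fun j => (Module.finrank ℝ E : ℝ) *
        √(2 * (Module.finrank ℝ E : ℝ) - 2 * tr (opr (R₀ j)))) atTop (𝓝 0) := by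
      have h3 : Continuous fun A : E →L[ℝ] E => (Module.finrank ℝ E : ℝ) *
        √(2 * (Module.finrank ℝ E : ℝ) - 2 * tr A) := by fun_prop
      have h4 := (h3.tendsto 1).comp h1
      have h5 := sum_sq_sub (1 : E ≃ₗᵢ[ℝ] E)
      rw [opr_one, sub_self] at h5
      simp only [zero_apply, norm_zero] at h5
      rw [← h5] at h4
      simpa [Function.comp_def] using h4
    refine squeeze_zero (fun j => norm_nonneg _) (fun j => ?_) h2
    refine (norm_opr_sub_one_le (R j)).trans ?_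
    gcongr
    exact hle j
  have hpos : ∀ j, 0 < ‖opr (R j) - 1‖ := by
    intro j
    rw [norm_pos_iff, sub_ne_zero]
    exact fun h => hR1 j (opr_injective (h.trans opr_one.symm))
  -- blow-up direction
  have : ProperSpace (E →L[ℝ] E) := FiniteDimensional.proper ℝ _
  obtain ⟨b, hb, ψ, hψ, hψb⟩ := (isCompact_sphere (0 : E →L[ℝ] E) 1).tendsto_subseq
    (x := fun j => ‖opr (R j) - 1‖⁻¹ • (opr (R j) - 1)) (fun j => by
      rw [mem_sphere_zero_iff_norm, norm_smul, norm_inv, norm_norm, inv_mul_cancel₀ (hpos j).ne'])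
  have hbne : b ≠ 0 := by
    rintro rfl
    simp at hb
  set ε : ℕ → ℝ := fun j => ‖opr (R (ψ j)) - 1‖ with hε
  have hε0 : Tendsto ε atTop (𝓝 0) := hlim0.comp hψ.tendsto_atTop
  have hεpos : ∀ j, 0 < ε j := fun j => hpos _
  have hbl : Tendsto (fun j => (ε j)⁻¹ • (opr (R (ψ j)) - 1)) atTop (𝓝 b) := hψb
  have hbskew := skew_of_limit hεpos hε0 hbl
  -- first order conditions
  have hfirst : ∀ (K : Subgroup (E ≃ₗᵢ[ℝ] E)),
      (∀ j, ∀ s' ∈ K, tr (opr (R j) * opr s') ≤ tr (opr (R j))) → ∀ a : E →L[ℝ] E,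
      (∀ t : ℝ, NormedSpace.exp (t • a) ∈ opr '' (K : Set (E ≃ₗᵢ[ℝ] E))) → tr (b * a) = 0 := by
    intro K hKm a ha
    have h1 : Tendsto (fun j => tr (((ε j)⁻¹ • (opr (R (ψ j)) - 1)) * a)) atTop
        (𝓝 (tr (b * a))) := (tr.continuous.tendsto _).comp (hbl.mul_const a)
    refine tendsto_nhds_unique h1 ?_
    have h2 : (fun j => tr (((ε j)⁻¹ • (opr (R (ψ j)) - 1)) * a)) = fun _ => 0 := by
      funext j
      rw [smul_mul_assoc, map_smul, tr_eq_zero_of_max ha (hKm (ψ j)), smul_zero]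
    rw [h2]
    exact tendsto_const_nhds
  -- `b` commutes with `Γ`
  have hcomm : ∀ g ∈ Γ, opr g * b = b * opr g := by
    intro g hg
    set c : E →L[ℝ] E := b - opr g⁻¹ * b * opr g with hc
    have hinv : Tendsto (fun j => opr (R (ψ j))⁻¹) atTop (𝓝 1) := by
      rw [tendsto_iff_norm_sub_tendsto_zero]
      exact squeeze_zero (fun j => norm_nonneg _) (fun j => norm_opr_inv_sub_one_le _) hε0
    have hclim : Tendsto (fun j => (ε j)⁻¹ • (opr (g⁻¹ * ((R (ψ j))⁻¹ * g * R (ψ j))) - 1)) atTop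
        (𝓝 c) := by
      have h1 : ∀ j, (ε j)⁻¹ • (opr (g⁻¹ * ((R (ψ j))⁻¹ * g * R (ψ j))) - 1)
          = opr g⁻¹ * opr (R (ψ j))⁻¹ * (opr g * ((ε j)⁻¹ • (opr (R (ψ j)) - 1))
            - ((ε j)⁻¹ • (opr (R (ψ j)) - 1)) * opr g) := by
        intro j
        have h2 : opr (g⁻¹ * ((R (ψ j))⁻¹ * g * R (ψ j))) - 1
            = opr g⁻¹ * opr (R (ψ j))⁻¹ * (opr g * (opr (R (ψ j)) - 1)
              - (opr (R (ψ j)) - 1) * opr g) := by
          have h3 : opr g⁻¹ * opr (R (ψ j))⁻¹ * (opr (R (ψ j)) * opr g) = 1 := by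
            rw [mul_assoc, ← mul_assoc (opr (R (ψ j))⁻¹), opr_inv_mul, one_mul, opr_inv_mul]
          have h4 : opr g * (opr (R (ψ j)) - 1) - (opr (R (ψ j)) - 1) * opr g
              = opr g * opr (R (ψ j)) - opr (R (ψ j)) * opr g := by
            rw [mul_sub, sub_mul, mul_one, one_mul]; abel
          rw [h4, mul_sub, h3, opr_mul, opr_mul, opr_mul]
          simp only [mul_assoc]
        rw [h2, mul_smul_comm, smul_mul_assoc, ← smul_sub, mul_smul_comm]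
      have h5 : Tendsto (fun j => opr g⁻¹ * opr (R (ψ j))⁻¹ *
          (opr g * ((ε j)⁻¹ • (opr (R (ψ j)) - 1)) - ((ε j)⁻¹ • (opr (R (ψ j)) - 1)) * opr g)) atTop
          (𝓝 (opr g⁻¹ * 1 * (opr g * b - b * opr g))) :=
        (hinv.const_mul _).mul ((hbl.const_mul _).sub (hbl.mul_const _))
      have h6 : opr g⁻¹ * 1 * (opr g * b - b * opr g) = c := by
        rw [mul_one, mul_sub, ← mul_assoc, opr_inv_mul, one_mul, ← mul_assoc]
      rw [h6] at h5
      exact h5.congr fun j => (h1 j).symm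
    have hmem : ∀ j, g⁻¹ * ((R (ψ j))⁻¹ * g * R (ψ j)) ∈ S := fun j =>
      mul_mem (hΓ (inv_mem hg)) (hRS _ g hg)
    have hcS : ∀ t : ℝ, NormedSpace.exp (t • c) ∈ opr '' (S : Set (E ≃ₗᵢ[ℝ] E)) :=
      exp_mem_of_limit hS hmem hεpos hε0 hclim
    have hcskew := skew_of_limit hεpos hε0 hclim
    have h0 : tr (b * c) = 0 := hfirst S hmaxS c hcS
    have h1 : tr (b * b) = tr (b * (opr g⁻¹ * b * opr g)) := by
      rw [hc, mul_sub, map_sub] at h0
      linarith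
    have h2 : tr (c * c) = 0 := by
      have e1 : c * c = b * c - opr g⁻¹ * b * opr g * b
          + opr g⁻¹ * b * (opr g * opr g⁻¹) * b * opr g := by
        rw [hc]; noncomm_ring
      have e2 : tr (opr g⁻¹ * b * opr g * b) = tr (b * b) := by
        rw [tr_mul_comm, ← h1]
      have e3 : tr (opr g⁻¹ * b * (opr g * opr g⁻¹) * b * opr g) = tr (b * b) := by
        rw [opr_mul_inv, mul_one, tr_mul_comm, ← mul_assoc, ← mul_assoc, opr_mul_inv, one_mul]
      rw [e1, map_add, map_sub, e2, e3, h0]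
      ring
    have h3 := eq_zero_of_tr_sq hcskew h2
    rw [hc, sub_eq_zero] at h3
    have h4 := congrArg (fun X => opr g * X) h3
    simp only [← mul_assoc, opr_mul_inv, one_mul] at h4
    exact h4
  -- hence `b` lies in the Lie algebra of the centraliser
  have hbZ : ∀ t : ℝ, NormedSpace.exp (t • b) ∈ opr '' (Z : Set (E ≃ₗᵢ[ℝ] E)) := by
    intro t
    obtain ⟨Q, hQ⟩ := exp_skew (skewAdjoint.smul_mem t hbskew)
    refine ⟨Q, ?_, hQ⟩
    change Q ∈ Z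
    rw [hZdef, Subgroup.mem_centralizer_iff]
    intro g hg
    apply opr_injective
    rw [opr_mul, opr_mul, hQ]
    let _ : NormedAlgebra ℚ (E →L[ℝ] E) := NormedAlgebra.restrictScalars ℚ ℝ (E →L[ℝ] E)
    have h5 : Commute (opr g) (t • b) := Commute.smul_right (hcomm g hg) t
    exact h5.exp_right
  exact hbne (eq_zero_of_tr_sq hbskew (hfirst Z hmaxZ b hbZ))

/-- **Rigidity.** If `Γ ⊆ S` with `S` closed, then every `R` near `1` with `R⁻¹ Γ R ⊆ S` is a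
product `z s` with `z` in the centraliser of `Γ` and `s ∈ S`. -/
theorem rigidity {S Γ : Subgroup (E ≃ₗᵢ[ℝ] E)} (hS : IsClosedGroup S)
    (hΓ : Γ ≤ S) : ∃ ε : ℝ, 0 < ε ∧ ∀ R : E ≃ₗᵢ[ℝ] E, (∀ g ∈ Γ, R⁻¹ * g * R ∈ S) →
      ‖opr R - 1‖ < ε → ∃ z ∈ Subgroup.centralizer (Γ : Set (E ≃ₗᵢ[ℝ] E)), ∃ s ∈ S, R = z * s := by
  have : CompleteSpace E := FiniteDimensional.complete ℝ E
  exact rigidity_aux hS hΓ

end Vale.Agent.P218
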