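import Vale.Agent.P218.Fixed
import Vale.Agent.P218.Assembly

/-! Tangent flows of symmetric flows. -/

set_option linter.unusedSectionVars false
set_option linter.unusedVariables false

open MeasureTheory Set Filter Topology
open scoped ENNReal NNReal

namespace Vale.Agent.P218

variable {E : Type*} [NormedAddCommGroup E] [InnerProductSpace ℝ E] [FiniteDimensional ℝ E]
  [MeasurableSpace E] [BorelSpace E]

/-- the rescalings of a measure invariant about `x₀` are invariant -/
theorem rescaled_map (m : ℕ) (μ : ℝ → Measure E) (x₀ : E) (t₀ lam s : ℝ) (g : E ≃ₗᵢ[ℝ] E)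
    (h : (μ (t₀ + s / lam ^ 2)).map (fun x => x₀ + g (x - x₀)) = μ (t₀ + s / lam ^ 2)) :
    (rescaled m μ x₀ t₀ lam s).map g = rescaled m μ x₀ t₀ lam s := by
  unfold rescaled
  have hA : Measurable fun x : E => lam • (x - x₀) := by fun_prop
  have hB : Measurable fun x : E => x₀ + g (x - x₀) :=
    ((g.continuous.comp (continuous_id.sub continuous_const)).const_add x₀).measurable
  rw [Measure.map_smul]
  congr 1
  conv_rhs => rw [← h]
  rw [Measure.map_map hA hB, Measure.map_map g.continuous.measurable hA]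
  congr 1
  funext x
  simp only [Function.comp, add_sub_cancel_left, map_smul]

/-- tangent flows inherit the symmetries of the flow -/
theorem map_eq_of_mem_tangentSlices {m : ℕ} {μ : ℝ → Measure E} {x₀ : E} {t₀ : ℝ}
    {g : E ≃ₗᵢ[ℝ] E} (h : ∀ᶠ t in 𝓝[<] t₀, (μ t).map (fun x => x₀ + g (x - x₀)) = μ t)
    {κ : Measure E} (hκ : κ ∈ tangentSlices m μ x₀ t₀) : κ.map g = κ := by
  obtain ⟨ν, ⟨hν, lam, hlam, hw⟩, rfl⟩ := hκ
  have := hν (-1) (by norm_num)
  have h1 := hw (-1) (by norm_num)
  have ht : Tendsto (fun i => t₀ + (-1) / lam i ^ 2) atTop (𝓝[<] t₀) := by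
    rw [tendsto_nhdsWithin_iff]
    constructor
    · have h2 : Tendsto (fun i => (-1 : ℝ) / lam i ^ 2) atTop (𝓝 0) :=
        tendsto_const_nhds.div_atTop ((tendsto_pow_atTop two_ne_zero).comp hlam)
      simpa using h2.const_add t₀
    · filter_upwards [hlam.eventually_gt_atTop 0] with i hi
      have : (-1 : ℝ) / lam i ^ 2 < 0 := div_neg_of_neg_of_pos (by norm_num) (by positivity)
      simp only [Set.mem_Iio]
      linarith
  have hinv : ∀ᶠ i in atTop, (rescaled m μ x₀ t₀ (lam i) (-1)).map g
      = rescaled m μ x₀ t₀ (lam i) (-1) :=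
    (ht.eventually h).mono fun i hi => rescaled_map m μ x₀ t₀ (lam i) (-1) g hi
  have h2 : WeakTendsto (fun i => rescaled m μ x₀ t₀ (lam i) (-1)) ((ν (-1)).map g) := by
    intro φ hc hs
    rw [integral_map_iso]
    have h3 := h1 (fun x => φ (g x)) (hc.comp g.continuous)
      (hs.comp_homeomorph g.toHomeomorph)
    refine h3.congr' (hinv.mono fun i hi => ?_)
    rw [← integral_map_iso, hi]
  have := isLocallyFinite_map (ν (-1)) g
  exact weakTendsto_unique h2 h1

end Vale.Agent.P218
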