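import Mathlib

/-! The set of cluster points of a slowly varying sequence in a compact set is connected. -/

open Set Filter Topology
open scoped Uniformity

namespace Vale.Agent.P218

theorem cluster_subset {X : Type*} [TopologicalSpace X] {K : Set X}
    (hK : IsClosed K) (u : ℕ → X) (hu : ∀ n, u n ∈ K) :
    {x | MapClusterPt x atTop u} ⊆ K := by
  intro x hx
  have : ClusterPt x (𝓟 K) := by
    refine ClusterPt.mono hx ?_
    rw [le_principal_iff, mem_map]
    exact Eventually.of_forall fun n => hu n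
  exact hK.closure_eq ▸ mem_closure_iff_clusterPt.2 this

/-- the set of cluster points of a sequence in a compact set is compact -/
theorem isCompact_cluster {X : Type*} [TopologicalSpace X] [T2Space X] {K : Set X}
    (hK : IsCompact K) (u : ℕ → X) (hu : ∀ n, u n ∈ K) :
    IsCompact {x | MapClusterPt x atTop u} :=
  hK.of_isClosed_subset isClosed_setOfPred_clusterPt (cluster_subset hK.isClosed u hu)

/-- if all cluster points lie in the open set `O` then the sequence is eventually in `O` -/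
theorem eventually_mem_of_cluster {X : Type*} [TopologicalSpace X] {K : Set X}
    (hK : IsCompact K) (u : ℕ → X) (hu : ∀ n, u n ∈ K) {O : Set X} (hO : IsOpen O)
    (h : {x | MapClusterPt x atTop u} ⊆ O) : ∀ᶠ n in atTop, u n ∈ O := by
  by_contra hcon
  have hf : ∃ᶠ n in atTop, u n ∈ K \ O := by
    have : ∃ᶠ n in atTop, ¬ (u n ∈ O) := by simpa [Filter.Frequently] using hcon
    exact this.mono fun n hn => ⟨hu n, hn⟩
  have hKO : IsCompact (K \ O) := hK.diff hO
  obtain ⟨x, hx, hx2⟩ := hKO.exists_mapClusterPt_of_frequently hf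
  exact hx.2 (h hx2)

/-- **Connectedness of the cluster set of a slowly varying sequence.** -/
theorem isPreconnected_cluster {X : Type*} [UniformSpace X] [T2Space X] {K : Set X}
    (hK : IsCompact K) (u : ℕ → X) (hu : ∀ n, u n ∈ K)
    (hs : Tendsto (fun n => (u n, u (n + 1))) atTop (𝓤 X)) :
    IsPreconnected {x | MapClusterPt x atTop u} := by
  set S := {x | MapClusterPt x atTop u} with hS
  have hSc : IsCompact S := isCompact_cluster hK u hu
  rw [isPreconnected_closed_iff]
  intro t t' ht ht' hSt ⟨a, haS, hat⟩ ⟨b, hbS, hbt⟩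
  by_contra hne
  rw [Set.not_nonempty_iff_eq_empty] at hne
  have hdisj : Disjoint (S ∩ t) (S ∩ t') := by
    rw [Set.disjoint_iff_inter_eq_empty, ← hne]
    ext x; simp only [mem_inter_iff]; tauto
  obtain ⟨V, hV, hVd⟩ := hdisj.exists_uniform_thickening (hSc.inter_right ht)
    ((hSc.inter_right ht').isClosed)
  obtain ⟨W, hW, hWs, hWW⟩ := comp_symm_mem_uniformity_sets hV
  have hWV : W ⊆ V := (subset_comp_self_of_mem_uniformity hW).trans hWW
  -- neighbourhoods
  have key : ∀ y y', (∃ x ∈ S ∩ t, (x, y) ∈ W) → (y, y') ∈ W → ¬ ∃ x' ∈ S ∩ t', (x', y') ∈ W := by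
    rintro y y' ⟨x, hx, hxy⟩ hyy ⟨x', hx', hxy'⟩
    have h1 : y' ∈ ⋃ x ∈ S ∩ t, UniformSpace.ball x V := by
      simp only [mem_iUnion]
      exact ⟨x, hx, hWW (SetRel.prodMk_mem_comp hxy hyy)⟩
    have h2 : y' ∈ ⋃ x ∈ S ∩ t', UniformSpace.ball x V := by
      simp only [mem_iUnion]
      exact ⟨x', hx', hWV hxy'⟩
    exact Set.disjoint_left.1 hVd h1 h2
  -- eventually in the union of the neighbourhoods
  have hnear : ∀ᶠ n in atTop, (∃ x ∈ S, (x, u n) ∈ W) := by
    have : ∀ x ∈ S, ∃ O : Set X, IsOpen O ∧ x ∈ O ∧ O ⊆ UniformSpace.ball x W := by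
      intro x _
      obtain ⟨O, hOs, hOo, hxO⟩ := mem_nhds_iff.1 (UniformSpace.ball_mem_nhds x hW)
      exact ⟨O, hOo, hxO, hOs⟩
    choose! O hO1 hO2 hO3 using this
    have := eventually_mem_of_cluster hK u hu (O := ⋃ x ∈ S, O x)
      (isOpen_biUnion fun x hx => hO1 x hx)
      (fun x hx => mem_iUnion₂.2 ⟨x, hx, hO2 x hx⟩)
    filter_upwards [this] with n hn
    obtain ⟨x, hx, hxn⟩ := mem_iUnion₂.1 hn
    exact ⟨x, hx, hO3 x hx hxn⟩
  have hstep : ∀ᶠ n in atTop, (u n, u (n + 1)) ∈ W := hs hW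
  obtain ⟨N, hN⟩ := (hnear.and hstep).exists_forall_of_atTop
  -- frequently near `a`
  have hfa : ∃ᶠ n in atTop, (a, u n) ∈ W := haS.frequently (UniformSpace.ball_mem_nhds a hW)
  have hfb : ∃ᶠ n in atTop, (b, u n) ∈ W := hbS.frequently (UniformSpace.ball_mem_nhds b hW)
  obtain ⟨n, hnN, hna⟩ := (frequently_atTop.1 hfa) N
  obtain ⟨n', hn'n, hnb⟩ := (frequently_atTop.1 hfb) n
  have hstay : ∀ k, n ≤ k → ∃ x ∈ S ∩ t, (x, u k) ∈ W := by
    intro k hk
    induction k, hk using Nat.le_induction with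
    | base => exact ⟨a, ⟨haS, hat⟩, hna⟩
    | succ k hk ih =>
      have h1 := key _ _ ih (hN k (hnN.trans hk)).2
      obtain ⟨x, hx, hxW⟩ := (hN (k + 1) (by omega)).1
      rcases hSt hx with h | h
      · exact ⟨x, ⟨hx, h⟩, hxW⟩
      · exact absurd ⟨x, ⟨hx, h⟩, hxW⟩ h1
  refine key _ _ (hstay n' hn'n) ?_ ⟨b, ⟨hbS, hbt⟩, hnb⟩
  exact refl_mem_uniformity hW

theorem cluster_nonempty {X : Type*} [TopologicalSpace X] {K : Set X}
    (hK : IsCompact K) (u : ℕ → X) (hu : ∀ n, u n ∈ K) :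
    {x | MapClusterPt x atTop u}.Nonempty := by
  obtain ⟨x, _, hx⟩ := hK.exists_mapClusterPt_of_frequently
    (l := atTop) (f := u) (Frequently.of_forall hu)
  exact ⟨x, hx⟩

end Vale.Agent.P218
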