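import Vale.Agent.P218.Defs
import Vale.Agent.P218.Topo

/-! Weak convergence of Radon measures: compactness, extraction, uniqueness. -/

set_option linter.unusedSectionVars false
set_option linter.unusedVariables false

open MeasureTheory Set Filter Topology
open scoped ENNReal NNReal CompactlySupported

namespace Vale.Agent.P218

variable {E : Type*} [NormedAddCommGroup E] [InnerProductSpace ℝ E] [FiniteDimensional ℝ E]
  [MeasurableSpace E] [BorelSpace E]

/-- the functional of a measure -/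
noncomputable def fnl (μ : Measure E) : C_c(E, ℝ) → ℝ := fun φ => ∫ x, φ x ∂μ

theorem weakTendsto_iff {u : ℕ → Measure E} {ν : Measure E} :
    WeakTendsto u ν ↔ Tendsto (fun i => fnl (u i)) atTop (𝓝 (fnl ν)) := by
  rw [tendsto_pi_nhds]
  constructor
  · intro h φ
    exact h φ φ.continuous φ.hasCompactSupport
  · intro h φ hc hs
    exact h ⟨⟨φ, hc⟩, hs⟩

/-- two Radon measures with the same functional agree -/
theorem fnl_injective {μ ν : Measure E} [IsLocallyFiniteMeasure μ] [IsLocallyFiniteMeasure ν]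
    (h : fnl μ = fnl ν) : μ = ν :=
  Measure.ext_of_integral_eq_on_compactlySupported fun f => congrFun h f

theorem weakTendsto_unique {u : ℕ → Measure E} {ν ν' : Measure E} [IsLocallyFiniteMeasure ν]
    [IsLocallyFiniteMeasure ν'] (h : WeakTendsto u ν) (h' : WeakTendsto u ν') : ν = ν' :=
  fnl_injective (tendsto_nhds_unique (weakTendsto_iff.1 h) (weakTendsto_iff.1 h'))

/-- uniform local bounds -/
def LocBdd {ι : Type*} (u : ι → Measure E) : Prop :=
  ∀ K : Set E, IsCompact K → ∃ C : ℝ≥0, ∀ i, u i K ≤ C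

theorem LocBdd.isLocallyFinite {ι : Type*} {u : ι → Measure E} (h : LocBdd u) (i : ι) :
    IsLocallyFiniteMeasure (u i) := by
  refine ⟨fun x => ?_⟩
  obtain ⟨K, hK, hxK⟩ := exists_compact_mem_nhds x
  obtain ⟨C, hC⟩ := h K hK
  exact ⟨K, hxK, (hC i).trans_lt ENNReal.coe_lt_top⟩

theorem abs_integral_le_of_support {μ : Measure E} {φ : E → ℝ} {K : Set E} {M : ℝ}
    (hK : IsCompact K) (hφ : ∀ x, |φ x| ≤ M) (hs : ∀ x ∉ K, φ x = 0) {C : ℝ≥0}
    (hC : μ K ≤ C) : |∫ x, φ x ∂μ| ≤ M * C := by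
  have hM : 0 ≤ M := (abs_nonneg _).trans (hφ 0)
  have h1 : ∫ x, φ x ∂μ = ∫ x in K, φ x ∂μ := by
    rw [setIntegral_eq_integral_of_forall_compl_eq_zero hs]
  rw [h1]
  have h2 : μ K < ⊤ := hC.trans_lt ENNReal.coe_lt_top
  have h3 := norm_setIntegral_le_of_norm_le_const (f := φ) (C := M) h2 (fun x _ => hφ x)
  rw [Real.norm_eq_abs] at h3
  refine h3.trans (mul_le_mul_of_nonneg_left ?_ hM)
  rw [measureReal_def]
  exact ENNReal.toReal_le_coe_of_le_coe hC

theorem LocBdd.fnl_bdd {ι : Type*} {u : ι → Measure E} (h : LocBdd u) (φ : C_c(E, ℝ)) :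
    ∃ B : ℝ, ∀ i, |fnl (u i) φ| ≤ B := by
  obtain ⟨C, hC⟩ := h (tsupport φ) φ.hasCompactSupport
  obtain ⟨M, hM⟩ := φ.hasCompactSupport.exists_bound_of_continuous φ.continuous
  refine ⟨M * C, fun i => ?_⟩
  exact abs_integral_le_of_support φ.hasCompactSupport (fun x => hM x)
    (fun x hx => image_eq_zero_of_notMem_tsupport hx) (hC i)

/-- cluster points of functionals of measures are functionals of Radon measures -/
theorem exists_measure_of_cluster {u : ℕ → Measure E} (hu : LocBdd u)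
    {ℓ : C_c(E, ℝ) → ℝ} (hℓ : MapClusterPt ℓ atTop (fun n => fnl (u n))) :
    ∃ ν : Measure E, IsLocallyFiniteMeasure ν ∧ fnl ν = ℓ := by
  have hfin : ∀ n, IsLocallyFiniteMeasure (u n) := hu.isLocallyFinite
  set P : Set (C_c(E, ℝ) → ℝ) := {ℓ | (∀ f g, ℓ (f + g) = ℓ f + ℓ g) ∧
    (∀ (c : ℝ) f, ℓ (c • f) = c * ℓ f) ∧ ∀ f : C_c(E, ℝ), (∀ x, 0 ≤ f x) → 0 ≤ ℓ f} with hP
  have hPc : IsClosed P := by
    simp only [hP, Set.ofPred_and]
    refine IsClosed.inter ?_ (IsClosed.inter ?_ ?_)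
    · simp only [Set.ofPred_forall]
      refine isClosed_iInter fun f => isClosed_iInter fun g => ?_
      exact isClosed_eq (continuous_apply _) (by fun_prop)
    · simp only [Set.ofPred_forall]
      refine isClosed_iInter fun f => isClosed_iInter fun g => ?_
      exact isClosed_eq (continuous_apply _) (by fun_prop)
    · simp only [Set.ofPred_forall]
      refine isClosed_iInter fun f => isClosed_iInter fun _ => ?_
      exact isClosed_le continuous_const (continuous_apply _)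
  have hmem : ∀ n, fnl (u n) ∈ P := by
    intro n
    refine ⟨fun f g => ?_, fun c f => ?_, fun f hf => integral_nonneg hf⟩
    · exact integral_add f.integrable g.integrable
    · exact integral_const_mul c _
  have hℓP : ℓ ∈ P := cluster_subset hPc _ hmem hℓ
  obtain ⟨h1, h2, h3⟩ := hℓP
  let Λ : C_c(E, ℝ) →ₚ[ℝ] ℝ :=
    PositiveLinearMap.mk₀ { toFun := ℓ, map_add' := h1, map_smul' := h2 }
      (fun f hf => h3 f fun x => hf x)
  refine ⟨RealRMK.rieszMeasure Λ, inferInstance, ?_⟩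
  funext f
  exact RealRMK.integral_rieszMeasure Λ f

/-- smooth cut-off functions -/
theorem exists_cutoff (R : ℝ) : ∃ χ : C_c(E, ℝ), (∀ x, 0 ≤ χ x ∧ χ x ≤ 1) ∧
    ∀ x, ‖x‖ ≤ R → χ x = 1 := by
  have hR : 0 < max R 1 := lt_max_of_lt_right one_pos
  let b : ContDiffBump (0 : E) := ⟨max R 1, max R 1 + 1, hR, by linarith⟩
  refine ⟨⟨⟨b, b.continuous⟩, b.hasCompactSupport⟩, fun x => ⟨b.nonneg, b.le_one⟩, fun x hx => ?_⟩
  refine b.one_of_mem_closedBall ?_
  rw [mem_closedBall_zero_iff]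
  exact hx.trans (le_max_left _ _)

theorem tendsto_of_approx {ι : Type*} {l : Filter ι} {x : ι → ℝ} {L : ℝ}
    (h : ∀ ε > 0, ∃ (a : ι → ℝ) (A : ℝ), Tendsto a l (𝓝 A) ∧ (∀ᶠ i in l, |x i - a i| ≤ ε) ∧
      |L - A| ≤ ε) : Tendsto x l (𝓝 L) := by
  rw [Metric.tendsto_nhds]
  intro ε hε
  obtain ⟨a, A, ha, hx, hL⟩ := h (ε / 4) (by positivity)
  filter_upwards [Metric.tendsto_nhds.1 ha (ε / 4) (by positivity), hx] with i hi hxi
  rw [Real.dist_eq] at hi ⊢
  calc |x i - L| = |(x i - a i) + (a i - A) - (L - A)| := by ring_nf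
    _ ≤ |x i - a i| + |a i - A| + |L - A| := by
        refine (abs_sub _ _).trans ?_
        gcongr
        exact abs_add_le _ _
    _ < ε := by linarith

theorem abs_integral_sub_le {μ : Measure E} [IsLocallyFiniteMeasure μ] {φ ψ : E → ℝ} {R M : ℝ}
    (hφc : Continuous φ) (hψc : Continuous ψ) (hφ : ∀ x, R < ‖x‖ → φ x = 0)
    (hψ : ∀ x, R < ‖x‖ → ψ x = 0) (h : ∀ x, ‖x‖ ≤ R → |φ x - ψ x| ≤ M) (hM : 0 ≤ M) {C : ℝ≥0}
    (hC : μ (Metric.closedBall 0 R) ≤ C) : |∫ x, φ x ∂μ - ∫ x, ψ x ∂μ| ≤ M * C := by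
  have hcs : ∀ f : E → ℝ, (∀ x, R < ‖x‖ → f x = 0) → HasCompactSupport f := by
    intro f hf
    refine HasCompactSupport.intro (isCompact_closedBall (0 : E) R) fun x hx => hf x ?_
    simpa using hx
  rw [← integral_sub (hφc.integrable_of_hasCompactSupport (hcs φ hφ))
    (hψc.integrable_of_hasCompactSupport (hcs ψ hψ))]
  refine abs_integral_le_of_support (isCompact_closedBall (0 : E) R) (fun x => ?_) (fun x hx => ?_) hC
  · by_cases hx : ‖x‖ ≤ R
    · exact h x hx
    · push Not at hx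
      simp [hφ x hx, hψ x hx, hM]
  · have hx' : R < ‖x‖ := by simpa using hx
    simp [hφ x hx', hψ x hx']

theorem LocBdd.exists_subseq_of_cluster {u : ℕ → Measure E} (hu : LocBdd u)
    {ν : Measure E} [IsLocallyFiniteMeasure ν]
    (hℓ : MapClusterPt (fnl ν) atTop (fun n => fnl (u n))) :
    ∃ ψ : ℕ → ℕ, StrictMono ψ ∧ WeakTendsto (fun n => u (ψ n)) ν := by
  classical
  have hfin : ∀ n, IsLocallyFiniteMeasure (u n) := hu.isLocallyFinite
  choose χ hχ1 hχ2 using fun k : ℕ => exists_cutoff (E := E) (k : ℝ)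
  let D : ℕ → C(E, ℝ) := TopologicalSpace.denseSeq C(E, ℝ)
  have hD : DenseRange D := TopologicalSpace.denseRange_denseSeq _
  let Ψ : ℕ → ℕ → C_c(E, ℝ) := fun k j =>
    ⟨(χ k : C(E, ℝ)) * D j, (χ k).hasCompactSupport.mul_right⟩
  have hΨ : ∀ k j x, Ψ k j x = χ k x * D j x := fun k j x => rfl
  -- restriction to the countable family
  let ρ : (C_c(E, ℝ) → ℝ) → (ℕ × ℕ → ℝ) := fun ℓ p => ℓ (Ψ p.1 p.2)
  have hρ : Continuous ρ := continuous_pi fun p => continuous_apply _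
  have hcl : MapClusterPt (ρ (fnl ν)) atTop (fun n => ρ (fnl (u n))) :=
    hℓ.continuousAt_comp hρ.continuousAt
  obtain ⟨ψ, hψ, hψt⟩ := hcl.tendsto_subseq
  refine ⟨ψ, hψ, ?_⟩
  rw [tendsto_pi_nhds] at hψt
  intro φ hφc hφs
  obtain ⟨k, hk⟩ : ∃ k : ℕ, ∀ x, (k : ℝ) < ‖x‖ → φ x = 0 := by
    obtain ⟨R, hR⟩ := hφs.isCompact.isBounded.subset_closedBall 0
    obtain ⟨k, hk⟩ := exists_nat_ge R
    refine ⟨k, fun x hx => image_eq_zero_of_notMem_tsupport fun h => ?_⟩
    have := hR h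
    rw [mem_closedBall_zero_iff] at this
    linarith
  obtain ⟨R, hR⟩ : ∃ R : ℝ, ∀ x, R < ‖x‖ → χ k x = 0 := by
    obtain ⟨R, hR⟩ := (χ k).hasCompactSupport.isCompact.isBounded.subset_closedBall 0
    refine ⟨R, fun x hx => image_eq_zero_of_notMem_tsupport fun h => ?_⟩
    have := hR h
    rw [mem_closedBall_zero_iff] at this
    linarith
  set R' := max R k with hR'
  obtain ⟨C, hC⟩ := hu _ (isCompact_closedBall (0 : E) R')
  obtain ⟨C', hC'⟩ : ∃ C' : ℝ≥0, ν (Metric.closedBall 0 R') ≤ C' :=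
    ⟨(ν (Metric.closedBall 0 R')).toNNReal,
      (ENNReal.coe_toNNReal (isCompact_closedBall (0 : E) R').measure_lt_top.ne).ge⟩
  refine tendsto_of_approx fun ε hε => ?_
  set M : ℝ := ε / (C + C' + 1) with hM
  have hMpos : 0 < M := by positivity
  obtain ⟨j, hj⟩ : ∃ j, ∀ x, ‖x‖ ≤ R' → |D j x - φ x| < M := by
    let φ' : C(E, ℝ) := ⟨φ, hφc⟩
    have hopen : IsOpen {g : C(E, ℝ) | MapsTo (g - φ') (Metric.closedBall (0 : E) R')
        (Metric.ball 0 M)} :=
      (ContinuousMap.isOpen_setOfPred_mapsTo (isCompact_closedBall (0 : E) R')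
        Metric.isOpen_ball).preimage (continuous_sub_right φ')
    obtain ⟨j, hj⟩ := hD.exists_mem_open hopen ⟨φ', fun x _ => by simpa using hMpos⟩
    refine ⟨j, fun x hx => ?_⟩
    have := hj (show x ∈ Metric.closedBall (0 : E) R' by simpa using hx)
    have h2 : φ' x = φ x := rfl
    simpa [h2] using this
  have happ : ∀ x, ‖x‖ ≤ R' → |φ x - Ψ k j x| ≤ M := by
    intro x hx
    rw [hΨ]
    have h1 : φ x = χ k x * φ x := by
      by_cases hxk : ‖x‖ ≤ k
      · rw [hχ2 k x hxk, one_mul]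
      · push Not at hxk
        rw [hk x hxk, mul_zero]
    rw [h1, ← mul_sub, abs_mul, abs_sub_comm, abs_of_nonneg (hχ1 k x).1]
    calc χ k x * |D j x - φ x| ≤ 1 * |D j x - φ x| := by
          gcongr
          exact (hχ1 k x).2
      _ ≤ M := by rw [one_mul]; exact (hj x hx).le
  have hφR : ∀ x, R' < ‖x‖ → φ x = 0 := fun x hx => hk x ((le_max_right _ _).trans_lt hx)
  have hΨR : ∀ x, R' < ‖x‖ → Ψ k j x = 0 := fun x hx => by
    rw [hΨ, hR x ((le_max_left _ _).trans_lt hx), zero_mul]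
  refine ⟨fun i => fnl (u (ψ i)) (Ψ k j), fnl ν (Ψ k j), hψt (k, j), ?_, ?_⟩
  · refine Eventually.of_forall fun i => ?_
    refine (abs_integral_sub_le hφc (Ψ k j).continuous hφR hΨR happ hMpos.le (hC (ψ i))).trans ?_
    rw [hM, div_mul_eq_mul_div, div_le_iff₀ (by positivity)]
    nlinarith [C.coe_nonneg, C'.coe_nonneg]
  · refine (abs_integral_sub_le hφc (Ψ k j).continuous hφR hΨR happ hMpos.le hC').trans ?_
    rw [hM, div_mul_eq_mul_div, div_le_iff₀ (by positivity)]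
    nlinarith [C.coe_nonneg, C'.coe_nonneg]

end Vale.Agent.P218
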